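import Vale.Agent.Lib.P171.Limit

/-!
# Semicontinuity and lower bounds for the pressure
-/

open MeasureTheory Finset Filter Topology
open scoped ENNReal

set_option linter.unusedSectionVars false

namespace P171

/-! ### Lower semicontinuity -/

lemma En_KS_diff_le {s s' : ℕ → ℝ} (hs : Adm s) (hs' : Adm s') {δ : ℝ}
    (hδ : ∑' j, |s j - s' j| ≤ δ) (m : Multiset E3) :
    En (KS s) m - En (KS s') m ≤ δ * (Multiset.card m : ℝ) ^ 2 := by
  have h1 : HasSum (fun j => (s j - s' j) * En (Jk j) m) (En (KS s) m - En (KS s') m) := by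
    simpa only [sub_mul] using (hs.hasSum_En m).sub (hs'.hasSum_En m)
  have hsum : Summable (fun j => |s j - s' j|) := (hs.summable.sub hs'.summable).abs
  have h2 : HasSum (fun j => |s j - s' j| * (Multiset.card m : ℝ) ^ 2)
      ((∑' j, |s j - s' j|) * (Multiset.card m : ℝ) ^ 2) := hsum.hasSum.mul_right _
  have h3 := hasSum_le (fun j => ?_) h1 h2
  · exact h3.trans (mul_le_mul_of_nonneg_right hδ (by positivity))
  · calc (s j - s' j) * En (Jk j) m ≤ |s j - s' j| * En (Jk j) m :=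
          mul_le_mul_of_nonneg_right (le_abs_self _) (En_Jk_nonneg j m)
      _ ≤ |s j - s' j| * (Multiset.card m : ℝ) ^ 2 :=
          mul_le_mul_of_nonneg_left (En_Jk_le_card j m) (abs_nonneg _)

lemma Ham_le_add {s s' : ℕ → ℝ} (hs : Adm s) (hs' : Adm s') {δ : ℝ}
    (hδ : ∑' j, |s j - s' j| ≤ δ) (μ μ' : ℝ) (m : Multiset E3) :
    Ham s μ m ≤ |μ - μ'| * (Multiset.card m : ℝ) + δ * (Multiset.card m : ℝ) ^ 2 + Ham s' μ' m := by
  unfold Ham
  rw [Us_eq, Us_eq]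
  have h1 := En_KS_diff_le hs hs' hδ m
  have h2 : (μ - μ') * (Multiset.card m : ℝ) ≤ |μ - μ'| * (Multiset.card m : ℝ) :=
    mul_le_mul_of_nonneg_right (le_abs_self _) (by positivity)
  linarith

lemma Xi_partial_le {s s' : ℕ → ℝ} (hs : Adm s) (hs' : Adm s') {δ : ℝ} (hδ0 : 0 ≤ δ)
    (hδ : ∑' j, |s j - s' j| ≤ δ) (μ μ' : ℝ) {Λ : Set E3} (hΛ : MeasurableSet Λ) (N₀ : ℕ) :
    ∑ N ∈ Finset.range N₀, (N.factorial : ℝ≥0∞)⁻¹ * It (volume.restrict Λ) N (WW s μ)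
      ≤ ENNReal.ofReal (Real.exp (|μ - μ'| * N₀ + δ * (N₀ : ℝ) ^ 2)) * Xi Λ s' μ' := by
  set κ := ENNReal.ofReal (Real.exp (|μ - μ'| * N₀ + δ * (N₀ : ℝ) ^ 2)) with hκ
  have hCM : CM (WW s' μ') := CM_Wexp (RM_Ham hs' μ')
  have h1 : ∀ N ∈ Finset.range N₀, (N.factorial : ℝ≥0∞)⁻¹ * It (volume.restrict Λ) N (WW s μ)
      ≤ κ * ((N.factorial : ℝ≥0∞)⁻¹ * It (volume.restrict Λ) N (WW s' μ')) := by
    intro N hN
    have hN' : (N : ℝ) ≤ N₀ := by exact_mod_cast (Finset.mem_range.1 hN).le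
    have h2 : It (volume.restrict Λ) N (WW s μ) ≤ It (volume.restrict Λ) N (fun m => κ * WW s' μ' m) := by
      refine It_restrict_mono hΛ (fun m hm _ => ?_)
      unfold WW Wexp
      rw [hκ, ← ENNReal.ofReal_mul (Real.exp_pos _).le, ← Real.exp_add]
      refine ENNReal.ofReal_le_ofReal (Real.exp_le_exp.2 ?_)
      refine (Ham_le_add hs hs' hδ μ μ' m).trans ?_
      rw [hm]
      have h3 : |μ - μ'| * (N : ℝ) ≤ |μ - μ'| * N₀ := mul_le_mul_of_nonneg_left hN' (abs_nonneg _)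
      have h4 : δ * (N : ℝ) ^ 2 ≤ δ * (N₀ : ℝ) ^ 2 :=
        mul_le_mul_of_nonneg_left (pow_le_pow_left₀ (by positivity) hN' 2) hδ0
      linarith
    rw [It_const_mul _ _ hCM] at h2
    calc (N.factorial : ℝ≥0∞)⁻¹ * It (volume.restrict Λ) N (WW s μ)
        ≤ (N.factorial : ℝ≥0∞)⁻¹ * (κ * It (volume.restrict Λ) N (WW s' μ')) := by gcongr
      _ = _ := by ring
  calc ∑ N ∈ Finset.range N₀, (N.factorial : ℝ≥0∞)⁻¹ * It (volume.restrict Λ) N (WW s μ)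
      ≤ ∑ N ∈ Finset.range N₀, κ * ((N.factorial : ℝ≥0∞)⁻¹ * It (volume.restrict Λ) N (WW s' μ')) :=
        Finset.sum_le_sum h1
    _ = κ * ∑ N ∈ Finset.range N₀, ((N.factorial : ℝ≥0∞)⁻¹ * It (volume.restrict Λ) N (WW s' μ')) := by
        rw [Finset.mul_sum]
    _ ≤ κ * Xi Λ s' μ' := by
        gcongr
        exact ENNReal.sum_le_tsum _

/-- Lower semicontinuity of the pressure. -/
lemma Pr_lsc {s : ℕ → ℝ} (hs : Adm s) (μ c : ℝ) (hc : c < Pr s μ) :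
    ∃ η : ℝ, 0 < η ∧ ∀ (s' : ℕ → ℝ) (μ' : ℝ), Adm s' → ∑' j, |s j - s' j| ≤ η → |μ - μ'| ≤ η →
      c < Pr s' μ' := by
  obtain ⟨ℓ, hℓ⟩ := exists_lt_of_lt_ciSup hc
  set Λ := cubeL ((ℓ + 1 : ℕ) : ℝ) with hΛdef
  have hΛ : MeasurableSet Λ := measurableSet_cubeL _
  set X := Xi Λ s μ with hX
  have hXtop : X ≠ ∞ := Xi_cube_ne_top hs μ _
  have hp : (0 : ℝ) < ((ℓ : ℝ) + 3) ^ 3 := by positivity
  have h1 : c * ((ℓ : ℝ) + 3) ^ 3 < lg X := by
    rw [lt_inv_mul_iff₀ hp] at hℓ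
    linarith
  obtain ⟨y', hy1, hy2⟩ := exists_between h1
  set y := c * ((ℓ : ℝ) + 3) ^ 3 with hy
  have h2 : ENNReal.ofReal (Real.exp y') < X := by
    have h3 : 0 < X.toReal := by
      have : (1 : ℝ≥0∞).toReal ≤ X.toReal := ENNReal.toReal_mono hXtop (one_le_Xi _ s μ)
      simp at this
      linarith
    rw [ENNReal.ofReal_lt_iff_lt_toReal (Real.exp_pos _).le hXtop]
    unfold lg at hy2
    rwa [Real.lt_log_iff_exp_lt h3] at hy2
  have h3 : X = ⨆ N₀ : ℕ, ∑ N ∈ Finset.range N₀, (N.factorial : ℝ≥0∞)⁻¹ * It (volume.restrict Λ) N (WW s μ) := by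
    rw [hX]
    unfold Xi II
    rw [ENNReal.tsum_eq_iSup_nat]
  rw [h3] at h2
  obtain ⟨N₀, hN₀⟩ := lt_iSup_iff.1 h2
  set κ := y' - y with hκ
  have hκpos : 0 < κ := sub_pos.2 hy1
  refine ⟨κ / ((N₀ : ℝ) + (N₀ : ℝ) ^ 2 + 1), by positivity, fun s' μ' hs' hδ hμ => ?_⟩
  set η := κ / ((N₀ : ℝ) + (N₀ : ℝ) ^ 2 + 1) with hη
  have hη0 : 0 < η := by positivity
  have h4 := Xi_partial_le hs hs' hη0.le hδ μ μ' hΛ N₀
  have h5 : |μ - μ'| * N₀ + η * (N₀ : ℝ) ^ 2 ≤ κ := by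
    have h6 : |μ - μ'| * N₀ ≤ η * N₀ := mul_le_mul_of_nonneg_right hμ (by positivity)
    have h7 : η * ((N₀ : ℝ) + (N₀ : ℝ) ^ 2 + 1) = κ := by
      rw [hη]; field_simp
    nlinarith
  have h6 : ENNReal.ofReal (Real.exp y') <
      ENNReal.ofReal (Real.exp κ) * Xi Λ s' μ' := by
    refine lt_of_lt_of_le hN₀ (h4.trans ?_)
    gcongr
  have hXtop' : Xi Λ s' μ' ≠ ∞ := Xi_cube_ne_top hs' μ' _
  have h7 : ENNReal.ofReal (Real.exp y) < Xi Λ s' μ' := by
    by_contra hcon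
    push Not at hcon
    have h8 : ENNReal.ofReal (Real.exp κ) * Xi Λ s' μ' ≤
        ENNReal.ofReal (Real.exp κ) * ENNReal.ofReal (Real.exp y) := by gcongr
    rw [← ENNReal.ofReal_mul (Real.exp_pos _).le, ← Real.exp_add] at h8
    have h9 : κ + y = y' := by rw [hκ]; ring
    rw [h9] at h8
    exact absurd (lt_of_lt_of_le h6 h8) (lt_irrefl _)
  have h8 := lt_lg_of_lt hXtop' h7
  have h9 : c < (((ℓ : ℝ) + 3) ^ 3)⁻¹ * lg (Xi Λ s' μ') := by
    rw [lt_inv_mul_iff₀ hp]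
    linarith
  exact lt_of_lt_of_le h9 (term_le_Pr hs' μ' ℓ)

/-! ### The lattice gas lower bound and the upper bound at the origin -/

lemma Us_zero_fun (m : Multiset E3) : Us (fun _ => 0) m = AA * En (indK 2) m := by
  rw [Us_eq]
  have : KS (fun _ => 0) = fun _ _ => 0 := by
    funext a b
    simp [KS]
  rw [this]
  simp [En, Dk, Bil, Tr]

lemma En_indK_nonneg (m : Multiset E3) : 0 ≤ En (indK 2) m :=
  En_nonneg (indK_symm 2) (indK_nonneg 2) m

/-- One particle in the unit cube. -/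
lemma Pr_zero_ge (ν : ℝ) : ν / 27 ≤ Pr (fun _ => 0) ν := by
  have hs := Adm.zero
  have h1 := term_le_Pr hs ν 0
  have e1 : (((0 : ℕ) : ℝ) + 3) ^ 3 = 27 := by norm_num
  have e2 : (((0 + 1 : ℕ)) : ℝ) = 1 := by norm_num
  rw [e1, e2] at h1
  have h2 : ENNReal.ofReal (Real.exp ν) ≤ Xi (cubeL 1) (fun _ => 0) ν := by
    unfold Xi II
    refine le_trans ?_ (ENNReal.le_tsum 1)
    simp only [Nat.factorial_one, Nat.cast_one, inv_one, one_mul, It_succ, It_zero]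
    have h3 : ∀ a ∈ cubeL 1, WW (fun _ => 0) ν (a ::ₘ 0) = ENNReal.ofReal (Real.exp ν) := by
      intro a _
      unfold WW Wexp Ham
      rw [Us_zero_fun]
      have : (a ::ₘ (0 : Multiset E3)) = {a} := rfl
      rw [this, En_singleton (indK_symm 2)]
      simp
    rw [setLIntegral_congr_fun (measurableSet_cubeL 1) h3]
    rw [setLIntegral_const, volume_cubeL (by norm_num)]
    simp
  have h3 : ν ≤ lg (Xi (cubeL 1) (fun _ => 0) ν) := by
    have h5 := Xi_cube_ne_top hs ν 1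
    unfold lg
    have h6 : Real.exp ν ≤ (Xi (cubeL 1) (fun _ => 0) ν).toReal :=
      (ENNReal.ofReal_le_iff_le_toReal (by simpa using h5)).1 h2
    rw [Real.le_log_iff_exp_le (lt_of_lt_of_le (Real.exp_pos ν) h6)]
    exact h6
  have h4 : ν / 27 ≤ (27 : ℝ)⁻¹ * lg (Xi (cubeL 1) (fun _ => 0) ν) := by
    rw [div_eq_inv_mul]
    exact mul_le_mul_of_nonneg_left h3 (by norm_num)
  exact h4.trans h1

/-- The ideal gas bound at the origin. -/
lemma Pr_origin_le : Pr (fun _ => 0) 0 ≤ 1 := by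
  refine ciSup_le (fun ℓ => ?_)
  have hp : (0 : ℝ) < ((ℓ : ℝ) + 3) ^ 3 := by positivity
  rw [inv_mul_le_iff₀ hp, mul_one]
  have h1 : Xi (cubeL ((ℓ + 1 : ℕ) : ℝ)) (fun _ => 0) 0 ≤
      ENNReal.ofReal (Real.exp (0 + (((ℓ + 1 : ℕ) : ℝ)) ^ 3)) := by
    refine II_le_of_bound (measurableSet_cubeL _) (by positivity)
      (volume_cubeL (by positivity)).le (fun m _ => ?_)
    refine ENNReal.ofReal_le_ofReal (Real.exp_le_exp.2 ?_)
    unfold Ham
    rw [Us_zero_fun]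
    have := En_indK_nonneg m
    have hA := AA_pos
    nlinarith [mul_nonneg hA.le this]
  have h2 := lg_le_of_le (one_le_Xi _ _ _) h1
  refine h2.trans ?_
  rw [zero_add]
  push_cast
  exact pow_le_pow_left₀ (by positivity) (by linarith) 3

/-! ### The lower bound for the long-range energy -/

lemma Dk_Jk_ge (j : ℕ) {L : ℝ} (hL : 0 < L) {m : Multiset E3} (hm : ∀ a ∈ m, a ∈ cubeL L) :
    (Multiset.card m : ℝ) ^ 2 / (2 * L + Rn j) ^ 3 ≤ Dk (Jk j) m := by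
  set R : ℝ := (Rn j : ℝ) with hR
  have hRpos : 0 < R := Rn_real_pos j
  have hR2 : 0 < R / 2 := by positivity
  set c := gridC (R / 2) 0 with hc
  set u : ℤ := ⌊2 * L / R⌋ with hu
  have hu0 : 0 ≤ u := Int.floor_nonneg.2 (by positivity)
  set K : Finset (Fin 3 → ℤ) := Fintype.piFinset (fun _ => Finset.Icc (0 : ℤ) u) with hK
  have hmem : ∀ a ∈ m, c a ∈ K := by
    intro a ha
    rw [hK, Fintype.mem_piFinset]
    intro i
    have h := hm a ha i
    rw [Finset.mem_Icc]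
    constructor
    · refine Int.floor_nonneg.2 ?_
      have : 0 ≤ a i - 0 := by linarith [h.1]
      positivity
    · refine Int.floor_le_floor ?_
      rw [sub_zero, div_le_div_iff₀ hR2 hRpos]
      nlinarith [h.2]
  have h1 := card_sq_le c K hmem
  have hcard : (K.card : ℝ) = ((u : ℝ) + 1) ^ 3 := by
    rw [hK, Fintype.card_piFinset]
    simp only [Finset.prod_const, Finset.card_univ, Fintype.card_fin, Int.card_Icc]
    have h2 : (u + 1 - 0).toNat = u.toNat + 1 := by omega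
    rw [h2]
    push_cast
    have h3 : (u.toNat : ℝ) = (u : ℝ) := by
      rw [← Int.cast_natCast, Int.toNat_of_nonneg hu0]
    rw [h3]
  have hu1 : (u : ℝ) ≤ 2 * L / R := Int.floor_le _
  have hu2 : (0 : ℝ) ≤ (u : ℝ) := by exact_mod_cast hu0
  have hcard2 : (K.card : ℝ) ≤ (2 * L / R + 1) ^ 3 := by
    rw [hcard]
    exact pow_le_pow_left₀ (by positivity) (by linarith) 3
  have hS : Sc c m ≤ Dk (indK R) m := by
    refine Bil_mono (fun a _ b _ => ?_)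
    unfold sameK indK
    by_cases hab : c a = c b
    · have h2 : ∀ i, |a i - b i| < R / 2 := by
        intro i
        have h3 : ⌊(a i - 0) / (R / 2)⌋ = ⌊(b i - 0) / (R / 2)⌋ := congrFun hab i
        have h4 := Int.abs_sub_lt_one_of_floor_eq_floor h3
        have h5 : (a i - 0) / (R / 2) - (b i - 0) / (R / 2) = (a i - b i) / (R / 2) := by
          field_simp
          ring
        rw [h5, abs_div, abs_of_pos hR2, div_lt_one hR2] at h4
        exact h4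
      have h3 := dist_lt_of_coord h2
      have h4 : dist a b < R := by linarith
      simp [hab, h4]
    · simp only [hab, if_false]
      split_ifs <;> norm_num
  have hSc := Sc_nonneg c m
  have h2 : (Multiset.card m : ℝ) ^ 2 ≤ (2 * L / R + 1) ^ 3 * Dk (indK R) m := by
    calc (Multiset.card m : ℝ) ^ 2 ≤ (K.card : ℝ) * Sc c m := h1
      _ ≤ (2 * L / R + 1) ^ 3 * Sc c m := mul_le_mul_of_nonneg_right hcard2 hSc
      _ ≤ _ := mul_le_mul_of_nonneg_left hS (by positivity)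
  have h3 : Dk (Jk j) m = (R ^ 3)⁻¹ * Dk (indK R) m := by
    unfold Dk Jk
    rw [Bil_const_mul]
  rw [h3, div_le_iff₀ (by positivity)]
  have h4 : (R ^ 3)⁻¹ * Dk (indK R) m * (2 * L + R) ^ 3 = (2 * L / R + 1) ^ 3 * Dk (indK R) m := by
    field_simp
  rw [h4]
  exact h2

lemma En_Jk_ge (j : ℕ) (ρ : ℝ) {L : ℝ} (hL : 0 < L) {m : Multiset E3}
    (hm : ∀ a ∈ m, a ∈ cubeL L) :
    (ρ - 1 / 2000) * (Multiset.card m : ℝ) - ρ ^ 2 / 2 * (2 * L + Rn j) ^ 3 ≤ En (Jk j) m := by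
  have h1 := Dk_Jk_ge j hL hm
  have hRpos : (0 : ℝ) < Rn j := Rn_real_pos j
  set X : ℝ := (2 * L + Rn j) ^ 3 with hX
  have hXpos : 0 < X := by positivity
  set n : ℝ := (Multiset.card m : ℝ) with hn
  have h2 : 2 * ρ * n - ρ ^ 2 * X ≤ n ^ 2 / X := by
    rw [le_div_iff₀ hXpos]
    nlinarith [sq_nonneg (n - ρ * X)]
  have h3 : Tr (Jk j) m ≤ n / 1000 := by
    unfold Tr Jk indK
    simp only [dist_self, hRpos, if_true, mul_one, Multiset.map_const', Multiset.sum_replicate,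
      nsmul_eq_mul]
    have := Rn_inv_le j
    have h4 : 0 ≤ n := by positivity
    rw [div_eq_mul_inv]
    nlinarith
  unfold En
  linarith

/-- The comparison between the potentials with and without long-range part. -/
lemma Ham_ge_of_cube {s : ℕ → ℝ} (hs : Adm s) (J : ℕ) (μ ρ : ℝ) {L : ℝ} (hL : 0 < L)
    {m : Multiset E3} (hm : ∀ a ∈ m, a ∈ cubeL L) :
    Ham (fun _ => 0) (μ + (∑ j ∈ Finset.range J, s j) * (ρ - 1 / 2000)) m
      ≤ (∑ j ∈ Finset.range J, s j * (ρ ^ 2 / 2 * (2 * L + Rn j) ^ 3)) + Ham s μ m := by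
  unfold Ham
  rw [Us_zero_fun, Us_eq]
  have h1 : ∑ j ∈ Finset.range J, s j * En (Jk j) m ≤ En (KS s) m :=
    sum_le_hasSum _ (fun j _ => mul_nonneg (hs.nonneg j) (En_Jk_nonneg j m)) (hs.hasSum_En m)
  have h2 : ∑ j ∈ Finset.range J, s j * ((ρ - 1 / 2000) * (Multiset.card m : ℝ) - ρ ^ 2 / 2 * (2 * L + Rn j) ^ 3)
      ≤ ∑ j ∈ Finset.range J, s j * En (Jk j) m :=
    Finset.sum_le_sum (fun j _ => mul_le_mul_of_nonneg_left (En_Jk_ge j ρ hL hm) (hs.nonneg j))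
  have h3 : ∑ j ∈ Finset.range J, s j * ((ρ - 1 / 2000) * (Multiset.card m : ℝ) - ρ ^ 2 / 2 * (2 * L + Rn j) ^ 3)
      = (∑ j ∈ Finset.range J, s j) * ((ρ - 1 / 2000) * (Multiset.card m : ℝ))
        - ∑ j ∈ Finset.range J, s j * (ρ ^ 2 / 2 * (2 * L + Rn j) ^ 3) := by
    rw [Finset.sum_mul, ← Finset.sum_sub_distrib]
    refine Finset.sum_congr rfl (fun j _ => ?_)
    ring
  have h4 : (μ + (∑ j ∈ Finset.range J, s j) * (ρ - 1 / 2000)) * (Multiset.card m : ℝ)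
      = μ * (Multiset.card m : ℝ) + (∑ j ∈ Finset.range J, s j) * ((ρ - 1 / 2000) * (Multiset.card m : ℝ)) := by
    ring
  rw [h4]
  linarith

lemma lg_Xi_ge_of_cube {s : ℕ → ℝ} (hs : Adm s) (J : ℕ) (μ ρ : ℝ) {L : ℝ} (hL : 0 < L) :
    lg (Xi (cubeL L) (fun _ => 0) (μ + (∑ j ∈ Finset.range J, s j) * (ρ - 1 / 2000)))
      ≤ (∑ j ∈ Finset.range J, s j * (ρ ^ 2 / 2 * (2 * L + Rn j) ^ 3)) + lg (Xi (cubeL L) s μ) := by
  set C := ∑ j ∈ Finset.range J, s j * (ρ ^ 2 / 2 * (2 * L + Rn j) ^ 3) with hC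
  have hC0 : 0 ≤ C := by
    refine Finset.sum_nonneg (fun j _ => mul_nonneg (hs.nonneg j) ?_)
    have := Rn_real_pos j
    positivity
  set ν := μ + (∑ j ∈ Finset.range J, s j) * (ρ - 1 / 2000) with hν
  have hCM : CM (WW s μ) := CM_Wexp (RM_Ham hs μ)
  have h1 : Xi (cubeL L) (fun _ => 0) ν ≤ ENNReal.ofReal (Real.exp C) * Xi (cubeL L) s μ := by
    unfold Xi
    rw [← II_const_mul _ _ hCM]
    refine II_restrict_mono (measurableSet_cubeL L) (fun m hm => ?_)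
    unfold WW Wexp
    rw [← ENNReal.ofReal_mul (Real.exp_pos _).le, ← Real.exp_add]
    exact ENNReal.ofReal_le_ofReal (Real.exp_le_exp.2 (Ham_ge_of_cube hs J μ ρ hL hm))
  have h2 : (1 : ℝ≥0∞) ≤ ENNReal.ofReal (Real.exp C) := by
    rw [← ENNReal.ofReal_one]
    exact ENNReal.ofReal_le_ofReal (Real.one_le_exp hC0)
  have h3 := lg_mono (one_le_Xi _ _ ν) (ENNReal.mul_ne_top ENNReal.ofReal_ne_top (Xi_cubeL_ne_top hs μ L)) h1
  rw [lg_mul h2 ENNReal.ofReal_ne_top (one_le_Xi _ s μ) (Xi_cubeL_ne_top hs μ L)] at h3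
  have h4 : lg (ENNReal.ofReal (Real.exp C)) = C := by
    unfold lg
    rw [ENNReal.toReal_ofReal (Real.exp_pos C).le, Real.log_exp]
  rwa [h4] at h3

/-- The lower bound for the pressure at truncation level `J`. -/
lemma Pr_ge_trunc {s : ℕ → ℝ} (hs : Adm s) (J : ℕ) (μ ρ : ℝ) :
    Pr (fun _ => 0) (μ + (∑ j ∈ Finset.range J, s j) * (ρ - 1 / 2000))
      ≤ (∑ j ∈ Finset.range J, s j * (ρ ^ 2 / 2 * 8)) + Pr s μ := by
  set ν := μ + (∑ j ∈ Finset.range J, s j) * (ρ - 1 / 2000) with hν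
  have h1 := Pr_tendsto (Adm.zero) ν
  have h2 := Pr_tendsto hs μ
  have h3 : ∀ j : ℕ, Tendsto (fun L : ℝ => s j * (ρ ^ 2 / 2 * (2 + (Rn j : ℝ) / L) ^ 3)) atTop
      (𝓝 (s j * (ρ ^ 2 / 2 * 8))) := by
    intro j
    have h4 : Tendsto (fun L : ℝ => (Rn j : ℝ) / L) atTop (𝓝 0) :=
      tendsto_const_nhds.div_atTop tendsto_id
    have h5 : Tendsto (fun L : ℝ => (2 + (Rn j : ℝ) / L) ^ 3) atTop (𝓝 ((2 + 0) ^ 3)) :=
      (tendsto_const_nhds.add h4).pow 3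
    have h6 : ((2 + 0 : ℝ)) ^ 3 = 8 := by norm_num
    rw [h6] at h5
    exact (h5.const_mul _).const_mul _
  have h7 := tendsto_finsetSum (Finset.range J) (fun j _ => h3 j)
  refine le_of_tendsto_of_tendsto h1 (h7.add h2) ?_
  filter_upwards [eventually_gt_atTop (0 : ℝ)] with L hL
  have h8 := lg_Xi_ge_of_cube hs J μ ρ hL
  have h9 : ∑ j ∈ Finset.range J, s j * (ρ ^ 2 / 2 * (2 + (Rn j : ℝ) / L) ^ 3)
      = (L ^ 3)⁻¹ * ∑ j ∈ Finset.range J, s j * (ρ ^ 2 / 2 * (2 * L + Rn j) ^ 3) := by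
    rw [Finset.mul_sum]
    refine Finset.sum_congr rfl (fun j _ => ?_)
    field_simp
  rw [h9, ← mul_add]
  exact mul_le_mul_of_nonneg_left h8 (by positivity)

/-- The fundamental lower bound: `P(s, μ) ≥ μ / 27 + σ(s) / 20000`. -/
theorem Pr_ge {s : ℕ → ℝ} (hs : Adm s) (μ : ℝ) :
    μ / 27 + (∑' j, s j) / 20000 ≤ Pr s μ := by
  have h1 : ∀ J : ℕ, μ / 27 + (∑ j ∈ Finset.range J, s j) / 20000 ≤ Pr s μ := by
    intro J
    have h2 := Pr_ge_trunc hs J μ (1 / 216)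
    have h3 := Pr_zero_ge (μ + (∑ j ∈ Finset.range J, s j) * (1 / 216 - 1 / 2000))
    rw [← Finset.sum_mul] at h2
    have h4 : 0 ≤ ∑ j ∈ Finset.range J, s j := Finset.sum_nonneg (fun j _ => hs.nonneg j)
    norm_num at h2 h3 ⊢
    linarith
  have h5 := hs.summable.hasSum.tendsto_sum_nat
  have h6 : Tendsto (fun J : ℕ => μ / 27 + (∑ j ∈ Finset.range J, s j) / 20000) atTop
      (𝓝 (μ / 27 + (∑' j, s j) / 20000)) :=
    tendsto_const_nhds.add (h5.div_const _)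
  exact le_of_tendsto' h6 h1

end P171
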