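import Mathlib

/-!
# Configuration integrals

Iterated integrals over multisets of points, the exponential formula for a union of
disjoint regions, and the comparison with integrals over `Fin N → E`.
-/

open MeasureTheory Finset
open scoped ENNReal

set_option linter.unusedSectionVars false

namespace P171

variable {E : Type} [MeasurableSpace E]

/-- The multiset of points of a tuple. -/
def conf {N : ℕ} (x : Fin N → E) : Multiset E := ↑(List.ofFn x)

lemma conf_cons {N : ℕ} (a : E) (x : Fin N → E) :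
    conf (Fin.cons a x : Fin (N + 1) → E) = a ::ₘ conf x := by
  simp [conf, List.ofFn_succ]

@[simp] lemma conf_zero (x : Fin 0 → E) : conf x = 0 := by
  simp [conf]

@[simp] lemma card_conf {N : ℕ} (x : Fin N → E) : Multiset.card (conf x) = N := by
  simp [conf]

lemma measurable_cons {T : Type} [MeasurableSpace T] {N : ℕ} {f : T → E} {g : T → Fin N → E}
    (hf : Measurable f) (hg : Measurable g) :
    Measurable (fun t => (Fin.cons (f t) (g t) : Fin (N + 1) → E)) := by
  refine measurable_pi_lambda _ (fun i => ?_)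
  refine Fin.cases ?_ (fun j => ?_) i
  · simpa using hf
  · simpa [Function.comp_def] using (measurable_pi_apply j).comp hg

/-- Iterated integral of a function of multisets. -/
noncomputable def It (μ : Measure E) : ℕ → (Multiset E → ℝ≥0∞) → ℝ≥0∞
  | 0, f => f 0
  | N + 1, f => ∫⁻ a, It μ N (fun m => f (a ::ₘ m)) ∂μ

@[simp] lemma It_zero (μ : Measure E) (f : Multiset E → ℝ≥0∞) : It μ 0 f = f 0 := rfl

lemma It_succ (μ : Measure E) (N : ℕ) (f : Multiset E → ℝ≥0∞) :
    It μ (N + 1) f = ∫⁻ a, It μ N (fun m => f (a ::ₘ m)) ∂μ := rfl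

/-- Joint measurability of a family of functions of multisets. -/
def JM {T : Type} [MeasurableSpace T] (g : T → Multiset E → ℝ≥0∞) : Prop :=
  ∀ k, Measurable (fun p : T × (Fin k → E) => g p.1 (conf p.2))

/-- Measurability of a function of multisets. -/
def CM (f : Multiset E → ℝ≥0∞) : Prop :=
  ∀ N, Measurable (fun x : Fin N → E => f (conf x))

lemma CM.toJM {f : Multiset E → ℝ≥0∞} (hf : CM f) {T : Type} [MeasurableSpace T] :
    JM (fun (_ : T) m => f m) := fun k => (hf k).comp measurable_snd

lemma JM.cons {T : Type} [MeasurableSpace T] {g : T → Multiset E → ℝ≥0∞} (hg : JM g) :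
    JM (fun (p : T × E) m => g p.1 (p.2 ::ₘ m)) := by
  intro k
  have h := hg (k + 1)
  have h2 : Measurable (fun q : (T × E) × (Fin k → E) =>
      ((q.1.1, (Fin.cons q.1.2 q.2 : Fin (k + 1) → E)) : T × (Fin (k + 1) → E))) :=
    (measurable_fst.comp measurable_fst).prodMk
      (measurable_cons (measurable_snd.comp measurable_fst) measurable_snd)
  have := h.comp h2
  simpa [Function.comp_def, conf_cons] using this

lemma JM.cons_const {T : Type} [MeasurableSpace T] {g : T → Multiset E → ℝ≥0∞} (hg : JM g) (a : E) :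
    JM (fun (t : T) m => g t (a ::ₘ m)) := by
  intro k
  have h := hg.cons k
  have h2 : Measurable (fun q : T × (Fin k → E) => (((q.1, a), q.2) : (T × E) × (Fin k → E))) :=
    (measurable_fst.prodMk measurable_const).prodMk measurable_snd
  simpa [Function.comp_def] using h.comp h2

/-- A jointly measurable family, frozen at a parameter value. -/
lemma JM.freeze {T : Type} [MeasurableSpace T] {g : T → Multiset E → ℝ≥0∞} (hg : JM g) (t : T) :
    CM (g t) := by
  intro N
  have h2 : Measurable (fun x : Fin N → E => ((t, x) : T × (Fin N → E))) :=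
    measurable_const.prodMk measurable_id
  simpa [Function.comp_def] using (hg N).comp h2

lemma CM.cons {f : Multiset E → ℝ≥0∞} (hf : CM f) (a : E) : CM (fun m => f (a ::ₘ m)) :=
  ((hf.toJM (T := Unit)).cons_const a).freeze ()

/-- The iterated integral is jointly measurable in the parameters and the base configuration. -/
lemma JM.It (μ : Measure E) [SFinite μ] {T : Type} [MeasurableSpace T]
    {g : T → Multiset E → ℝ≥0∞} (hg : JM g) (N : ℕ) :
    JM (fun t m => P171.It μ N (fun m' => g t (m + m'))) := by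
  induction N with
  | zero =>
    intro k
    simpa [P171.It] using hg k
  | succ N ih =>
    intro k
    have h := ih (k + 1)
    have h2 : Measurable (fun q : (T × (Fin k → E)) × E =>
        ((q.1.1, (Fin.cons q.2 q.1.2 : Fin (k + 1) → E)) : T × (Fin (k + 1) → E))) :=
      (measurable_fst.comp measurable_fst).prodMk
        (measurable_cons measurable_snd (measurable_snd.comp measurable_fst))
    have h3 := Measurable.lintegral_prod_right' (ν := μ) (h.comp h2)
    have h4 : ∀ p : T × (Fin k → E), (∫⁻ y, ((fun p => P171.It μ N fun m' => g p.1 (conf p.2 + m')) ∘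
        fun q : (T × (Fin k → E)) × E =>
          ((q.1.1, (Fin.cons q.2 q.1.2 : Fin (k + 1) → E)) : T × (Fin (k + 1) → E))) (p, y) ∂μ)
        = P171.It μ (N + 1) (fun m' => g p.1 (conf p.2 + m')) := by
      intro p
      rw [It_succ]
      refine lintegral_congr (fun a => ?_)
      simp only [Function.comp_apply, conf_cons, Multiset.cons_add, Multiset.add_cons]
    simpa only [h4] using h3

lemma CM.It (μ : Measure E) [SFinite μ] {f : Multiset E → ℝ≥0∞} (hf : CM f) (N : ℕ) :
    CM (fun m => P171.It μ N (fun m' => f (m + m'))) :=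
  ((hf.toJM (T := Unit)).It μ N).freeze ()

lemma measurable_It (μ : Measure E) [SFinite μ] {T : Type} [MeasurableSpace T]
    {g : T → Multiset E → ℝ≥0∞} (hg : JM g) (N : ℕ) :
    Measurable (fun t => P171.It μ N (g t)) := by
  have h := (hg.It μ N) 0
  have h2 : Measurable (fun t : T => ((t, Fin.elim0) : T × (Fin 0 → E))) :=
    measurable_id.prodMk measurable_const
  simpa [Function.comp_def] using h.comp h2

/-- Tonelli for iterated integrals. -/
lemma It_lintegral (μ : Measure E) [SFinite μ] {T : Type} [MeasurableSpace T] (ν : Measure T)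
    [SFinite ν] {g : T → Multiset E → ℝ≥0∞} (hg : JM g) (n : ℕ) :
    It μ n (fun m => ∫⁻ t, g t m ∂ν) = ∫⁻ t, It μ n (g t) ∂ν := by
  induction n generalizing g with
  | zero => rfl
  | succ n ih =>
    simp only [It_succ]
    calc ∫⁻ a, It μ n (fun m => ∫⁻ t, g t (a ::ₘ m) ∂ν) ∂μ
        = ∫⁻ a, ∫⁻ t, It μ n (fun m => g t (a ::ₘ m)) ∂ν ∂μ := by
          refine lintegral_congr (fun a => ?_)
          exact ih (hg.cons_const a)
      _ = ∫⁻ t, ∫⁻ a, It μ n (fun m => g t (a ::ₘ m)) ∂μ ∂ν := by
          refine lintegral_lintegral_swap ?_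
          have h := measurable_It μ (T := T × E) (g := fun p m => g p.1 (p.2 ::ₘ m)) hg.cons n
          have h2 : Measurable (fun q : E × T => ((q.2, q.1) : T × E)) :=
            measurable_snd.prodMk measurable_fst
          exact (h.comp h2).aemeasurable

/-- Pulling a sum out of an iterated integral. -/
lemma It_tsum (μ : Measure E) [SFinite μ] {g : ℕ → Multiset E → ℝ≥0∞} (hg : ∀ k, CM (g k))
    (n : ℕ) : It μ n (fun m => ∑' k, g k m) = ∑' k, It μ n (g k) := by
  induction n generalizing g with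
  | zero => rfl
  | succ n ih =>
    simp only [It_succ]
    calc ∫⁻ a, It μ n (fun m => ∑' k, g k (a ::ₘ m)) ∂μ
        = ∫⁻ a, ∑' k, It μ n (fun m => g k (a ::ₘ m)) ∂μ := by
          refine lintegral_congr (fun a => ?_)
          exact ih (fun k => (hg k).cons a)
      _ = ∑' k, ∫⁻ a, It μ n (fun m => g k (a ::ₘ m)) ∂μ := by
          refine lintegral_tsum (fun k => ?_)
          have h := measurable_It μ (T := E) (g := fun a m => g k (a ::ₘ m))
            (by
              intro j
              have h := ((hg k).toJM (T := E)).cons j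
              have h2 : Measurable (fun q : E × (Fin j → E) => (((q.1, q.1), q.2) : (E × E) × (Fin j → E))) :=
                (measurable_fst.prodMk measurable_fst).prodMk measurable_snd
              simpa [Function.comp_def] using h.comp h2) n
          exact h.aemeasurable

/-- Pulling a constant out of an iterated integral. -/
lemma It_const_mul (μ : Measure E) [SFinite μ] (c : ℝ≥0∞) {g : Multiset E → ℝ≥0∞} (hg : CM g)
    (n : ℕ) : It μ n (fun m => c * g m) = c * It μ n g := by
  induction n generalizing g with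
  | zero => rfl
  | succ n ih =>
    simp only [It_succ]
    calc ∫⁻ a, It μ n (fun m => c * g (a ::ₘ m)) ∂μ
        = ∫⁻ a, c * It μ n (fun m => g (a ::ₘ m)) ∂μ := by
          refine lintegral_congr (fun a => ?_)
          exact ih (hg.cons a)
      _ = c * ∫⁻ a, It μ n (fun m => g (a ::ₘ m)) ∂μ := by
          refine lintegral_const_mul _ ?_
          exact measurable_It μ (T := E) (g := fun a m => g (a ::ₘ m))
            (by
              intro j
              have h := ((hg).toJM (T := E)).cons j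
              have h2 : Measurable (fun q : E × (Fin j → E) => (((q.1, q.1), q.2) : (E × E) × (Fin j → E))) :=
                (measurable_fst.prodMk measurable_fst).prodMk measurable_snd
              simpa [Function.comp_def] using h.comp h2) n

lemma It_mul_const (μ : Measure E) [SFinite μ] (c : ℝ≥0∞) {g : Multiset E → ℝ≥0∞} (hg : CM g)
    (n : ℕ) : It μ n (fun m => g m * c) = It μ n g * c := by
  simpa [mul_comm] using It_const_mul μ c hg n

lemma It_const (μ : Measure E) (c : ℝ≥0∞) (n : ℕ) :
    It μ n (fun _ => c) = c * μ Set.univ ^ n := by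
  induction n with
  | zero => simp
  | succ n ih =>
    simp only [It_succ, ih, lintegral_const, pow_succ, mul_assoc]

lemma It_mono_measure {μ ν : Measure E} (h : μ ≤ ν) {f g : Multiset E → ℝ≥0∞}
    (hfg : ∀ m, f m ≤ g m) (n : ℕ) : It μ n f ≤ It ν n g := by
  induction n generalizing f g with
  | zero => exact hfg 0
  | succ n ih =>
    simp only [It_succ]
    exact lintegral_mono' h (fun a => ih (fun m => hfg _))

/-- Monotonicity on a region: only configurations of the right size inside the region count. -/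
lemma It_restrict_mono {μ : Measure E} {A : Set E} (hA : MeasurableSet A)
    {f g : Multiset E → ℝ≥0∞} {n : ℕ}
    (h : ∀ m : Multiset E, Multiset.card m = n → (∀ a ∈ m, a ∈ A) → f m ≤ g m) :
    It (μ.restrict A) n f ≤ It (μ.restrict A) n g := by
  induction n generalizing f g with
  | zero => exact h 0 rfl (by simp)
  | succ n ih =>
    simp only [It_succ]
    refine setLIntegral_mono' hA (fun a ha => ih (fun m hm hm' => h _ (by simp [hm]) ?_))
    intro b hb
    rcases Multiset.mem_cons.1 hb with rfl | hb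
    · exact ha
    · exact hm' b hb

lemma It_restrict_congr {μ : Measure E} {A : Set E} (hA : MeasurableSet A)
    {f g : Multiset E → ℝ≥0∞} {n : ℕ}
    (h : ∀ m : Multiset E, Multiset.card m = n → (∀ a ∈ m, a ∈ A) → f m = g m) :
    It (μ.restrict A) n f = It (μ.restrict A) n g :=
  le_antisymm (It_restrict_mono hA (fun m hm hm' => (h m hm hm').le))
    (It_restrict_mono hA (fun m hm hm' => (h m hm hm').ge))

/-- The `N`-level exponential formula. -/
lemma It_add (μ ν : Measure E) [SFinite μ] [SFinite ν] {f : Multiset E → ℝ≥0∞} (hf : CM f)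
    (N : ℕ) :
    It (μ + ν) N f = ∑ p ∈ antidiagonal N, (N.choose p.1 : ℝ≥0∞) *
      It μ p.1 (fun m₁ => It ν p.2 (fun m₂ => f (m₁ + m₂))) := by
  induction N generalizing f with
  | zero => simp
  | succ N ih =>
    set Φ : ℕ → ℕ → ℝ≥0∞ := fun n k => It μ n (fun m₁ => It ν k (fun m₂ => f (m₁ + m₂))) with hΦ
    have hJ : JM (fun (a : E) m => f (a ::ₘ m)) := by
      intro j
      have h := ((hf).toJM (T := E)).cons j
      have h2 : Measurable (fun q : E × (Fin j → E) => (((q.1, q.1), q.2) : (E × E) × (Fin j → E))) :=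
        (measurable_fst.prodMk measurable_fst).prodMk measurable_snd
      simpa [Function.comp_def] using h.comp h2
    -- the first integral
    have h1 : ∀ n k, ∫⁻ a, It μ n (fun m₁ => It ν k (fun m₂ => f (a ::ₘ (m₁ + m₂)))) ∂μ = Φ (n + 1) k := by
      intro n k
      simp only [hΦ, It_succ, Multiset.cons_add]
    have h2 : ∀ n k, ∫⁻ a, It μ n (fun m₁ => It ν k (fun m₂ => f (a ::ₘ (m₁ + m₂)))) ∂ν = Φ n (k + 1) := by
      intro n k
      have hJ2 : JM (fun (a : E) m₁ => It ν k (fun m₂ => f (a ::ₘ (m₁ + m₂)))) := hJ.It ν k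
      rw [← It_lintegral μ ν hJ2 n]
      simp only [hΦ, It_succ, Multiset.add_cons]
    have hmeas : ∀ n k, Measurable (fun a : E => It μ n (fun m₁ => It ν k (fun m₂ => f (a ::ₘ (m₁ + m₂))))) := by
      intro n k
      exact measurable_It μ (T := E) (hJ.It ν k) n
    rw [It_succ, lintegral_add_measure]
    have h3 : ∀ (ρ : Measure E), ∫⁻ a, It (μ + ν) N (fun m => f (a ::ₘ m)) ∂ρ
        = ∑ p ∈ antidiagonal N, (N.choose p.1 : ℝ≥0∞) *
          ∫⁻ a, It μ p.1 (fun m₁ => It ν p.2 (fun m₂ => f (a ::ₘ (m₁ + m₂)))) ∂ρ := by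
      intro ρ
      calc ∫⁻ a, It (μ + ν) N (fun m => f (a ::ₘ m)) ∂ρ
          = ∫⁻ a, ∑ p ∈ antidiagonal N, (N.choose p.1 : ℝ≥0∞) *
              It μ p.1 (fun m₁ => It ν p.2 (fun m₂ => f (a ::ₘ (m₁ + m₂)))) ∂ρ := by
            refine lintegral_congr (fun a => ?_)
            exact ih (hf.cons a)
        _ = ∑ p ∈ antidiagonal N, ∫⁻ a, (N.choose p.1 : ℝ≥0∞) *
              It μ p.1 (fun m₁ => It ν p.2 (fun m₂ => f (a ::ₘ (m₁ + m₂)))) ∂ρ := by
            refine lintegral_finsetSum _ (fun p _ => ?_)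
            exact (hmeas p.1 p.2).const_mul _
        _ = _ := by
            refine Finset.sum_congr rfl (fun p _ => ?_)
            exact lintegral_const_mul _ (hmeas p.1 p.2)
    rw [h3 μ, h3 ν]
    simp only [h1, h2]
    have h4 := Finset.sum_antidiagonal_choose_succ_mul (R := ℝ≥0∞) Φ N
    rw [h4, add_comm]
    congr 1
    refine Finset.sum_congr rfl (fun p hp => ?_)
    congr 2
    exact Nat.choose_symm_of_eq_add (mem_antidiagonal.1 hp).symm

/-- The grand-canonical integral. -/
noncomputable def II (μ : Measure E) (f : Multiset E → ℝ≥0∞) : ℝ≥0∞ :=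
  ∑' N : ℕ, (N.factorial : ℝ≥0∞)⁻¹ * It μ N f

lemma factorial_inv_choose (n k : ℕ) :
    (((n + k).factorial : ℝ≥0∞))⁻¹ * ((n + k).choose n : ℝ≥0∞)
      = (n.factorial : ℝ≥0∞)⁻¹ * (k.factorial : ℝ≥0∞)⁻¹ := by
  have h := Nat.add_choose_mul_factorial_mul_factorial n k
  rw [← Nat.choose_symm_add] at h
  have h1 : ((n + k).factorial : ℝ≥0∞) = ((n + k).choose n : ℝ≥0∞) * (n.factorial : ℝ≥0∞) * (k.factorial : ℝ≥0∞) := by
    exact_mod_cast h.symm
  have hn : (n.factorial : ℝ≥0∞) ≠ 0 := by exact_mod_cast n.factorial_ne_zero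
  have hk : (k.factorial : ℝ≥0∞) ≠ 0 := by exact_mod_cast k.factorial_ne_zero
  have hc : ((n + k).choose n : ℝ≥0∞) ≠ 0 := by
    exact_mod_cast (Nat.choose_pos (Nat.le_add_right n k)).ne'
  have hc' : ((n + k).choose n : ℝ≥0∞) ≠ ∞ := ENNReal.natCast_ne_top _
  have hn' : (n.factorial : ℝ≥0∞) ≠ ∞ := ENNReal.natCast_ne_top _
  have hk' : (k.factorial : ℝ≥0∞) ≠ ∞ := ENNReal.natCast_ne_top _
  rw [h1, ENNReal.mul_inv (Or.inl (mul_ne_zero hc hn)) (Or.inl (ENNReal.mul_ne_top hc' hn')),
    ENNReal.mul_inv (Or.inl hc) (Or.inl hc')]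
  calc ((n + k).choose n : ℝ≥0∞)⁻¹ * (n.factorial : ℝ≥0∞)⁻¹ * (k.factorial : ℝ≥0∞)⁻¹ * ((n + k).choose n : ℝ≥0∞)
      = (((n + k).choose n : ℝ≥0∞)⁻¹ * ((n + k).choose n : ℝ≥0∞)) * ((n.factorial : ℝ≥0∞)⁻¹ * (k.factorial : ℝ≥0∞)⁻¹) := by ring
    _ = _ := by rw [ENNReal.inv_mul_cancel hc hc', one_mul]

/-- Sum over the antidiagonals. -/
lemma tsum_antidiagonal_eq (a : ℕ → ℕ → ℝ≥0∞) :
    ∑' N : ℕ, ∑ p ∈ antidiagonal N, a p.1 p.2 = ∑' n : ℕ, ∑' k : ℕ, a n k := by
  rw [← ENNReal.tsum_prod]
  rw [← Equiv.tsum_eq (Finset.HasAntidiagonal.sigmaAntidiagonalEquivProd (A := ℕ)) (fun p : ℕ × ℕ => a p.1 p.2)]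
  rw [ENNReal.tsum_sigma']
  refine tsum_congr (fun N => ?_)
  rw [← Finset.tsum_subtype (antidiagonal N) (fun p : ℕ × ℕ => a p.1 p.2)]
  rfl

/-- The exponential formula. -/
lemma II_add (μ ν : Measure E) [SFinite μ] [SFinite ν] {f : Multiset E → ℝ≥0∞} (hf : CM f) :
    II (μ + ν) f = II μ (fun m₁ => II ν (fun m₂ => f (m₁ + m₂))) := by
  have hJ : ∀ k, CM (fun m₁ => (k.factorial : ℝ≥0∞)⁻¹ * It ν k (fun m₂ => f (m₁ + m₂))) := by
    intro k N
    exact ((hf.It ν k) N).const_mul _
  unfold II
  have hL : ∀ N : ℕ, (N.factorial : ℝ≥0∞)⁻¹ * It (μ + ν) N f = ∑ p ∈ antidiagonal N,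
      (p.1.factorial : ℝ≥0∞)⁻¹ * (p.2.factorial : ℝ≥0∞)⁻¹ *
        It μ p.1 (fun m₁ => It ν p.2 (fun m₂ => f (m₁ + m₂))) := by
    intro N
    rw [It_add μ ν hf N, Finset.mul_sum]
    refine Finset.sum_congr rfl (fun p hp => ?_)
    obtain rfl : p.1 + p.2 = N := mem_antidiagonal.1 hp
    rw [← mul_assoc, factorial_inv_choose]
  simp_rw [hL]
  rw [tsum_antidiagonal_eq (fun n k => (n.factorial : ℝ≥0∞)⁻¹ * (k.factorial : ℝ≥0∞)⁻¹ *
        It μ n (fun m₁ => It ν k (fun m₂ => f (m₁ + m₂))))]
  refine tsum_congr (fun n => ?_)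
  rw [It_tsum μ hJ n, ← ENNReal.tsum_mul_left]
  refine tsum_congr (fun k => ?_)
  rw [It_const_mul μ _ (hf.It ν k) n, mul_assoc]

lemma II_mono_measure {μ ν : Measure E} (h : μ ≤ ν) {f g : Multiset E → ℝ≥0∞}
    (hfg : ∀ m, f m ≤ g m) : II μ f ≤ II ν g :=
  ENNReal.tsum_le_tsum (fun N => mul_le_mul_right (It_mono_measure h hfg N) _)

lemma II_restrict_mono {μ : Measure E} {A : Set E} (hA : MeasurableSet A)
    {f g : Multiset E → ℝ≥0∞}
    (h : ∀ m : Multiset E, (∀ a ∈ m, a ∈ A) → f m ≤ g m) :
    II (μ.restrict A) f ≤ II (μ.restrict A) g :=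
  ENNReal.tsum_le_tsum (fun N => mul_le_mul_right
    (It_restrict_mono hA (fun m _ hm' => h m hm')) _)

lemma II_restrict_congr {μ : Measure E} {A : Set E} (hA : MeasurableSet A)
    {f g : Multiset E → ℝ≥0∞}
    (h : ∀ m : Multiset E, (∀ a ∈ m, a ∈ A) → f m = g m) :
    II (μ.restrict A) f = II (μ.restrict A) g :=
  le_antisymm (II_restrict_mono hA (fun m hm' => (h m hm').le))
    (II_restrict_mono hA (fun m hm' => (h m hm').ge))

lemma II_zero_measure (f : Multiset E → ℝ≥0∞) : II (0 : Measure E) f = f 0 := by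
  unfold II
  rw [tsum_eq_single 0]
  · simp
  · intro N hN
    obtain ⟨M, rfl⟩ := Nat.exists_eq_succ_of_ne_zero hN
    simp [It_succ]

lemma II_const_mul (μ : Measure E) [SFinite μ] (c : ℝ≥0∞) {g : Multiset E → ℝ≥0∞} (hg : CM g) :
    II μ (fun m => c * g m) = c * II μ g := by
  unfold II
  rw [← ENNReal.tsum_mul_left]
  refine tsum_congr (fun N => ?_)
  rw [It_const_mul μ c hg N]
  ring

lemma II_mul_const (μ : Measure E) [SFinite μ] (c : ℝ≥0∞) {g : Multiset E → ℝ≥0∞} (hg : CM g) :
    II μ (fun m => g m * c) = II μ g * c := by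
  simpa [mul_comm] using II_const_mul μ c hg

lemma CM.II (μ : Measure E) [SFinite μ] {f : Multiset E → ℝ≥0∞} (hf : CM f) :
    CM (fun m => P171.II μ (fun m' => f (m + m'))) := by
  intro N
  unfold P171.II
  refine Measurable.tsum (fun k => ?_)
  exact ((hf.It μ k) N).const_mul _

/-! ### Measurability of restrictions to a cell -/

/-- Restriction of a configuration is measurable. -/
lemma JM.filter {P : E → Prop} [DecidablePred P] (hP : MeasurableSet {a | P a}) {T : Type}
    [MeasurableSpace T] {g : T → Multiset E → ℝ≥0∞} (hg : JM g) :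
    JM (fun t m => g t (m.filter P)) := by
  intro k
  induction k generalizing T with
  | zero =>
    simpa using (hg 0)
  | succ k ih =>
    have hconf : ∀ x : Fin (k + 1) → E, conf x = x 0 ::ₘ conf (Fin.tail x) := by
      intro x
      conv_lhs => rw [← Fin.cons_self_tail x]
      rw [conf_cons]
    have h1 := @ih (T × E) _ (fun p m => g p.1 (p.2 ::ₘ m)) hg.cons
    have h2 := @ih T _ g hg
    have htail : Measurable (fun x : Fin (k + 1) → E => Fin.tail x) := by
      refine measurable_pi_lambda _ (fun i => ?_)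
      exact measurable_pi_apply _
    have hfst : Measurable (fun x : Fin (k + 1) → E => x 0) := measurable_pi_apply 0
    have h1' := h1.comp (((measurable_fst.prodMk (hfst.comp measurable_snd))).prodMk
      (htail.comp measurable_snd) :
        Measurable (fun p : T × (Fin (k + 1) → E) => (((p.1, p.2 0), Fin.tail p.2) : (T × E) × (Fin k → E))))
    have h2' := h2.comp ((measurable_fst.prodMk (htail.comp measurable_snd)) :
        Measurable (fun p : T × (Fin (k + 1) → E) => ((p.1, Fin.tail p.2) : T × (Fin k → E))))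
    have hset : MeasurableSet {p : T × (Fin (k + 1) → E) | P (p.2 0)} :=
      (hfst.comp measurable_snd) hP
    have h3 : Measurable (fun p : T × (Fin (k + 1) → E) =>
        if P (p.2 0) then g p.1 (p.2 0 ::ₘ (conf (Fin.tail p.2)).filter P)
        else g p.1 ((conf (Fin.tail p.2)).filter P)) :=
      Measurable.ite hset h1' h2'
    have h4 : (fun p : T × (Fin (k + 1) → E) => g p.1 ((conf p.2).filter P)) = fun p =>
        if P (p.2 0) then g p.1 (p.2 0 ::ₘ (conf (Fin.tail p.2)).filter P)
        else g p.1 ((conf (Fin.tail p.2)).filter P) := by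
      funext p
      rw [hconf p.2]
      by_cases h : P (p.2 0)
      · simp [h, Multiset.filter_cons_of_pos]
      · simp [h, Multiset.filter_cons_of_neg]
    simpa only [h4] using h3

lemma CM.filter {P : E → Prop} [DecidablePred P] (hP : MeasurableSet {a | P a})
    {f : Multiset E → ℝ≥0∞} (hf : CM f) : CM (fun m => f (m.filter P)) :=
  ((hf.toJM (T := Unit)).filter hP).freeze ()

lemma CM.mul {f g : Multiset E → ℝ≥0∞} (hf : CM f) (hg : CM g) : CM (fun m => f m * g m) :=
  fun N => (hf N).mul (hg N)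

lemma CM.add {f g : Multiset E → ℝ≥0∞} (hf : CM f) (hg : CM g) : CM (fun m => f m + g m) :=
  fun N => (hf N).add (hg N)

lemma CM.prod {ι : Type} (K : Finset ι) {f : ι → Multiset E → ℝ≥0∞} (hf : ∀ k ∈ K, CM (f k)) :
    CM (fun m => ∏ k ∈ K, f k m) := by
  intro N
  exact Finset.measurable_fun_prod K (fun k hk => hf k hk N)

lemma CM.sum {ι : Type} (K : Finset ι) {f : ι → Multiset E → ℝ≥0∞} (hf : ∀ k ∈ K, CM (f k)) :
    CM (fun m => ∑ k ∈ K, f k m) := by
  intro N
  exact Finset.measurable_sum K (fun k hk => hf k hk N)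

/-- The block formula: a product over disjoint cells integrates to a product. -/
lemma II_block {ι : Type} [DecidableEq ι] (μ : Measure E) [SFinite μ] (c : E → ι)
    (hc : ∀ k, MeasurableSet (c ⁻¹' {k})) (Λ : Set E) (hΛ : MeasurableSet Λ)
    (G : ι → Multiset E → ℝ≥0∞) (hG : ∀ k, CM (G k)) (K : Finset ι) :
    II (μ.restrict (Λ ∩ c ⁻¹' (K : Set ι)))
        (fun m => ∏ k ∈ K, G k (m.filter (fun a => c a = k)))
      = ∏ k ∈ K, II (μ.restrict (Λ ∩ c ⁻¹' {k})) (G k) := by
  classical
  have hcK : ∀ K : Finset ι, MeasurableSet (c ⁻¹' (K : Set ι)) := by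
    intro K
    have : c ⁻¹' (K : Set ι) = ⋃ k ∈ K, c ⁻¹' {k} := by
      ext a; simp
    rw [this]
    exact Finset.measurableSet_biUnion K (fun k _ => hc k)
  induction K using Finset.induction_on with
  | empty =>
    simp [II_zero_measure]
  | insert k₀ K' hk₀ ih =>
    have hset : Λ ∩ c ⁻¹' ((insert k₀ K' : Finset ι) : Set ι)
        = (Λ ∩ c ⁻¹' {k₀}) ∪ (Λ ∩ c ⁻¹' (K' : Set ι)) := by
      ext a
      simp only [Finset.coe_insert, Set.mem_inter_iff, Set.mem_preimage, Set.mem_insert_iff,
        Finset.mem_coe, Set.mem_union, Set.mem_singleton_iff]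
      tauto
    have hdisj : Disjoint (Λ ∩ c ⁻¹' {k₀}) (Λ ∩ c ⁻¹' (K' : Set ι)) := by
      refine Set.disjoint_left.2 (fun a ha hb => ?_)
      have h1 : c a = k₀ := ha.2
      have h2 : c a ∈ K' := hb.2
      exact hk₀ (h1 ▸ h2)
    have hA0 : MeasurableSet (Λ ∩ c ⁻¹' {k₀}) := hΛ.inter (hc k₀)
    have hB : MeasurableSet (Λ ∩ c ⁻¹' (K' : Set ι)) := hΛ.inter (hcK K')
    rw [hset, Measure.restrict_union hdisj hB, Finset.prod_insert hk₀]
    have hf : CM (fun m => ∏ k ∈ insert k₀ K', G k (m.filter (fun a => c a = k))) := by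
      refine CM.prod _ (fun k _ => ?_)
      exact CM.filter (hc k) (hG k)
    rw [II_add _ _ hf]
    set V := ∏ k ∈ K', II (μ.restrict (Λ ∩ c ⁻¹' {k})) (G k) with hV
    have hinner : ∀ m₁ : Multiset E, (∀ a ∈ m₁, a ∈ Λ ∩ c ⁻¹' {k₀}) →
        II (μ.restrict (Λ ∩ c ⁻¹' (K' : Set ι)))
          (fun m₂ => ∏ k ∈ insert k₀ K', G k ((m₁ + m₂).filter (fun a => c a = k)))
        = G k₀ m₁ * V := by
      intro m₁ hm₁
      rw [← ih]
      have hCM : CM (fun m => ∏ k ∈ K', G k (m.filter (fun a => c a = k))) := by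
        refine CM.prod _ (fun k _ => ?_)
        exact CM.filter (hc k) (hG k)
      rw [← II_const_mul _ _ hCM]
      refine II_restrict_congr hB (fun m₂ hm₂ => ?_)
      rw [Finset.prod_insert hk₀]
      have h1 : (m₁ + m₂).filter (fun a => c a = k₀) = m₁ := by
        rw [Multiset.filter_add]
        have h2 : m₁.filter (fun a => c a = k₀) = m₁ :=
          Multiset.filter_eq_self.2 (fun a ha => (hm₁ a ha).2)
        have h3 : m₂.filter (fun a => c a = k₀) = 0 := by
          refine Multiset.filter_eq_nil.2 (fun a ha hca => ?_)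
          have h4 : c a ∈ K' := (hm₂ a ha).2
          exact hk₀ (hca ▸ h4)
        rw [h2, h3, add_zero]
      rw [h1]
      congr 1
      refine Finset.prod_congr rfl (fun k hk => ?_)
      congr 1
      rw [Multiset.filter_add]
      have h3 : m₁.filter (fun a => c a = k) = 0 := by
        refine Multiset.filter_eq_nil.2 (fun a ha hca => ?_)
        have h4 : c a = k₀ := (hm₁ a ha).2
        exact hk₀ (by rw [← h4, hca]; exact hk)
      rw [h3, zero_add]
    calc II (μ.restrict (Λ ∩ c ⁻¹' {k₀})) (fun m₁ => II (μ.restrict (Λ ∩ c ⁻¹' (K' : Set ι)))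
          (fun m₂ => ∏ k ∈ insert k₀ K', G k ((m₁ + m₂).filter (fun a => c a = k))))
        = II (μ.restrict (Λ ∩ c ⁻¹' {k₀})) (fun m₁ => G k₀ m₁ * V) :=
          II_restrict_congr hA0 hinner
      _ = II (μ.restrict (Λ ∩ c ⁻¹' {k₀})) (G k₀) * V := II_mul_const _ _ (hG k₀)

/-- Comparison with the integral over tuples. -/
lemma It_eq_pi (μ : Measure E) [SigmaFinite μ] {f : Multiset E → ℝ≥0∞} (hf : CM f) (N : ℕ) :
    It μ N f = ∫⁻ x : Fin N → E, f (conf x) ∂(Measure.pi fun _ => μ) := by
  induction N generalizing f with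
  | zero =>
    simp
  | succ N ih =>
    have hmp := measurePreserving_piFinSuccAbove (fun _ : Fin (N + 1) => μ) 0
    have hg : Measurable (fun p : E × (Fin N → E) => f (conf (Fin.cons p.1 p.2 : Fin (N + 1) → E))) :=
      (hf (N + 1)).comp (measurable_cons measurable_fst measurable_snd)
    have h1 : ∀ x : Fin (N + 1) → E, f (conf x)
        = (fun p : E × (Fin N → E) => f (conf (Fin.cons p.1 p.2 : Fin (N + 1) → E)))
          (MeasurableEquiv.piFinSuccAbove (fun _ => E) 0 x) := by
      intro x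
      have : (Fin.cons (x 0) (Fin.removeNth 0 x) : Fin (N + 1) → E) = x := by
        funext i
        refine Fin.cases ?_ (fun j => ?_) i
        · rfl
        · rfl
      simp only [MeasurableEquiv.piFinSuccAbove_apply, Fin.insertNthEquiv, Equiv.coe_fn_symm_mk]
      rw [this]
    rw [lintegral_congr h1]
    rw [hmp.lintegral_comp hg, lintegral_prod _ hg.aemeasurable, It_succ]
    refine lintegral_congr (fun a => ?_)
    rw [ih (hf.cons a)]
    simp only [conf_cons]

/-- Hölder's inequality for iterated integrals. -/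
lemma It_holder (μ : Measure E) [SigmaFinite μ] {f g : Multiset E → ℝ≥0∞} (hf : CM f) (hg : CM g)
    {p q : ℝ} (hp : 0 ≤ p) (hq : 0 ≤ q) (hpq : p + q = 1) (N : ℕ) :
    It μ N (fun m => f m ^ p * g m ^ q) ≤ (It μ N f) ^ p * (It μ N g) ^ q := by
  have hCM : CM (fun m => f m ^ p * g m ^ q) :=
    fun N => ((hf N).pow_const p).mul ((hg N).pow_const q)
  rw [It_eq_pi μ hCM, It_eq_pi μ hf, It_eq_pi μ hg]
  exact ENNReal.lintegral_mul_norm_pow_le (hf N).aemeasurable (hg N).aemeasurable hp hq hpq

/-- Change of variables by a measure-preserving bijection. -/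
lemma It_map (μ : Measure E) (τ : E ≃ᵐ E) (hτ : MeasurePreserving τ μ μ) (Q : Set E)
    (f : Multiset E → ℝ≥0∞) (N : ℕ) :
    It (μ.restrict (τ ⁻¹' Q)) N (fun m => f (m.map τ)) = It (μ.restrict Q) N f := by
  induction N generalizing f with
  | zero => simp
  | succ N ih =>
    simp only [It_succ, Multiset.map_cons]
    have h := hτ.restrict_preimage_emb τ.measurableEmbedding Q
    rw [← h.lintegral_comp_emb τ.measurableEmbedding]
    refine lintegral_congr (fun a => ?_)
    exact ih (fun m => f (τ a ::ₘ m))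

lemma II_map (μ : Measure E) (τ : E ≃ᵐ E) (hτ : MeasurePreserving τ μ μ) (Q : Set E)
    (f : Multiset E → ℝ≥0∞) (hf : ∀ m, f (m.map τ) = f m) :
    II (μ.restrict (τ ⁻¹' Q)) f = II (μ.restrict Q) f := by
  unfold II
  refine tsum_congr (fun N => ?_)
  rw [← It_map μ τ hτ Q f N]
  simp only [hf]

lemma It_add_fun (μ : Measure E) [SFinite μ] {f g : Multiset E → ℝ≥0∞} (hf : CM f) (hg : CM g)
    (n : ℕ) : It μ n (fun m => f m + g m) = It μ n f + It μ n g := by
  induction n generalizing f g with
  | zero => rfl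
  | succ n ih =>
    simp only [It_succ]
    calc ∫⁻ a, It μ n (fun m => f (a ::ₘ m) + g (a ::ₘ m)) ∂μ
        = ∫⁻ a, (It μ n (fun m => f (a ::ₘ m)) + It μ n (fun m => g (a ::ₘ m))) ∂μ :=
          lintegral_congr (fun a => ih (hf.cons a) (hg.cons a))
      _ = _ := by
          refine lintegral_add_left ?_ _
          refine measurable_It μ (T := E) (g := fun a m => f (a ::ₘ m)) ?_ n
          intro j
          have h := ((hf).toJM (T := E)).cons j
          have h2 : Measurable (fun q : E × (Fin j → E) => (((q.1, q.1), q.2) : (E × E) × (Fin j → E))) :=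
            (measurable_fst.prodMk measurable_fst).prodMk measurable_snd
          simpa [Function.comp_def] using h.comp h2

lemma II_add_fun (μ : Measure E) [SFinite μ] {f g : Multiset E → ℝ≥0∞} (hf : CM f) (hg : CM g) :
    II μ (fun m => f m + g m) = II μ f + II μ g := by
  unfold II
  rw [← ENNReal.tsum_add]
  refine tsum_congr (fun N => ?_)
  rw [It_add_fun μ hf hg, mul_add]

lemma II_finset_sum {ι : Type} (μ : Measure E) [SFinite μ] (Q : Finset ι)
    {f : ι → Multiset E → ℝ≥0∞} (hf : ∀ q ∈ Q, CM (f q)) :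
    II μ (fun m => ∑ q ∈ Q, f q m) = ∑ q ∈ Q, II μ (f q) := by
  classical
  induction Q using Finset.induction_on with
  | empty =>
    simp only [Finset.sum_empty]
    have := It_const μ 0
    unfold II
    simp [It_const]
  | insert q Q' hq ih =>
    simp only [Finset.sum_insert hq]
    rw [II_add_fun μ (hf q (Finset.mem_insert_self _ _))
      (CM.sum _ (fun k hk => hf k (Finset.mem_insert_of_mem hk))),
      ih (fun k hk => hf k (Finset.mem_insert_of_mem hk))]

end P171
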