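import Mathlib

/-!
# Statement of the continuum phase-transition problem

Identical classical particles in three-dimensional Euclidean space interacting through a
radial pair potential `φ`. For `x : Fin N → E3`, `pairEnergy φ x` is the sum of `φ |x i - x j|`
over `i < j`; `canonicalZ φ β L N` is the canonical partition function on the cube `[0,L]^3`.
-/

open MeasureTheory Filter Topology

namespace P171

/-- Three-dimensional Euclidean space. -/
abbrev E3 := EuclideanSpace ℝ (Fin 3)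

/-- The interaction energy `U_N(x_1, ..., x_N) = ∑_{i<j} φ(|x_i - x_j|)`. -/
noncomputable def pairEnergy (φ : ℝ → ℝ) {N : ℕ} (x : Fin N → E3) : ℝ :=
  ∑ i, ∑ j ∈ Finset.Ioi i, φ (dist (x i) (x j))

/-- `φ` is bounded on every compact subinterval of `(0, ∞)`. -/
def LocallyBoundedOnPos (φ : ℝ → ℝ) : Prop :=
  ∀ a b : ℝ, 0 < a → ∃ M : ℝ, ∀ r ∈ Set.Icc a b, |φ r| ≤ M

/-- Stability: `U_N ≥ -B N` for all `N` and all configurations of distinct points. -/
def IsStable (φ : ℝ → ℝ) : Prop :=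
  ∃ B : ℝ, ∀ (N : ℕ) (x : Fin N → E3), Function.Injective x → -(B * N) ≤ pairEnergy φ x

/-- Temperedness: `φ(r) ≤ C r^(-3-ε)` for all `r ≥ R₀`. -/
def IsTempered (φ : ℝ → ℝ) : Prop :=
  ∃ C ε R₀ : ℝ, 0 < C ∧ 0 < ε ∧ 0 < R₀ ∧ ∀ r : ℝ, R₀ ≤ r → φ r ≤ C * r ^ (-3 - ε)

/-- The cube `[0,L]^3`. -/
def cubeL (L : ℝ) : Set E3 := {x | ∀ i, x i ∈ Set.Icc (0 : ℝ) L}

/-- The canonical partition function `Z_{L,N}(β) = (N!)⁻¹ ∫_{[0,L]^{3N}} exp(-β U_N)`.
For `N = 0` this is `1`. -/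
noncomputable def canonicalZ (φ : ℝ → ℝ) (β L : ℝ) (N : ℕ) : ℝ :=
  ((N.factorial : ℝ))⁻¹ *
    ∫ x : Fin N → E3 in Set.pi Set.univ (fun _ => cubeL L), Real.exp (-β * pairEnergy φ x)

/-- `P` is the pressure times `β`: for every activity `z > 0` the grand-canonical series converges
for every `L > 0` and `L⁻³ log ∑_N z^N Z_{L,N}(β)` tends to `P z` as `L → ∞`. -/
def IsPressure (φ : ℝ → ℝ) (β : ℝ) (P : ℝ → ℝ) : Prop :=
  ∀ z : ℝ, 0 < z →
    (∀ L : ℝ, 0 < L → Summable (fun N : ℕ => z ^ N * canonicalZ φ β L N)) ∧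
    Tendsto (fun L : ℝ => (L ^ 3)⁻¹ * Real.log (∑' N : ℕ, z ^ N * canonicalZ φ β L N))
      atTop (𝓝 (P z))

/-- The statement proved: there is a stable, tempered radial pair potential on `ℝ³` with a phase
transition in the sense that the pressure is not differentiable in the activity at some point. -/
def PhaseTransitionExists : Prop :=
  ∃ φ : ℝ → ℝ, Measurable φ ∧ LocallyBoundedOnPos φ ∧ IsStable φ ∧ IsTempered φ ∧
    ∃ β : ℝ, 0 < β ∧ ∃ P : ℝ → ℝ, IsPressure φ β P ∧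
      ∃ z₀ : ℝ, 0 < z₀ ∧ ¬ DifferentiableAt ℝ P z₀

end P171
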