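import Mathlib

/-!
# Ekeland's variational principle
-/

open Filter Topology

namespace P171

/-- Ekeland's variational principle for a nonnegative lower semicontinuous function on a complete
metric space. -/
theorem ekeland {X : Type*} [MetricSpace X] [CompleteSpace X] {F : X → ℝ}
    (hF : LowerSemicontinuous F) (hb : ∀ x, 0 ≤ F x) {ε : ℝ} (hε : 0 < ε) (x₀ : X) :
    ∃ x', F x' + ε * dist x' x₀ ≤ F x₀ ∧ ∀ y, F x' ≤ F y + ε * dist y x' := by
  -- the sections
  set S : X → Set X := fun x => {y | F y + ε * dist y x ≤ F x} with hS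
  have hrefl : ∀ x, x ∈ S x := fun x => by simp [hS]
  have htrans : ∀ {x y z}, y ∈ S x → z ∈ S y → z ∈ S x := by
    intro x y z hy hz
    simp only [hS, Set.mem_ofPred_eq] at hy hz ⊢
    have := dist_triangle z y x
    have h2 : ε * dist z x ≤ ε * dist z y + ε * dist y x := by
      rw [← mul_add]
      exact mul_le_mul_of_nonneg_left this hε.le
    linarith
  have hclosed : ∀ x, IsClosed (S x) := by
    intro x
    have h1 : LowerSemicontinuous (fun y => F y + ε * dist y x) :=
      hF.add (Continuous.lowerSemicontinuous (by fun_prop))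
    exact h1.isClosed_preimage (F x)
  -- choosing a near-minimizer in a section
  have hbdd : ∀ x, BddBelow (F '' S x) := fun x => ⟨0, by rintro _ ⟨y, _, rfl⟩; exact hb y⟩
  have hnext : ∀ (x : X) (c : ℝ), 0 < c → ∃ y ∈ S x, F y ≤ sInf (F '' S x) + c := by
    intro x c hc
    have hne : (F '' S x).Nonempty := ⟨F x, x, hrefl x, rfl⟩
    obtain ⟨v, hv, hv2⟩ := Real.lt_sInf_add_pos hne hc
    obtain ⟨y, hy, rfl⟩ := hv
    exact ⟨y, hy, hv2.le⟩
  choose g hg1 hg2 using hnext
  -- the sequence
  set u : ℕ → X := fun n => Nat.rec x₀ (fun n x => g x ((1 / 2) ^ n) (by positivity)) n with hu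
  have hu0 : u 0 = x₀ := rfl
  have husucc : ∀ n, u (n + 1) = g (u n) ((1 / 2) ^ n) (by positivity) := fun n => rfl
  have hstep : ∀ n, u (n + 1) ∈ S (u n) := fun n => by
    rw [husucc]
    exact hg1 _ _ _
  have hstep2 : ∀ n, F (u (n + 1)) ≤ sInf (F '' S (u n)) + (1 / 2) ^ n := fun n => by
    rw [husucc]
    exact hg2 _ _ _
  have hchain : ∀ n k, u (n + k) ∈ S (u n) := by
    intro n k
    induction k with
    | zero => exact hrefl _
    | succ k ih => exact htrans ih (hstep (n + k))
  -- the sequence is Cauchy
  have hdist : ∀ n, ε * dist (u n) (u (n + 1)) ≤ F (u n) - F (u (n + 1)) := by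
    intro n
    have := hstep n
    simp only [hS, Set.mem_ofPred_eq] at this
    rw [dist_comm]
    linarith
  have hsum : Summable (fun n => dist (u n) (u (n + 1))) := by
    refine summable_of_sum_range_le (c := F x₀ / ε) (fun n => dist_nonneg) (fun n => ?_)
    rw [le_div_iff₀ hε, Finset.sum_mul]
    have h1 : ∑ i ∈ Finset.range n, dist (u i) (u (i + 1)) * ε ≤ F (u 0) - F (u n) := by
      induction n with
      | zero => simp
      | succ n ih =>
        rw [Finset.sum_range_succ]
        have := hdist n
        rw [mul_comm] at this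
        linarith
    have h2 := hb (u n)
    rw [hu0] at h1
    linarith
  have hcauchy : CauchySeq u := cauchySeq_of_summable_dist hsum
  obtain ⟨x', hx'⟩ := cauchySeq_tendsto_of_complete hcauchy
  -- the limit lies in every section
  have hmem : ∀ n, x' ∈ S (u n) := by
    intro n
    refine (hclosed (u n)).mem_of_tendsto hx' ?_
    filter_upwards [eventually_ge_atTop n] with m hm
    have := hchain n (m - n)
    rwa [Nat.add_sub_cancel' hm] at this
  refine ⟨x', ?_, fun y => ?_⟩
  · have := hmem 0
    simpa [hS, hu0] using this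
  · by_contra hcon
    push Not at hcon
    have hy : y ∈ S x' := hcon.le
    have hFy : ∀ n, F x' ≤ F y + (1 / 2) ^ n := by
      intro n
      have h1 : y ∈ S (u n) := htrans (hmem n) hy
      have h2 : sInf (F '' S (u n)) ≤ F y := csInf_le (hbdd _) ⟨y, h1, rfl⟩
      have h3 := hstep2 n
      have h4 := hmem (n + 1)
      simp only [hS, Set.mem_ofPred_eq] at h4
      have h5 : 0 ≤ ε * dist x' (u (n + 1)) := by positivity
      linarith
    have h6 : F x' ≤ F y := by
      refine ge_of_tendsto' (f := fun n : ℕ => F y + (1 / 2 : ℝ) ^ n) (a := F y) (x := atTop) ?_ hFy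
      have := (tendsto_pow_atTop_nhds_zero_of_lt_one (r := (1 / 2 : ℝ)) (by norm_num) (by norm_num))
      simpa using this.const_add (F y)
    have h7 : 0 ≤ ε * dist y x' := by positivity
    linarith

end P171
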