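import Mathlib

/-!
# Pair sums over multisets

Double sums of a kernel over multisets of points and their behaviour under a partition
into cells.
-/

open Finset

set_option linter.unusedSectionVars false

namespace P171

variable {E : Type}

/-- The double sum of a kernel over two multisets. -/
noncomputable def Bil (f : E → E → ℝ) (m n : Multiset E) : ℝ :=
  (m.map fun a => (n.map (f a)).sum).sum

/-- The double sum over ordered pairs, diagonal included. -/
noncomputable def Dk (f : E → E → ℝ) (m : Multiset E) : ℝ := Bil f m m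

/-- The diagonal sum. -/
noncomputable def Tr (f : E → E → ℝ) (m : Multiset E) : ℝ := (m.map fun a => f a a).sum

/-- The pair energy. -/
noncomputable def En (f : E → E → ℝ) (m : Multiset E) : ℝ := (Dk f m - Tr f m) / 2

@[simp] lemma Bil_zero_left (f : E → E → ℝ) (n : Multiset E) : Bil f 0 n = 0 := by simp [Bil]

@[simp] lemma Bil_zero_right (f : E → E → ℝ) (m : Multiset E) : Bil f m 0 = 0 := by simp [Bil]

lemma Bil_cons_left (f : E → E → ℝ) (a : E) (m n : Multiset E) :
    Bil f (a ::ₘ m) n = (n.map (f a)).sum + Bil f m n := by simp [Bil]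

lemma Bil_cons_right (f : E → E → ℝ) (a : E) (m n : Multiset E) :
    Bil f m (a ::ₘ n) = (m.map fun b => f b a).sum + Bil f m n := by
  simp [Bil, Multiset.sum_map_add]

lemma Bil_add_left (f : E → E → ℝ) (m₁ m₂ n : Multiset E) :
    Bil f (m₁ + m₂) n = Bil f m₁ n + Bil f m₂ n := by simp [Bil]

lemma Bil_add_right (f : E → E → ℝ) (m n₁ n₂ : Multiset E) :
    Bil f m (n₁ + n₂) = Bil f m n₁ + Bil f m n₂ := by
  simp [Bil, Multiset.sum_map_add]

lemma Bil_add_fun (f g : E → E → ℝ) (m n : Multiset E) :
    Bil (fun a b => f a b + g a b) m n = Bil f m n + Bil g m n := by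
  simp [Bil, Multiset.sum_map_add]

lemma Bil_const_mul (c : ℝ) (f : E → E → ℝ) (m n : Multiset E) :
    Bil (fun a b => c * f a b) m n = c * Bil f m n := by
  simp [Bil, Multiset.sum_map_mul_left]

lemma Bil_neg (f : E → E → ℝ) (m n : Multiset E) :
    Bil (fun a b => - f a b) m n = - Bil f m n := by
  have := Bil_const_mul (-1) f m n
  simpa using this

lemma Bil_sub_fun (f g : E → E → ℝ) (m n : Multiset E) :
    Bil (fun a b => f a b - g a b) m n = Bil f m n - Bil g m n := by
  have h := Bil_add_fun f (fun a b => - g a b) m n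
  rw [Bil_neg] at h
  simpa [sub_eq_add_neg] using h

lemma Bil_mono {f g : E → E → ℝ} {m n : Multiset E} (h : ∀ a ∈ m, ∀ b ∈ n, f a b ≤ g a b) :
    Bil f m n ≤ Bil g m n := by
  refine Multiset.sum_map_le_sum_map _ _ (fun a ha => ?_)
  exact Multiset.sum_map_le_sum_map _ _ (fun b hb => h a ha b hb)

lemma Bil_nonneg {f : E → E → ℝ} {m n : Multiset E} (h : ∀ a ∈ m, ∀ b ∈ n, 0 ≤ f a b) :
    0 ≤ Bil f m n := by
  have := Bil_mono (f := fun _ _ => 0) (g := f) (m := m) (n := n) h
  simpa [Bil] using this

lemma Bil_nonpos {f : E → E → ℝ} {m n : Multiset E} (h : ∀ a ∈ m, ∀ b ∈ n, f a b ≤ 0) :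
    Bil f m n ≤ 0 := by
  have := Bil_mono (f := f) (g := fun _ _ => 0) (m := m) (n := n) h
  simpa [Bil] using this

lemma Bil_one (m n : Multiset E) :
    Bil (fun _ _ => (1 : ℝ)) m n = (Multiset.card m : ℝ) * (Multiset.card n : ℝ) := by
  simp [Bil]

lemma Bil_symm {f : E → E → ℝ} (hf : ∀ a b, f a b = f b a) (m n : Multiset E) :
    Bil f m n = Bil f n m := by
  induction m using Multiset.induction_on with
  | empty => simp
  | cons a m ih =>
    rw [Bil_cons_left, Bil_cons_right, ih]
    congr 2
    exact Multiset.map_congr rfl (fun b _ => hf a b)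

lemma Bil_congr {f g : E → E → ℝ} {m n : Multiset E} (h : ∀ a ∈ m, ∀ b ∈ n, f a b = g a b) :
    Bil f m n = Bil g m n :=
  le_antisymm (Bil_mono (fun a ha b hb => (h a ha b hb).le))
    (Bil_mono (fun a ha b hb => (h a ha b hb).ge))

lemma Bil_finset_sum {ι : Type} (K : Finset ι) (f : ι → E → E → ℝ) (m n : Multiset E) :
    Bil (fun a b => ∑ k ∈ K, f k a b) m n = ∑ k ∈ K, Bil (f k) m n := by
  classical
  induction K using Finset.induction_on with
  | empty => simp [Bil]
  | insert k K hk ih =>
    simp only [Finset.sum_insert hk]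
    rw [Bil_add_fun, ih]

/-- Infinite sums of kernels. -/
lemma Bil_hasSum {f : ℕ → E → E → ℝ} {g : E → E → ℝ} (m n : Multiset E)
    (h : ∀ a b, HasSum (fun j => f j a b) (g a b)) :
    HasSum (fun j => Bil (f j) m n) (Bil g m n) := by
  have inner : ∀ a (n' : Multiset E), HasSum (fun j => (n'.map (f j a)).sum) ((n'.map (g a)).sum) := by
    intro a n'
    induction n' using Multiset.induction_on with
    | empty => simp only [Multiset.map_zero, Multiset.sum_zero]; exact hasSum_zero
    | cons b n' ih =>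
      simp only [Multiset.map_cons, Multiset.sum_cons]
      exact (h a b).add ih
  induction m using Multiset.induction_on with
  | empty => simp only [Bil_zero_left]; exact hasSum_zero
  | cons a m ihm =>
    simp only [Bil_cons_left]
    exact (inner a n).add ihm

lemma Tr_hasSum {f : ℕ → E → E → ℝ} {g : E → E → ℝ} (m : Multiset E)
    (h : ∀ a b, HasSum (fun j => f j a b) (g a b)) :
    HasSum (fun j => Tr (f j) m) (Tr g m) := by
  induction m using Multiset.induction_on with
  | empty => simp only [Tr, Multiset.map_zero, Multiset.sum_zero]; exact hasSum_zero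
  | cons a m ihm =>
    simp only [Tr, Multiset.map_cons, Multiset.sum_cons]
    exact (h a a).add ihm

lemma En_hasSum {f : ℕ → E → E → ℝ} {g : E → E → ℝ} (m : Multiset E)
    (h : ∀ a b, HasSum (fun j => f j a b) (g a b)) :
    HasSum (fun j => En (f j) m) (En g m) := by
  unfold En Dk
  exact ((Bil_hasSum m m h).sub (Tr_hasSum m h)).div_const 2

lemma Tr_add_fun (f g : E → E → ℝ) (m : Multiset E) :
    Tr (fun a b => f a b + g a b) m = Tr f m + Tr g m := by
  simp [Tr, Multiset.sum_map_add]

lemma Tr_const_mul (c : ℝ) (f : E → E → ℝ) (m : Multiset E) :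
    Tr (fun a b => c * f a b) m = c * Tr f m := by
  simp [Tr, Multiset.sum_map_mul_left]

lemma Tr_sub_fun (f g : E → E → ℝ) (m : Multiset E) :
    Tr (fun a b => f a b - g a b) m = Tr f m - Tr g m := by
  simp [Tr, Multiset.sum_map_sub]

lemma Tr_finset_sum {ι : Type} (K : Finset ι) (f : ι → E → E → ℝ) (m : Multiset E) :
    Tr (fun a b => ∑ k ∈ K, f k a b) m = ∑ k ∈ K, Tr (f k) m := by
  classical
  induction K using Finset.induction_on with
  | empty => simp [Tr]
  | insert k K hk ih =>
    simp only [Finset.sum_insert hk]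
    rw [Tr_add_fun, ih]

lemma En_add_fun (f g : E → E → ℝ) (m : Multiset E) :
    En (fun a b => f a b + g a b) m = En f m + En g m := by
  unfold En Dk
  rw [Bil_add_fun, Tr_add_fun]
  ring

lemma En_sub_fun (f g : E → E → ℝ) (m : Multiset E) :
    En (fun a b => f a b - g a b) m = En f m - En g m := by
  unfold En Dk
  rw [Bil_sub_fun, Tr_sub_fun]
  ring

lemma En_const_mul (c : ℝ) (f : E → E → ℝ) (m : Multiset E) :
    En (fun a b => c * f a b) m = c * En f m := by
  unfold En Dk
  rw [Bil_const_mul, Tr_const_mul]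
  ring

lemma En_finset_sum {ι : Type} (K : Finset ι) (f : ι → E → E → ℝ) (m : Multiset E) :
    En (fun a b => ∑ k ∈ K, f k a b) m = ∑ k ∈ K, En (f k) m := by
  unfold En Dk
  rw [Bil_finset_sum, Tr_finset_sum, ← Finset.sum_sub_distrib, Finset.sum_div]

@[simp] lemma En_zero (f : E → E → ℝ) : En f 0 = 0 := by simp [En, Dk, Tr]

/-- The recursion for the pair energy. -/
lemma En_cons {f : E → E → ℝ} (hf : ∀ a b, f a b = f b a) (a : E) (m : Multiset E) :
    En f (a ::ₘ m) = En f m + (m.map (f a)).sum := by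
  unfold En Dk Tr
  rw [Bil_cons_left, Bil_cons_right]
  have h : (m.map fun b => f b a).sum = (m.map (f a)).sum :=
    congrArg _ (Multiset.map_congr rfl (fun b _ => hf b a))
  simp only [Multiset.map_cons, Multiset.sum_cons]
  rw [h]
  ring

lemma En_singleton {f : E → E → ℝ} (hf : ∀ a b, f a b = f b a) (a : E) : En f {a} = 0 := by
  have := En_cons hf a 0
  simpa using this

lemma En_nonneg {f : E → E → ℝ} (hf : ∀ a b, f a b = f b a) (h0 : ∀ a b, 0 ≤ f a b)
    (m : Multiset E) : 0 ≤ En f m := by
  induction m using Multiset.induction_on with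
  | empty => simp
  | cons a m ih =>
    rw [En_cons hf]
    exact add_nonneg ih (Multiset.sum_nonneg (by
      intro x hx
      obtain ⟨b, _, rfl⟩ := Multiset.mem_map.1 hx
      exact h0 a b))

lemma En_le_half_Dk {f : E → E → ℝ} (h0 : ∀ a, 0 ≤ f a a) (m : Multiset E) :
    En f m ≤ Dk f m / 2 := by
  unfold En
  have : 0 ≤ Tr f m := Multiset.sum_nonneg (by
    intro x hx
    obtain ⟨b, _, rfl⟩ := Multiset.mem_map.1 hx
    exact h0 b)
  linarith

/-- The pair energy of a tuple. -/
lemma En_tuple {f : E → E → ℝ} (hf : ∀ a b, f a b = f b a) {N : ℕ} (x : Fin N → E) :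
    En f (↑(List.ofFn x)) = ∑ i, ∑ j ∈ Finset.Ioi i, f (x i) (x j) := by
  induction N with
  | zero => simp
  | succ N ih =>
    have h1 : ((List.ofFn x : List E) : Multiset E)
        = x 0 ::ₘ ((List.ofFn (fun i : Fin N => x i.succ) : List E) : Multiset E) := by
      simp [List.ofFn_succ]
    rw [h1, En_cons hf, ih]
    rw [Fin.sum_univ_succ]
    have h2 : ∀ i : Fin N, ∑ j ∈ Finset.Ioi i.succ, f (x i.succ) (x j)
        = ∑ j ∈ Finset.Ioi i, f (x i.succ) (x j.succ) := by
      intro i
      have : Finset.Ioi i.succ = (Finset.Ioi i).map (Fin.succEmb N) := by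
        ext j
        refine Fin.cases ?_ (fun j' => ?_) j
        · simp
        · simp
      rw [this, Finset.sum_map]
      rfl
    have h3 : ∑ j ∈ Finset.Ioi (0 : Fin (N + 1)), f (x 0) (x j)
        = ∑ j : Fin N, f (x 0) (x j.succ) := by
      have : Finset.Ioi (0 : Fin (N + 1)) = (Finset.univ : Finset (Fin N)).map (Fin.succEmb N) := by
        ext j
        refine Fin.cases ?_ (fun j' => ?_) j
        · simp
        · simp
      rw [this, Finset.sum_map]
      rfl
    simp only [h2, h3]
    have h4 : (((List.ofFn (fun i : Fin N => x i.succ) : List E) : Multiset E).map (f (x 0))).sum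
        = ∑ j : Fin N, f (x 0) (x j.succ) := by
      simp [List.sum_ofFn]
    rw [h4]
    ring

/-- The double sum of a tuple. -/
lemma Bil_tuple (f : E → E → ℝ) {M N : ℕ} (x : Fin M → E) (y : Fin N → E) :
    Bil f (↑(List.ofFn x)) (↑(List.ofFn y)) = ∑ i, ∑ j, f (x i) (y j) := by
  simp [Bil, List.sum_ofFn, List.map_ofFn, Function.comp_def]

lemma Tr_tuple (f : E → E → ℝ) {N : ℕ} (x : Fin N → E) :
    Tr f (↑(List.ofFn x)) = ∑ i, f (x i) (x i) := by
  simp [Tr, List.sum_ofFn, List.map_ofFn, Function.comp_def]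

/-! ### Cells -/

variable {ι : Type} [DecidableEq ι]

/-- The part of a configuration in a cell. -/
def piece (c : E → ι) (k : ι) (m : Multiset E) : Multiset E := m.filter (fun a => c a = k)

lemma sum_filter_eq (p : E → Prop) [DecidablePred p] (g : E → ℝ) (m : Multiset E) :
    ((m.filter p).map g).sum = (m.map fun a => if p a then g a else 0).sum := by
  induction m using Multiset.induction_on with
  | empty => simp
  | cons a m ih =>
    by_cases h : p a
    · simp [Multiset.filter_cons_of_pos, h, ih]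
    · simp [Multiset.filter_cons_of_neg, h, ih]

lemma finset_sum_map_sum (K : Finset ι) (h : ι → E → ℝ) (m : Multiset E) :
    ∑ k ∈ K, (m.map (h k)).sum = (m.map fun a => ∑ k ∈ K, h k a).sum := by
  induction m using Multiset.induction_on with
  | empty => simp
  | cons a m ih =>
    simp only [Multiset.map_cons, Multiset.sum_cons, Finset.sum_add_distrib, ih]

lemma sum_pieces (c : E → ι) (K : Finset ι) (g : E → ℝ) {m : Multiset E}
    (hK : ∀ a ∈ m, c a ∈ K) :
    ∑ k ∈ K, ((piece c k m).map g).sum = (m.map g).sum := by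
  simp only [piece, sum_filter_eq]
  rw [finset_sum_map_sum]
  congr 1
  refine Multiset.map_congr rfl (fun a ha => ?_)
  rw [Finset.sum_ite_eq]
  simp [hK a ha]

lemma card_pieces (c : E → ι) (K : Finset ι) {m : Multiset E} (hK : ∀ a ∈ m, c a ∈ K) :
    ∑ k ∈ K, (Multiset.card (piece c k m) : ℝ) = (Multiset.card m : ℝ) := by
  have := sum_pieces c K (fun _ => (1 : ℝ)) hK
  simpa using this

lemma Tr_pieces (c : E → ι) (K : Finset ι) (f : E → E → ℝ) {m : Multiset E}
    (hK : ∀ a ∈ m, c a ∈ K) :
    ∑ k ∈ K, Tr f (piece c k m) = Tr f m := sum_pieces c K (fun a => f a a) hK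

/-- Restricting a double sum to a cell. -/
lemma Bil_pieces (c : E → ι) (K : Finset ι) (f : E → E → ℝ) {m : Multiset E} (n : Multiset E)
    (hK : ∀ a ∈ m, c a ∈ K) :
    ∑ k ∈ K, Bil f (piece c k m) (piece c k n)
      = Bil (fun a b => if c a = c b then f a b else 0) m n := by
  unfold Bil
  simp only [piece, sum_filter_eq]
  rw [finset_sum_map_sum]
  congr 1
  refine Multiset.map_congr rfl (fun a ha => ?_)
  have h : ∀ k ∈ K, (if c a = k then (n.map fun b => if c b = k then f a b else 0).sum else 0)
      = if c a = k then (n.map fun b => if c a = c b then f a b else 0).sum else 0 := by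
    intro k _
    by_cases hk : c a = k
    · subst hk
      simp only [if_true]
      refine congrArg _ (Multiset.map_congr rfl (fun b _ => ?_))
      by_cases h : c b = c a
      · simp [h]
      · simp [h, Ne.symm h]
    · simp [hk]
  rw [Finset.sum_congr rfl h, Finset.sum_ite_eq]
  simp [hK a ha]

/-- The kernel restricted to pairs in different cells. -/
def crossK (c : E → ι) (f : E → E → ℝ) (a b : E) : ℝ := if c a = c b then 0 else f a b

/-- The energy splits into the energies of the cells and the interaction between cells. -/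
lemma En_pieces (c : E → ι) (K : Finset ι) (f : E → E → ℝ) {m : Multiset E}
    (hK : ∀ a ∈ m, c a ∈ K) :
    En f m = ∑ k ∈ K, En f (piece c k m) + Dk (crossK c f) m / 2 := by
  unfold En Dk
  rw [← Finset.sum_div, Finset.sum_sub_distrib, Bil_pieces c K f m hK, Tr_pieces c K f hK]
  have h : Bil f m m = Bil (fun a b => if c a = c b then f a b else 0) m m + Bil (crossK c f) m m := by
    rw [← Bil_add_fun]
    refine Bil_congr (fun a _ b _ => ?_)
    unfold crossK
    by_cases h : c a = c b <;> simp [h]
  rw [h]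
  ring

/-- The indicator kernel of being in the same cell. -/
def sameK (c : E → ι) (a b : E) : ℝ := if c a = c b then 1 else 0

/-- The number of ordered pairs in the same cell. -/
noncomputable def Sc (c : E → ι) (m : Multiset E) : ℝ := Dk (sameK c) m

lemma Sc_nonneg (c : E → ι) (m : Multiset E) : 0 ≤ Sc c m :=
  Bil_nonneg (fun a _ b _ => by unfold sameK; split_ifs <;> norm_num)

lemma Sc_eq_sum (c : E → ι) (K : Finset ι) {m : Multiset E} (hK : ∀ a ∈ m, c a ∈ K) :
    Sc c m = ∑ k ∈ K, (Multiset.card (piece c k m) : ℝ) ^ 2 := by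
  have h := Bil_pieces c K (fun _ _ => (1 : ℝ)) m hK
  simp only [Bil_one] at h
  unfold Sc Dk sameK
  rw [← h]
  refine Finset.sum_congr rfl (fun k _ => ?_)
  ring

/-- Cauchy-Schwarz: many points in few cells give many pairs. -/
lemma card_sq_le (c : E → ι) (K : Finset ι) {m : Multiset E} (hK : ∀ a ∈ m, c a ∈ K) :
    (Multiset.card m : ℝ) ^ 2 ≤ (K.card : ℝ) * Sc c m := by
  rw [Sc_eq_sum c K hK, ← card_pieces c K hK]
  exact sq_sum_le_card_mul_sum_sq

/-- When one partition refines another, the pair count is additive over the coarse cells. -/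
lemma Sc_refine {ι' : Type} [DecidableEq ι'] (c : E → ι) (c' : E → ι') (K : Finset ι)
    (hcc : ∀ a b, c' a = c' b → c a = c b) {m : Multiset E} (hK : ∀ a ∈ m, c a ∈ K) :
    Sc c' m = ∑ k ∈ K, Sc c' (piece c k m) := by
  unfold Sc Dk
  rw [Bil_pieces c K (sameK c') m hK]
  refine Bil_congr (fun a _ b _ => ?_)
  unfold sameK
  by_cases h : c' a = c' b
  · simp [h, hcc a b h]
  · simp [h]

/-- A shifted pair count is at most the pair count. -/
lemma shift_count_le {G : Type} [AddCommGroup G] [DecidableEq G] (c : E → G) (v : G)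
    (m : Multiset E) :
    Bil (fun a b => if c a = c b + v then (1 : ℝ) else 0) m m ≤ Sc c m := by
  set K : Finset G := (m.map c).toFinset with hKdef
  have hK : ∀ a ∈ m, c a ∈ K := by
    intro a ha
    simp only [hKdef, Multiset.mem_toFinset, Multiset.mem_map]
    exact ⟨a, ha, rfl⟩
  set n : G → ℕ := fun k => Multiset.card (piece c k m) with hn
  have hcount : ∀ k, (m.map fun b => if c b = k then (1 : ℝ) else 0).sum = (n k : ℝ) := by
    intro k
    have := sum_filter_eq (fun b => c b = k) (fun _ => (1 : ℝ)) m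
    simp only [Multiset.map_const', Multiset.sum_replicate, nsmul_eq_mul, mul_one] at this
    rw [← this]
    rfl
  have h1 : Bil (fun a b => if c a = c b + v then (1 : ℝ) else 0) m m
      = (m.map fun a => (n (c a - v) : ℝ)).sum := by
    unfold Bil
    congr 1
    refine Multiset.map_congr rfl (fun a _ => ?_)
    rw [← hcount]
    congr 1
    refine Multiset.map_congr rfl (fun b _ => ?_)
    have : (c a = c b + v) ↔ (c b = c a - v) := by
      constructor
      · intro h; rw [h]; abel
      · intro h; rw [h]; abel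
    simp [this]
  have h2 : (m.map fun a => (n (c a - v) : ℝ)).sum = ∑ k ∈ K, (n k : ℝ) * (n (k - v) : ℝ) := by
    rw [← sum_pieces c K (fun a => (n (c a - v) : ℝ)) hK]
    refine Finset.sum_congr rfl (fun k _ => ?_)
    have : ((piece c k m).map fun a => (n (c a - v) : ℝ))
        = (piece c k m).map fun _ => (n (k - v) : ℝ) := by
      refine Multiset.map_congr rfl (fun a ha => ?_)
      have : c a = k := (Multiset.mem_filter.1 ha).2
      rw [this]
    rw [this]
    simp [hn]
  have h3 : Sc c m = ∑ k ∈ K, (n k : ℝ) ^ 2 := Sc_eq_sum c K hK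
  have h4 : ∑ k ∈ K, (n (k - v)) ^ 2 ≤ ∑ k ∈ K, (n k) ^ 2 := by
    have hinj : Function.Injective (fun k : G => k - v) := fun a b h => by simpa using h
    have h5 : ∑ k ∈ K, (n (k - v)) ^ 2 = ∑ k ∈ K.image (fun k => k - v), (n k) ^ 2 := by
      rw [Finset.sum_image (fun a _ b _ h => hinj h)]
    rw [h5]
    refine Finset.sum_le_sum_of_ne_zero (fun k _ hk => ?_)
    by_contra hkK
    apply hk
    have : Multiset.card (piece c k m) = 0 := by
      rw [Multiset.card_eq_zero]
      refine Multiset.filter_eq_nil.2 (fun a ha hca => hkK ?_)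
      rw [← hca]
      exact hK a ha
    simp [hn, this]
  have h4' : ∑ k ∈ K, ((n (k - v) : ℝ)) ^ 2 ≤ ∑ k ∈ K, (n k : ℝ) ^ 2 := by
    exact_mod_cast h4
  rw [h1, h2, h3]
  have h6 : ∀ k ∈ K, (n k : ℝ) * (n (k - v) : ℝ) ≤ ((n k : ℝ) ^ 2 + (n (k - v) : ℝ) ^ 2) / 2 := by
    intro k _
    nlinarith [sq_nonneg ((n k : ℝ) - (n (k - v) : ℝ))]
  calc ∑ k ∈ K, (n k : ℝ) * (n (k - v) : ℝ)
      ≤ ∑ k ∈ K, ((n k : ℝ) ^ 2 + (n (k - v) : ℝ) ^ 2) / 2 := Finset.sum_le_sum h6
    _ = (∑ k ∈ K, (n k : ℝ) ^ 2 + ∑ k ∈ K, (n (k - v) : ℝ) ^ 2) / 2 := by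
        rw [← Finset.sum_add_distrib, Finset.sum_div]
    _ ≤ ∑ k ∈ K, (n k : ℝ) ^ 2 := by linarith

/-- A kernel dominated by a bounded set of shifted cell relations. -/
lemma Bil_le_of_shifts {G : Type} [AddCommGroup G] [DecidableEq G] (c : E → G) (V : Finset G)
    (f : E → E → ℝ) (h1 : ∀ a b, f a b ≤ 1) (hsupp : ∀ a b, 0 < f a b → c a - c b ∈ V)
    (m : Multiset E) : Dk f m ≤ (V.card : ℝ) * Sc c m := by
  have h2 : Dk f m ≤ Bil (fun a b => ∑ v ∈ V, if c a = c b + v then (1 : ℝ) else 0) m m := by
    refine Bil_mono (fun a _ b _ => ?_)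
    have h3 : 0 ≤ ∑ v ∈ V, if c a = c b + v then (1 : ℝ) else 0 :=
      Finset.sum_nonneg (fun v _ => by split_ifs <;> norm_num)
    by_cases hpos : 0 < f a b
    · have hmem := hsupp a b hpos
      have h4 : (1 : ℝ) ≤ ∑ v ∈ V, if c a = c b + v then (1 : ℝ) else 0 := by
        have := Finset.single_le_sum (f := fun v => if c a = c b + v then (1 : ℝ) else 0)
          (fun v _ => by split_ifs <;> norm_num) hmem
        simpa using this
      linarith [h1 a b]
    · linarith [not_lt.1 hpos]
  refine h2.trans ?_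
  rw [Bil_finset_sum]
  calc ∑ v ∈ V, Bil (fun a b => if c a = c b + v then (1 : ℝ) else 0) m m
      ≤ ∑ _v ∈ V, Sc c m := Finset.sum_le_sum (fun v _ => shift_count_le c v m)
    _ = (V.card : ℝ) * Sc c m := by simp

end P171
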