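import Vale.Agent.Lib.P171.Bounds

/-!
# The upper bound for a long-range perturbation: decomposition into cubes

Offset grids, choice of the best offset, and the comparison of the partition function of a large
cube with a power of the partition function of a cube of side `R_{j+1}`.
-/

open MeasureTheory Finset Filter Topology
open scoped ENNReal

set_option linter.unusedSectionVars false

namespace P171

/-- Adding mass `t` at the scale `j`. -/
noncomputable def sAdd (s : ℕ → ℝ) (t : ℝ) (j : ℕ) : ℕ → ℝ := fun i => s i + if i = j then t else 0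

lemma hasSum_sAdd {s : ℕ → ℝ} (hs : Summable s) (t : ℝ) (j : ℕ) :
    HasSum (sAdd s t j) ((∑' i, s i) + t) :=
  hs.hasSum.add (hasSum_ite_eq j t)

lemma Adm_sAdd {s : ℕ → ℝ} (hs : Adm s) {t : ℝ} (ht : 0 ≤ t) (hσ : (∑' i, s i) + t ≤ rr) (j : ℕ) :
    Adm (sAdd s t j) := by
  refine ⟨fun i => ?_, (hasSum_sAdd hs.summable t j).summable, ?_⟩
  · unfold sAdd
    have := hs.nonneg i
    split_ifs <;> linarith
  · rw [(hasSum_sAdd hs.summable t j).tsum_eq]
    exact hσ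

/-! ### Offset grids -/

/-- A pair of nearby numbers is separated by at most one of the offset grids. -/
lemma sep_unique {x y : ℝ} {w : ℝ} (hw : 0 < w) {m₀ : ℕ} (hxy : |x - y| < w) {q q' : ℕ}
    (hq : q < m₀) (hq' : q' < m₀)
    (h1 : ⌊(x - q * w) / (m₀ * w)⌋ ≠ ⌊(y - q * w) / (m₀ * w)⌋)
    (h2 : ⌊(x - q' * w) / (m₀ * w)⌋ ≠ ⌊(y - q' * w) / (m₀ * w)⌋) : q = q' := by
  have hm₀ : (0 : ℝ) < m₀ := by
    have : 0 < m₀ := by omega
    exact_mod_cast this
  have hℓ : (0 : ℝ) < m₀ * w := by positivity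
  -- a separating grid point
  have key : ∀ {x y : ℝ} {q : ℕ}, x ≤ y → ⌊(x - q * w) / (m₀ * w)⌋ ≠ ⌊(y - q * w) / (m₀ * w)⌋ →
      ∃ u : ℤ, x < q * w + u * (m₀ * w) ∧ q * w + u * (m₀ * w) ≤ y := by
    intro x y q hxy hne
    refine ⟨⌊(y - q * w) / (m₀ * w)⌋, ?_, ?_⟩
    · have h3 : ⌊(x - q * w) / (m₀ * w)⌋ ≤ ⌊(y - q * w) / (m₀ * w)⌋ :=
        Int.floor_le_floor (div_le_div_of_nonneg_right (by linarith) hℓ.le)
      have h4 : ⌊(x - q * w) / (m₀ * w)⌋ < ⌊(y - q * w) / (m₀ * w)⌋ := lt_of_le_of_ne h3 hne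
      have h5 := Int.floor_lt.1 h4
      rw [div_lt_iff₀ hℓ] at h5
      linarith
    · have h5 := Int.floor_le ((y - q * w) / (m₀ * w))
      rw [le_div_iff₀ hℓ] at h5
      linarith
  -- reduce to the case x ≤ y
  have main : ∀ {x y : ℝ}, x ≤ y → y - x < w → ⌊(x - q * w) / (m₀ * w)⌋ ≠ ⌊(y - q * w) / (m₀ * w)⌋ →
      ⌊(x - q' * w) / (m₀ * w)⌋ ≠ ⌊(y - q' * w) / (m₀ * w)⌋ → q = q' := by
    intro x y hxy hlt h1 h2
    obtain ⟨u, hu1, hu2⟩ := key hxy h1
    obtain ⟨u', hu1', hu2'⟩ := key hxy h2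
    have h3 : |(q : ℝ) * w + u * (m₀ * w) - (q' * w + u' * (m₀ * w))| < w := by
      rw [abs_lt]
      constructor <;> linarith
    have h4 : (q : ℝ) * w + u * (m₀ * w) - (q' * w + u' * (m₀ * w))
        = (((q : ℤ) - (q' : ℤ) + (u - u') * (m₀ : ℤ) : ℤ) : ℝ) * w := by
      push_cast
      ring
    rw [h4, abs_mul, abs_of_pos hw] at h3
    have h5 : |(((q : ℤ) - (q' : ℤ) + (u - u') * (m₀ : ℤ) : ℤ) : ℝ)| < 1 := by
      by_contra hcon
      push Not at hcon
      nlinarith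
    have h6 : |(q : ℤ) - (q' : ℤ) + (u - u') * (m₀ : ℤ)| < 1 := by
      have : ((|(q : ℤ) - (q' : ℤ) + (u - u') * (m₀ : ℤ)| : ℤ) : ℝ) < ((1 : ℤ) : ℝ) := by
        push_cast
        push_cast at h5
        exact h5
      exact Int.cast_lt.1 this
    have h7 : (q : ℤ) - (q' : ℤ) + (u - u') * (m₀ : ℤ) = 0 := Int.abs_lt_one_iff.1 h6
    have h8 : (m₀ : ℤ) ∣ (q : ℤ) - (q' : ℤ) := ⟨-(u - u'), by linarith⟩
    have h9 : |(q : ℤ) - (q' : ℤ)| < (m₀ : ℤ) := by
      rw [abs_lt]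
      constructor <;> omega
    have h10 := Int.eq_zero_of_abs_lt_dvd h8 h9
    omega
  rcases le_total x y with h | h
  · exact main h (by have := (abs_lt.1 hxy).1; linarith) h1 h2
  · exact main h (by have := (abs_lt.1 hxy).2; linarith) (Ne.symm h1) (Ne.symm h2)

/-- The number of offsets separating a nearby pair is at most three. -/
lemma card_sep_le {a b : E3} {w : ℝ} (hw : 0 < w) {m₀ : ℕ} (hab : dist a b < w) :
    ((Finset.range m₀).filter (fun q : ℕ => gridC (m₀ * w) (q * w) a ≠ gridC (m₀ * w) (q * w) b)).card ≤ 3 := by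
  set T : Fin 3 → Finset ℕ := fun i => (Finset.range m₀).filter
    (fun q : ℕ => ⌊(a i - q * w) / (m₀ * w)⌋ ≠ ⌊(b i - q * w) / (m₀ * w)⌋) with hT
  have hcard : ∀ i, (T i).card ≤ 1 := by
    intro i
    rw [Finset.card_le_one]
    intro q hq q' hq'
    simp only [hT, Finset.mem_filter, Finset.mem_range] at hq hq'
    exact sep_unique hw (lt_of_le_of_lt (coord_abs_le_dist a b i) hab) hq.1 hq'.1 hq.2 hq'.2
  have hsub : (Finset.range m₀).filter (fun q : ℕ => gridC (m₀ * w) (q * w) a ≠ gridC (m₀ * w) (q * w) b)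
      ⊆ Finset.univ.biUnion T := by
    intro q hq
    simp only [Finset.mem_filter, Finset.mem_range] at hq
    obtain ⟨hq1, hq2⟩ := hq
    have : ∃ i, gridC (m₀ * w) (q * w) a i ≠ gridC (m₀ * w) (q * w) b i := by
      by_contra h
      push Not at h
      exact hq2 (funext h)
    obtain ⟨i, hi⟩ := this
    simp only [Finset.mem_biUnion, Finset.mem_univ, true_and]
    refine ⟨i, ?_⟩
    simp only [hT, Finset.mem_filter, Finset.mem_range]
    exact ⟨hq1, hi⟩
  calc _ ≤ (Finset.univ.biUnion T).card := Finset.card_le_card hsub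
    _ ≤ ∑ i, (T i).card := Finset.card_biUnion_le
    _ ≤ ∑ _i : Fin 3, 1 := Finset.sum_le_sum (fun i _ => hcard i)
    _ = 3 := by simp

/-! ### The truncated kernel -/

/-- The part of the long-range kernel at scales at most `R_j`. -/
noncomputable def KK (s : ℕ → ℝ) (j : ℕ) (a b : E3) : ℝ := ∑ i ∈ Finset.range (j + 1), s i * Jk i a b

lemma KK_nonneg {s : ℕ → ℝ} (hs : Adm s) (j : ℕ) (a b : E3) : 0 ≤ KK s j a b :=
  Finset.sum_nonneg (fun i _ => mul_nonneg (hs.nonneg i) (Jk_nonneg i a b))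

lemma KK_symm (s : ℕ → ℝ) (j : ℕ) (a b : E3) : KK s j a b = KK s j b a :=
  Finset.sum_congr rfl (fun i _ => by rw [Jk_symm])

lemma KK_eq_zero {s : ℕ → ℝ} (j : ℕ) {a b : E3} (h : (Rn j : ℝ) ≤ dist a b) : KK s j a b = 0 := by
  refine Finset.sum_eq_zero (fun i hi => ?_)
  have h1 : (Rn i : ℝ) ≤ Rn j := by
    exact_mod_cast Rn_mono (Nat.lt_succ_iff.1 (Finset.mem_range.1 hi))
  unfold Jk indK
  rw [if_neg (not_lt.2 (h1.trans h))]
  simp

lemma measurable_KK (s : ℕ → ℝ) (j : ℕ) : Measurable (fun p : E3 × E3 => KK s j p.1 p.2) := by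
  unfold KK
  exact Finset.measurable_sum _ (fun i _ => (measurable_Jk i).const_mul _)

lemma En_KK (s : ℕ → ℝ) (j : ℕ) (m : Multiset E3) :
    En (KK s j) m = ∑ i ∈ Finset.range (j + 1), s i * En (Jk i) m := by
  unfold KK
  rw [En_finset_sum]
  exact Finset.sum_congr rfl (fun i _ => En_const_mul _ _ _)

lemma Dk_KK_le {s : ℕ → ℝ} (hs : Adm s) (j : ℕ) (m : Multiset E3) :
    Dk (KK s j) m ≤ 27 * rr * SS m := by
  unfold KK Dk
  rw [Bil_finset_sum]
  have hS := SS_nonneg m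
  have h1 : ∀ i ∈ Finset.range (j + 1), Bil (fun a b => s i * Jk i a b) m m ≤ s i * (27 * SS m) := by
    intro i _
    rw [Bil_const_mul]
    exact mul_le_mul_of_nonneg_left (Dk_Jk_le_SS i m) (hs.nonneg i)
  refine (Finset.sum_le_sum h1).trans ?_
  rw [← Finset.sum_mul]
  have h2 : ∑ i ∈ Finset.range (j + 1), s i ≤ rr :=
    (hs.summable.sum_le_tsum _ (fun i _ => hs.nonneg i)).trans hs.le
  nlinarith

/-- The best offset. -/
lemma exists_good_offset {s : ℕ → ℝ} (hs : Adm s) (j : ℕ) (m : Multiset E3) :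
    ∃ q ∈ Finset.range (j + 2),
      Dk (crossK (gridC (((j + 2 : ℕ) : ℝ) * (Rn j : ℝ)) ((q : ℝ) * (Rn j : ℝ))) (KK s j)) m
        ≤ 3 / ((j : ℝ) + 2) * Dk (KK s j) m := by
  set w : ℝ := (Rn j : ℝ) with hw
  have hwpos : 0 < w := Rn_real_pos j
  set m₀ := j + 2 with hm₀
  have hm₀pos : (0 : ℝ) < (j : ℝ) + 2 := by positivity
  have h1 : ∑ q ∈ Finset.range m₀, Dk (crossK (gridC ((m₀ : ℝ) * w) ((q : ℝ) * w)) (KK s j)) m
      ≤ ∑ _q ∈ Finset.range m₀, 3 / ((j : ℝ) + 2) * Dk (KK s j) m := by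
    have h2 : ∑ _q ∈ Finset.range m₀, 3 / ((j : ℝ) + 2) * Dk (KK s j) m = 3 * Dk (KK s j) m := by
      rw [Finset.sum_const, Finset.card_range, nsmul_eq_mul, hm₀]
      push_cast
      field_simp
    rw [h2]
    unfold Dk
    rw [← Bil_finset_sum, ← Bil_const_mul]
    refine Bil_mono (fun a _ b _ => ?_)
    by_cases hd : w ≤ dist a b
    · have h3 : ∀ q ∈ Finset.range m₀, crossK (gridC ((m₀ : ℝ) * w) ((q : ℝ) * w)) (KK s j) a b = 0 := by
        intro q _
        unfold crossK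
        rw [KK_eq_zero j hd]
        simp
      rw [Finset.sum_eq_zero h3, KK_eq_zero j hd]
      simp
    · push Not at hd
      have h4 := card_sep_le (a := a) (b := b) hwpos (m₀ := m₀) hd
      have h5 : ∑ q ∈ Finset.range m₀, crossK (gridC ((m₀ : ℝ) * w) ((q : ℝ) * w)) (KK s j) a b
          = ((Finset.range m₀).filter (fun q : ℕ => gridC (m₀ * w) (q * w) a ≠ gridC (m₀ * w) (q * w) b)).card
            * KK s j a b := by
        calc ∑ q ∈ Finset.range m₀, crossK (gridC ((m₀ : ℝ) * w) ((q : ℝ) * w)) (KK s j) a b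
            = ∑ q ∈ Finset.range m₀, if gridC (m₀ * w) (q * w) a ≠ gridC (m₀ * w) (q * w) b
                then KK s j a b else 0 := by
              refine Finset.sum_congr rfl (fun q _ => ?_)
              unfold crossK
              by_cases hq : gridC (m₀ * w) (q * w) a = gridC (m₀ * w) (q * w) b <;> simp [hq]
          _ = ∑ _q ∈ (Finset.range m₀).filter (fun q : ℕ => gridC (m₀ * w) (q * w) a ≠ gridC (m₀ * w) (q * w) b),
                KK s j a b := (Finset.sum_filter _ _).symm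
          _ = _ := by rw [Finset.sum_const, nsmul_eq_mul]
      rw [h5]
      have h6 : (((Finset.range m₀).filter (fun q : ℕ => gridC (m₀ * w) (q * w) a ≠ gridC (m₀ * w) (q * w) b)).card : ℝ) ≤ 3 := by
        exact_mod_cast h4
      exact mul_le_mul_of_nonneg_right h6 (KK_nonneg hs j a b)
  have hne : (Finset.range m₀).Nonempty := ⟨0, Finset.mem_range.2 (by omega)⟩
  exact Finset.exists_le_of_sum_le hne h1

/-- Points in the same unit cell are in the same cell of any integer grid. -/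
lemma gridC_eq_of_unitC_eq {ℓ o : ℕ} (hℓ : 0 < ℓ) {a b : E3} (h : unitC a = unitC b) :
    gridC (ℓ : ℝ) (o : ℝ) a = gridC (ℓ : ℝ) (o : ℝ) b := by
  have hℓ' : (0 : ℝ) < ℓ := by exact_mod_cast hℓ
  have key : ∀ (x : ℝ), ⌊(x - o) / ℓ⌋ = ⌊(((⌊x⌋ : ℤ) : ℝ) - o) / ℓ⌋ := by
    intro x
    have h1 := Int.floor_le x
    have h2 := Int.lt_floor_add_one x
    set v := ⌊(((⌊x⌋ : ℤ) : ℝ) - o) / ℓ⌋ with hv
    rw [Int.floor_eq_iff]
    have h3 : (v : ℝ) ≤ (((⌊x⌋ : ℤ) : ℝ) - o) / ℓ := Int.floor_le _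
    have h4 : (((⌊x⌋ : ℤ) : ℝ) - o) / ℓ < (v : ℝ) + 1 := Int.lt_floor_add_one _
    rw [le_div_iff₀ hℓ'] at h3 ⊢
    rw [div_lt_iff₀ hℓ'] at h4 ⊢
    constructor
    · linarith
    · have h5 : ⌊x⌋ - (o : ℤ) < (v + 1) * (ℓ : ℤ) := by
        have : (((⌊x⌋ - (o : ℤ) : ℤ)) : ℝ) < (((v + 1) * (ℓ : ℤ) : ℤ) : ℝ) := by
          push_cast
          linarith
        exact Int.cast_lt.1 this
      have h6 : ⌊x⌋ - (o : ℤ) + 1 ≤ (v + 1) * (ℓ : ℤ) := h5
      have h7 : (((⌊x⌋ - (o : ℤ) + 1 : ℤ)) : ℝ) ≤ (((v + 1) * (ℓ : ℤ) : ℤ) : ℝ) := by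
        exact_mod_cast h6
      push_cast at h7
      linarith
  funext i
  have h1 : ⌊a i⌋ = ⌊b i⌋ := by
    have := congrFun h i
    simpa [unitC_apply] using this
  unfold gridC
  rw [key (a i), key (b i), h1]

/-- The offset grid at level `j`. -/
noncomputable def offC (j q : ℕ) : E3 → Fin 3 → ℤ :=
  gridC (((j + 2 : ℕ) : ℝ) * (Rn j : ℝ)) ((q : ℝ) * (Rn j : ℝ))

lemma ell_eq (j : ℕ) : ((j + 2 : ℕ) : ℝ) * (Rn j : ℝ) = (Rn (j + 1) : ℝ) := by
  rw [Rn_succ]
  push_cast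
  ring

lemma offC_eq (j q : ℕ) : offC j q = gridC (Rn (j + 1) : ℝ) (((q * Rn j : ℕ)) : ℝ) := by
  unfold offC
  rw [ell_eq]
  push_cast
  rfl

/-- The effective Hamiltonian of a cube of side `R_{j+1}`. -/
noncomputable def HK (s : ℕ → ℝ) (j : ℕ) (μ aq ε : ℝ) (m : Multiset E3) : ℝ :=
  μ * (Multiset.card m : ℝ) - AA * En (indK 2) m + En (KK s j) m
    + aq * (Multiset.card m : ℝ) ^ 2 + ε * SS m

lemma measurable_sameK_unit : Measurable (fun p : E3 × E3 => sameK unitC p.1 p.2) := by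
  unfold sameK
  refine Measurable.ite ?_ measurable_const measurable_const
  exact measurableSet_eq_fun ((measurable_gridC _ _).comp measurable_fst)
    ((measurable_gridC _ _).comp measurable_snd)

lemma RM_SS : RM SS := RM_Dk measurable_sameK_unit

lemma RM_En_indK : RM (En (indK 2)) := RM_En (measurable_indK 2)

lemma RM_HK (s : ℕ → ℝ) (j : ℕ) (μ aq ε : ℝ) : RM (HK s j μ aq ε) := by
  unfold HK
  exact (((RM_card.const_mul μ).sub (RM_En_indK.const_mul AA)).add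
    (RM_En (measurable_KK s j))).add ((RM_card.pow 2).const_mul aq) |>.add (RM_SS.const_mul ε)

/-- The energy of the scales above `R_j` is controlled by the number of particles in each cube. -/
lemma tail_le {s : ℕ → ℝ} (hs : Adm s) {t : ℝ} (ht : 0 ≤ t) (hσ : (∑' i, s i) + t ≤ rr) (j q : ℕ)
    (m : Multiset E3) :
    En (KS (sAdd s t (j + 1))) m - En (KK s j) m ≤
      (27 / (2 * (Rn (j + 1) : ℝ) ^ 3) * ((∑' i, s i) + t - ∑ i ∈ Finset.range (j + 1), s i))
        * Sc (offC j q) m := by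
  set s' := sAdd s t (j + 1) with hs'
  have hA : Adm s' := Adm_sAdd hs ht hσ (j + 1)
  have hag : ∀ i ∈ Finset.range (j + 1), s' i = s i := by
    intro i hi
    have : i ≠ j + 1 := by
      have := Finset.mem_range.1 hi
      omega
    simp [hs', sAdd, this]
  have hℓ : (0 : ℝ) < (Rn (j + 1) : ℝ) := Rn_real_pos _
  set B : ℝ := 27 / (2 * (Rn (j + 1) : ℝ) ^ 3) * Sc (offC j q) m with hB
  have h1 := (hasSum_nat_add_iff' (f := fun i => s' i * En (Jk i) m) (j + 1)).2 (hA.hasSum_En m)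
  have h2 := (hasSum_nat_add_iff' (f := s') (j + 1)).2 (hasSum_sAdd hs.summable t (j + 1))
  have h3 := h2.mul_right B
  have h4 : ∀ n : ℕ, s' (n + (j + 1)) * En (Jk (n + (j + 1))) m ≤ s' (n + (j + 1)) * B := by
    intro n
    refine mul_le_mul_of_nonneg_left ?_ (hA.nonneg _)
    set i := n + (j + 1) with hi
    obtain ⟨u, hu⟩ := Rn_dvd (show j + 1 ≤ i by omega)
    have hupos : 0 < u := by
      rcases Nat.eq_zero_or_pos u with h | h
      · rw [h] at hu
        have := Rn_pos i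
        omega
      · exact h
    have h5 := En_le_half_Dk (f := Jk i) (fun a => Jk_nonneg i a a) m
    have h6 := Dk_Jk_le i (Rn (j + 1) : ℝ) ((q : ℝ) * (Rn j : ℝ)) hℓ u hupos
      (by rw [hu]; push_cast; ring) m
    rw [hB]
    have h7 : Sc (gridC (Rn (j + 1) : ℝ) ((q : ℝ) * (Rn j : ℝ))) m = Sc (offC j q) m := by
      unfold offC
      rw [ell_eq]
    rw [h7] at h6
    have h8 : 27 / (2 * (Rn (j + 1) : ℝ) ^ 3) * Sc (offC j q) m
        = 27 / (Rn (j + 1) : ℝ) ^ 3 * Sc (offC j q) m / 2 := by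
      field_simp
    rw [h8]
    linarith
  have h5 := hasSum_le h4 h1 h3
  have h6 : ∑ i ∈ Finset.range (j + 1), s' i * En (Jk i) m = En (KK s j) m := by
    rw [En_KK]
    exact Finset.sum_congr rfl (fun i hi => by rw [hag i hi])
  have h7 : ∑ i ∈ Finset.range (j + 1), s' i = ∑ i ∈ Finset.range (j + 1), s i :=
    Finset.sum_congr rfl hag
  rw [h6, h7] at h5
  calc En (KS s') m - En (KK s j) m ≤ _ := h5
    _ = _ := by
      rw [hB]
      ring

/-- The energy estimate for a good offset. -/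
lemma Ham_le_pieces {s : ℕ → ℝ} (hs : Adm s) {t : ℝ} (ht : 0 ≤ t) (hσ : (∑' i, s i) + t ≤ rr)
    (j q : ℕ) (μ : ℝ) {m : Multiset E3} {K : Finset (Fin 3 → ℤ)}
    (hK : ∀ a ∈ m, offC j q a ∈ K)
    (hq : Dk (crossK (offC j q) (KK s j)) m ≤ 3 / ((j : ℝ) + 2) * Dk (KK s j) m) :
    Ham (sAdd s t (j + 1)) μ m ≤ ∑ k ∈ K, HK s j μ
      (27 / (2 * (Rn (j + 1) : ℝ) ^ 3) * ((∑' i, s i) + t - ∑ i ∈ Finset.range (j + 1), s i))
      (81 * rr / (2 * ((j : ℝ) + 2))) (piece (offC j q) k m) := by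
  set aq := 27 / (2 * (Rn (j + 1) : ℝ) ^ 3) * ((∑' i, s i) + t - ∑ i ∈ Finset.range (j + 1), s i) with haq
  set ε := 81 * rr / (2 * ((j : ℝ) + 2)) with hε
  set c := offC j q with hc
  have hj : (0 : ℝ) < (j : ℝ) + 2 := by positivity
  -- the pieces of each term
  have h1 := card_pieces c K hK
  have h2 : En (indK 2) m = ∑ k ∈ K, En (indK 2) (piece c k m) + Dk (crossK c (indK 2)) m / 2 :=
    En_pieces c K (indK 2) hK
  have h3 : 0 ≤ Dk (crossK c (indK 2)) m := by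
    refine Bil_nonneg (fun a _ b _ => ?_)
    unfold crossK
    split_ifs
    · exact le_rfl
    · exact indK_nonneg _ _ _
  have h4 : En (KK s j) m = ∑ k ∈ K, En (KK s j) (piece c k m) + Dk (crossK c (KK s j)) m / 2 :=
    En_pieces c K (KK s j) hK
  have h5 : Dk (crossK c (KK s j)) m / 2 ≤ ε * SS m := by
    have h6 := Dk_KK_le hs j m
    have h7 : 3 / ((j : ℝ) + 2) * Dk (KK s j) m ≤ 3 / ((j : ℝ) + 2) * (27 * rr * SS m) :=
      mul_le_mul_of_nonneg_left h6 (by positivity)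
    have h8 : 3 / ((j : ℝ) + 2) * (27 * rr * SS m) / 2 = ε * SS m := by
      rw [hε]
      field_simp
      ring
    linarith
  have h6 : SS m = ∑ k ∈ K, SS (piece c k m) := by
    refine Sc_refine c unitC K (fun a b hab => ?_) hK
    rw [hc, offC_eq]
    exact gridC_eq_of_unitC_eq (Rn_pos _) hab
  have h7 : En (KS (sAdd s t (j + 1))) m - En (KK s j) m ≤ aq * Sc c m := tail_le hs ht hσ j q m
  have h8 : Sc c m = ∑ k ∈ K, (Multiset.card (piece c k m) : ℝ) ^ 2 := Sc_eq_sum c K hK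
  have h9 : ∑ k ∈ K, HK s j μ aq ε (piece c k m)
      = μ * (Multiset.card m : ℝ) - AA * ∑ k ∈ K, En (indK 2) (piece c k m)
        + ∑ k ∈ K, En (KK s j) (piece c k m) + aq * Sc c m + ε * SS m := by
    rw [h6, h8, ← h1]
    unfold HK
    simp only [Finset.sum_add_distrib, Finset.sum_sub_distrib, Finset.mul_sum]
  rw [h9]
  unfold Ham
  rw [Us_eq]
  have hA := AA_pos
  have h10 : AA * (∑ k ∈ K, En (indK 2) (piece c k m)) ≤ AA * En (indK 2) m := by
    refine mul_le_mul_of_nonneg_left ?_ hA.le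
    linarith
  linarith

/-- The weight is dominated by a sum over offsets of products over cubes. -/
lemma WW_le_sum_prod {s : ℕ → ℝ} (hs : Adm s) {t : ℝ} (ht : 0 ≤ t) (hσ : (∑' i, s i) + t ≤ rr)
    (j : ℕ) (μ : ℝ) {m : Multiset E3} {K : Finset (Fin 3 → ℤ)}
    (hK : ∀ q ∈ Finset.range (j + 2), ∀ a ∈ m, offC j q a ∈ K) :
    WW (sAdd s t (j + 1)) μ m ≤ ∑ q ∈ Finset.range (j + 2), ∏ k ∈ K, Wexp (HK s j μ
      (27 / (2 * (Rn (j + 1) : ℝ) ^ 3) * ((∑' i, s i) + t - ∑ i ∈ Finset.range (j + 1), s i))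
      (81 * rr / (2 * ((j : ℝ) + 2)))) (piece (offC j q) k m) := by
  obtain ⟨q, hq, hq2⟩ := exists_good_offset hs j m
  have h1 := Ham_le_pieces hs ht hσ j q μ (hK q hq) hq2
  refine le_trans ?_ (Finset.single_le_sum (f := fun q => ∏ k ∈ K, Wexp (HK s j μ
      (27 / (2 * (Rn (j + 1) : ℝ) ^ 3) * ((∑' i, s i) + t - ∑ i ∈ Finset.range (j + 1), s i))
      (81 * rr / (2 * ((j : ℝ) + 2)))) (piece (offC j q) k m)) (fun _ _ => zero_le) hq)
  unfold WW Wexp
  rw [← Wexp_sum]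
  exact ENNReal.ofReal_le_ofReal (Real.exp_le_exp.2 h1)

/-! ### Translation invariance of the effective Hamiltonian -/

/-- Translation by an integer vector. -/
noncomputable def intV (z : Fin 3 → ℤ) : E3 := vecOf (fun i => (z i : ℝ))

lemma unitC_tr (z : Fin 3 → ℤ) (a : E3) : unitC (tr (-intV z) a) = fun i => unitC a i - z i := by
  funext i
  rw [unitC_apply, unitC_apply, tr_apply]
  have : (a + -intV z) i = a i - (z i : ℝ) := add_neg_vecOf_apply a _ i
  rw [this, Int.floor_sub_intCast]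

lemma SS_map_tr (z : Fin 3 → ℤ) (m : Multiset E3) : SS (m.map (tr (-intV z))) = SS m := by
  unfold SS Sc
  refine Dk_map (fun a b => ?_) m
  unfold sameK
  rw [unitC_tr, unitC_tr]
  have : ((fun i => unitC a i - z i) = fun i => unitC b i - z i) ↔ unitC a = unitC b := by
    constructor
    · intro h
      funext i
      have := congrFun h i
      omega
    · intro h
      rw [h]
  simp only [this]

lemma indK_tr (R : ℝ) (v a b : E3) : indK R (tr v a) (tr v b) = indK R a b := by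
  unfold indK
  rw [dist_tr]

lemma KK_tr (s : ℕ → ℝ) (j : ℕ) (v a b : E3) : KK s j (tr v a) (tr v b) = KK s j a b := by
  unfold KK Jk
  refine Finset.sum_congr rfl (fun i _ => ?_)
  rw [indK_tr]

lemma HK_map_tr (s : ℕ → ℝ) (j : ℕ) (μ aq ε : ℝ) (z : Fin 3 → ℤ) (m : Multiset E3) :
    HK s j μ aq ε (m.map (tr (-intV z))) = HK s j μ aq ε m := by
  unfold HK
  rw [En_map (indK_tr 2 _) m, En_map (KK_tr s j _) m, SS_map_tr z m, Multiset.card_map]

/-- The basic cube of side `R_{j+1}`. -/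
noncomputable def Q0 (j : ℕ) : Set E3 := gridC (Rn (j + 1) : ℝ) 0 ⁻¹' {0}

lemma measurableSet_Q0 (j : ℕ) : MeasurableSet (Q0 j) := measurableSet_gridC _ _ _

lemma mem_Q0_iff (j : ℕ) (a : E3) : a ∈ Q0 j ↔ ∀ i, 0 ≤ a i ∧ a i < (Rn (j + 1) : ℝ) := by
  have hℓ : (0 : ℝ) < (Rn (j + 1) : ℝ) := Rn_real_pos _
  unfold Q0
  simp only [Set.mem_preimage, Set.mem_singleton_iff]
  rw [gridC_eq_iff hℓ]
  simp

lemma Q0_subset_cube (j : ℕ) : Q0 j ⊆ cubeL (Rn (j + 1) : ℝ) := by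
  intro a ha i
  have := (mem_Q0_iff j a).1 ha i
  exact ⟨this.1, this.2.le⟩

lemma offC_cell (j q : ℕ) (k : Fin 3 → ℤ) :
    offC j q ⁻¹' {k} = tr (-intV (fun i => k i * (Rn (j + 1) : ℤ) + ((q * Rn j : ℕ) : ℤ))) ⁻¹' Q0 j := by
  have hℓ : (0 : ℝ) < (Rn (j + 1) : ℝ) := Rn_real_pos _
  ext a
  simp only [Set.mem_preimage, Set.mem_singleton_iff]
  rw [offC_eq, gridC_eq_iff hℓ, mem_Q0_iff]
  refine forall_congr' (fun i => ?_)
  rw [tr_apply]
  have : (a + -intV (fun i => k i * (Rn (j + 1) : ℤ) + ((q * Rn j : ℕ) : ℤ))) i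
      = a i - (((k i * (Rn (j + 1) : ℤ) + ((q * Rn j : ℕ) : ℤ)) : ℤ) : ℝ) :=
    add_neg_vecOf_apply a _ i
  rw [this]
  push_cast
  constructor
  · rintro ⟨h1, h2⟩
    constructor
    · linarith
    · nlinarith
  · rintro ⟨h1, h2⟩
    constructor
    · linarith
    · nlinarith

/-- The index set of the cubes meeting `[0, n R_{j+1}]^3`. -/
noncomputable def boxM (n : ℕ) : Finset (Fin 3 → ℤ) :=
  Fintype.piFinset (fun _ => Finset.Icc (-1 : ℤ) (n : ℤ))

lemma card_boxM (n : ℕ) : (boxM n).card = (n + 2) ^ 3 := by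
  unfold boxM
  rw [Fintype.card_piFinset]
  simp only [Finset.prod_const, Finset.card_univ, Fintype.card_fin, Int.card_Icc]
  have : ((n : ℤ) + 1 - -1).toNat = n + 2 := by omega
  rw [this]

lemma offC_mem_boxM {j q n : ℕ} (hq : q < j + 2) {a : E3}
    (ha : a ∈ cubeL ((n : ℝ) * (Rn (j + 1) : ℝ))) : offC j q a ∈ boxM n := by
  have hℓ : (0 : ℝ) < (Rn (j + 1) : ℝ) := Rn_real_pos _
  have hw : (0 : ℝ) < (Rn j : ℝ) := Rn_real_pos _
  unfold boxM
  rw [Fintype.mem_piFinset]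
  intro i
  have h := ha i
  rw [Finset.mem_Icc]
  have h1 : (q : ℝ) * (Rn j : ℝ) < (Rn (j + 1) : ℝ) := by
    rw [← ell_eq]
    have : (q : ℝ) < ((j + 2 : ℕ) : ℝ) := by exact_mod_cast hq
    exact mul_lt_mul_of_pos_right this hw
  have h2 : 0 ≤ (q : ℝ) * (Rn j : ℝ) := by positivity
  unfold offC
  rw [ell_eq]
  constructor
  · refine Int.le_floor.2 ?_
    rw [le_div_iff₀ hℓ]
    push_cast
    linarith [h.1]
  · refine Int.floor_le_iff.2 ?_
    rw [div_lt_iff₀ hℓ]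
    push_cast
    nlinarith [h.2]

/-- The comparison of a large cube with a power of a cube of side `R_{j+1}`. -/
lemma Xi_le_block {s : ℕ → ℝ} (hs : Adm s) {t : ℝ} (ht : 0 ≤ t) (hσ : (∑' i, s i) + t ≤ rr)
    (j : ℕ) (μ : ℝ) (n : ℕ) :
    Xi (cubeL ((n : ℝ) * (Rn (j + 1) : ℝ))) (sAdd s t (j + 1)) μ
      ≤ ((j + 2 : ℕ) : ℝ≥0∞) * II (volume.restrict (Q0 j)) (Wexp (HK s j μ
      (27 / (2 * (Rn (j + 1) : ℝ) ^ 3) * ((∑' i, s i) + t - ∑ i ∈ Finset.range (j + 1), s i))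
      (81 * rr / (2 * ((j : ℝ) + 2))))) ^ ((n + 2) ^ 3) := by
  set Hm := HK s j μ
      (27 / (2 * (Rn (j + 1) : ℝ) ^ 3) * ((∑' i, s i) + t - ∑ i ∈ Finset.range (j + 1), s i))
      (81 * rr / (2 * ((j : ℝ) + 2))) with hHm
  set K := boxM n with hK
  set Λ := cubeL ((n : ℝ) * (Rn (j + 1) : ℝ)) with hΛ
  have hΛm : MeasurableSet Λ := measurableSet_cubeL _
  have hCMH : CM (Wexp Hm) := CM_Wexp (RM_HK _ _ _ _ _)
  have hmeas : ∀ q, ∀ k, MeasurableSet (offC j q ⁻¹' {k}) := fun q k => measurableSet_gridC _ _ _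
  have hCMq : ∀ q, CM (fun m => ∏ k ∈ K, Wexp Hm (m.filter (fun a => offC j q a = k))) :=
    fun q => CM.prod _ (fun k _ => CM.filter (hmeas q k) hCMH)
  have hsubq : ∀ q ∈ Finset.range (j + 2), Λ ⊆ Set.univ ∩ offC j q ⁻¹' (K : Set (Fin 3 → ℤ)) := by
    intro q hq a ha
    exact ⟨trivial, offC_mem_boxM (Finset.mem_range.1 hq) ha⟩
  have hblock : ∀ q ∈ Finset.range (j + 2),
      II (volume.restrict Λ) (fun m => ∏ k ∈ K, Wexp Hm (m.filter (fun a => offC j q a = k)))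
        ≤ II (volume.restrict (Q0 j)) (Wexp Hm) ^ ((n + 2) ^ 3) := by
    intro q hq
    calc II (volume.restrict Λ) (fun m => ∏ k ∈ K, Wexp Hm (m.filter (fun a => offC j q a = k)))
        ≤ II (volume.restrict (Set.univ ∩ offC j q ⁻¹' (K : Set (Fin 3 → ℤ))))
            (fun m => ∏ k ∈ K, Wexp Hm (m.filter (fun a => offC j q a = k))) :=
          II_mono_measure (Measure.restrict_mono (hsubq q hq) le_rfl) (fun _ => le_rfl)
      _ = ∏ k ∈ K, II (volume.restrict (Set.univ ∩ offC j q ⁻¹' {k})) (Wexp Hm) :=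
          II_block volume (offC j q) (hmeas q) Set.univ MeasurableSet.univ (fun _ => Wexp Hm)
            (fun _ => hCMH) K
      _ = ∏ _k ∈ K, II (volume.restrict (Q0 j)) (Wexp Hm) := by
          refine Finset.prod_congr rfl (fun k _ => ?_)
          rw [Set.univ_inter, offC_cell]
          refine II_map volume (tr _) (tr_preserving _) (Q0 j) (Wexp Hm) (fun m => ?_)
          unfold Wexp
          rw [hHm, HK_map_tr]
      _ = _ := by rw [Finset.prod_const, hK, card_boxM]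
  calc Xi Λ (sAdd s t (j + 1)) μ
      ≤ II (volume.restrict Λ) (fun m => ∑ q ∈ Finset.range (j + 2),
          ∏ k ∈ K, Wexp Hm (m.filter (fun a => offC j q a = k))) := by
        refine II_restrict_mono hΛm (fun m hm => ?_)
        exact WW_le_sum_prod hs ht hσ j μ (fun q hq a ha => offC_mem_boxM (Finset.mem_range.1 hq) (hm a ha))
    _ = ∑ q ∈ Finset.range (j + 2), II (volume.restrict Λ)
          (fun m => ∏ k ∈ K, Wexp Hm (m.filter (fun a => offC j q a = k))) :=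
        II_finset_sum _ _ (fun q _ => hCMq q)
    _ ≤ ∑ _q ∈ Finset.range (j + 2), II (volume.restrict (Q0 j)) (Wexp Hm) ^ ((n + 2) ^ 3) :=
        Finset.sum_le_sum hblock
    _ = _ := by
        rw [Finset.sum_const, Finset.card_range, nsmul_eq_mul]

end P171
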