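import Vale.Agent.Lib.P171.Kac1

/-!
# The upper bound for a long-range perturbation: estimates in a cube
-/

open MeasureTheory Finset Filter Topology
open scoped ENNReal

set_option linter.unusedSectionVars false

namespace P171

/-- Energy with an extra pair-count term. -/
noncomputable def Gam (s : ℕ → ℝ) (γ : ℝ) (m : Multiset E3) : ℝ := -Us s m + γ * SS m

lemma RM_Gam {s : ℕ → ℝ} (hs : Adm s) (γ : ℝ) : RM (Gam s γ) := by
  intro N
  exact ((RM_Us hs N).neg).add ((RM_SS N).const_mul γ)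

/-- The canonical integral with the extra term in the cube of side `R_{j+1}`. -/
noncomputable def TT (s : ℕ → ℝ) (j : ℕ) (γ : ℝ) (n : ℕ) : ℝ≥0∞ :=
  (n.factorial : ℝ≥0∞)⁻¹ * It (volume.restrict (Q0 j)) n (Wexp (Gam s γ))

/-- The `n`-particle term of the cube partition function. -/
noncomputable def termK (s : ℕ → ℝ) (j : ℕ) (μ aq ε : ℝ) (n : ℕ) : ℝ≥0∞ :=
  (n.factorial : ℝ≥0∞)⁻¹ * It (volume.restrict (Q0 j)) n (Wexp (HK s j μ aq ε))

lemma HK_le {s : ℕ → ℝ} (hs : Adm s) (j : ℕ) (μ aq ε : ℝ) (m : Multiset E3) :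
    HK s j μ aq ε m ≤ μ * (Multiset.card m : ℝ) + aq * (Multiset.card m : ℝ) ^ 2 + Gam s ε m := by
  unfold HK Gam
  rw [Us_eq]
  have h1 : En (KK s j) m ≤ En (KS s) m := by
    rw [En_KK]
    exact sum_le_hasSum _ (fun i _ => mul_nonneg (hs.nonneg i) (En_Jk_nonneg i m)) (hs.hasSum_En m)
  linarith

lemma termK_le_TT {s : ℕ → ℝ} (hs : Adm s) (j : ℕ) (μ aq ε : ℝ) (n : ℕ) :
    termK s j μ aq ε n ≤
      ENNReal.ofReal (Real.exp (μ * n + aq * (n : ℝ) ^ 2)) * TT s j ε n := by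
  unfold termK TT
  have hCM : CM (Wexp (Gam s ε)) := CM_Wexp (RM_Gam hs ε)
  have h1 : It (volume.restrict (Q0 j)) n (Wexp (HK s j μ aq ε)) ≤
      It (volume.restrict (Q0 j)) n (fun m => ENNReal.ofReal (Real.exp (μ * n + aq * (n : ℝ) ^ 2)) * Wexp (Gam s ε) m) := by
    refine It_restrict_mono (measurableSet_Q0 j) (fun m hm _ => ?_)
    unfold Wexp
    rw [← ENNReal.ofReal_mul (Real.exp_pos _).le, ← Real.exp_add]
    refine ENNReal.ofReal_le_ofReal (Real.exp_le_exp.2 ?_)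
    have := HK_le hs j μ aq ε m
    rwa [hm] at this
  rw [It_const_mul _ _ hCM] at h1
  calc (n.factorial : ℝ≥0∞)⁻¹ * It (volume.restrict (Q0 j)) n (Wexp (HK s j μ aq ε))
      ≤ (n.factorial : ℝ≥0∞)⁻¹ * (ENNReal.ofReal (Real.exp (μ * n + aq * (n : ℝ) ^ 2)) *
          It (volume.restrict (Q0 j)) n (Wexp (Gam s ε))) := by gcongr
    _ = _ := by ring

/-- The canonical integral is controlled by the pressure. -/
lemma TT_zero_le {s : ℕ → ℝ} (hs : Adm s) (j : ℕ) (ν : ℝ) (n : ℕ) :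
    TT s j 0 n ≤ ENNReal.ofReal (Real.exp (-ν * n + ((Rn (j + 1) : ℝ) + 2) ^ 3 * Pr s ν)) := by
  have hCM : CM (Wexp (Gam s 0)) := CM_Wexp (RM_Gam hs 0)
  have h1 : ENNReal.ofReal (Real.exp (ν * n)) * TT s j 0 n ≤ Xi (Q0 j) s ν := by
    unfold TT Xi II
    refine le_trans ?_ (ENNReal.le_tsum n)
    have h2 : It (volume.restrict (Q0 j)) n (fun m => ENNReal.ofReal (Real.exp (ν * n)) * Wexp (Gam s 0) m)
        ≤ It (volume.restrict (Q0 j)) n (WW s ν) := by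
      refine It_restrict_mono (measurableSet_Q0 j) (fun m hm _ => ?_)
      unfold WW Wexp Gam Ham
      rw [← ENNReal.ofReal_mul (Real.exp_pos _).le, ← Real.exp_add, hm]
      refine ENNReal.ofReal_le_ofReal (Real.exp_le_exp.2 ?_)
      simp [sub_eq_add_neg]
    rw [It_const_mul _ _ hCM] at h2
    calc ENNReal.ofReal (Real.exp (ν * n)) * ((n.factorial : ℝ≥0∞)⁻¹ * It (volume.restrict (Q0 j)) n (Wexp (Gam s 0)))
        = (n.factorial : ℝ≥0∞)⁻¹ * (ENNReal.ofReal (Real.exp (ν * n)) * It (volume.restrict (Q0 j)) n (Wexp (Gam s 0))) := by ring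
      _ ≤ _ := by gcongr
  have h2 : Xi (Q0 j) s ν ≤ ENNReal.ofReal (Real.exp (((Rn (j + 1) : ℝ) + 2) ^ 3 * Pr s ν)) :=
    (Xi_mono (Q0_subset_cube j) s ν).trans (Xi_le_exp_Pr hs ν (by have := Rn_pos (j + 1); omega))
  have h3 := h1.trans h2
  have h4 : TT s j 0 n = ENNReal.ofReal (Real.exp (-ν * n)) * (ENNReal.ofReal (Real.exp (ν * n)) * TT s j 0 n) := by
    rw [← mul_assoc, ← ENNReal.ofReal_mul (Real.exp_pos _).le, ← Real.exp_add]
    have : -ν * n + ν * n = 0 := by ring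
    simp
  rw [h4, add_comm, Real.exp_add, mul_comm (Real.exp _), ENNReal.ofReal_mul (Real.exp_pos _).le]
  gcongr

/-- The unit cells in the cube of side `R_{j+1}`. -/
noncomputable def cellsQ (ℓ : ℕ) : Finset (Fin 3 → ℤ) :=
  Fintype.piFinset (fun _ => Finset.Icc (0 : ℤ) ((ℓ : ℤ) - 1))

lemma card_cellsQ (ℓ : ℕ) : ((cellsQ ℓ).card : ℝ) = (ℓ : ℝ) ^ 3 := by
  unfold cellsQ
  rw [Fintype.card_piFinset]
  simp only [Finset.prod_const, Finset.card_univ, Fintype.card_fin, Int.card_Icc]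
  have : ((ℓ : ℤ) - 1 + 1 - 0).toNat = ℓ := by omega
  rw [this]
  push_cast
  ring

lemma unitC_mem_cellsQ (j : ℕ) {a : E3} (ha : a ∈ Q0 j) : unitC a ∈ cellsQ (Rn (j + 1)) := by
  unfold cellsQ
  rw [Fintype.mem_piFinset]
  intro i
  rw [Finset.mem_Icc, unitC_apply]
  have h := (mem_Q0_iff j a).1 ha i
  constructor
  · exact Int.floor_nonneg.2 h.1
  · have : ⌊a i⌋ < (Rn (j + 1) : ℤ) := by
      refine Int.floor_lt.2 ?_
      push_cast
      exact h.2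
    omega

lemma card_sq_le_SS (j : ℕ) {m : Multiset E3} (hm : ∀ a ∈ m, a ∈ Q0 j) :
    (Multiset.card m : ℝ) ^ 2 ≤ (Rn (j + 1) : ℝ) ^ 3 * SS m := by
  have := card_sq_le unitC (cellsQ (Rn (j + 1))) (m := m) (fun a ha => unitC_mem_cellsQ j (hm a ha))
  rwa [card_cellsQ] at this

/-- The repulsion bounds the canonical integral with the extra term. -/
lemma TT_top_le {s : ℕ → ℝ} (hs : Adm s) (j : ℕ) (n : ℕ) :
    TT s j (AA / 8) n ≤ ENNReal.ofReal (Real.exp (AA / 2 * n - AA / 8 * ((n : ℝ) ^ 2 / (Rn (j + 1) : ℝ) ^ 3)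
      + (Rn (j + 1) : ℝ) ^ 3)) := by
  set ℓ : ℝ := (Rn (j + 1) : ℝ) with hℓ
  have hℓpos : 0 < ℓ := Rn_real_pos _
  have hA := AA_pos
  have h1 : It (volume.restrict (Q0 j)) n (Wexp (Gam s (AA / 8))) ≤
      ENNReal.ofReal (Real.exp (AA / 2 * n - AA / 8 * ((n : ℝ) ^ 2 / ℓ ^ 3))) * volume (Q0 j) ^ n := by
    refine It_le_vol (measurableSet_Q0 j) (fun m hm hm2 => ?_)
    refine ENNReal.ofReal_le_ofReal (Real.exp_le_exp.2 ?_)
    unfold Gam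
    have h2 := Us_ge hs m
    have h3 := card_sq_le_SS j hm2
    rw [hm] at h2 h3
    have h4 : (n : ℝ) ^ 2 / ℓ ^ 3 ≤ SS m := by
      rw [div_le_iff₀ (by positivity)]
      linarith
    have h5 : AA / 8 * ((n : ℝ) ^ 2 / ℓ ^ 3) ≤ AA / 8 * SS m :=
      mul_le_mul_of_nonneg_left h4 (by positivity)
    linarith
  have h2 : volume (Q0 j) ≤ ENNReal.ofReal (ℓ ^ 3) := by
    refine (measure_mono (Q0_subset_cube j)).trans ?_
    rw [volume_cubeL hℓpos.le]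
  have h3 : (n.factorial : ℝ≥0∞)⁻¹ * ENNReal.ofReal (ℓ ^ 3) ^ n ≤ ENNReal.ofReal (Real.exp (ℓ ^ 3)) := by
    rw [← tsum_pow_div_factorial (ℓ ^ 3) (by positivity)]
    exact ENNReal.le_tsum (f := fun n : ℕ => (n.factorial : ℝ≥0∞)⁻¹ * ENNReal.ofReal (ℓ ^ 3) ^ n) n
  unfold TT
  calc (n.factorial : ℝ≥0∞)⁻¹ * It (volume.restrict (Q0 j)) n (Wexp (Gam s (AA / 8)))
      ≤ (n.factorial : ℝ≥0∞)⁻¹ * (ENNReal.ofReal (Real.exp (AA / 2 * n - AA / 8 * ((n : ℝ) ^ 2 / ℓ ^ 3))) * ENNReal.ofReal (ℓ ^ 3) ^ n) := by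
        gcongr
        exact h1.trans (by gcongr)
    _ = ENNReal.ofReal (Real.exp (AA / 2 * n - AA / 8 * ((n : ℝ) ^ 2 / ℓ ^ 3))) * ((n.factorial : ℝ≥0∞)⁻¹ * ENNReal.ofReal (ℓ ^ 3) ^ n) := by
        ring
    _ ≤ ENNReal.ofReal (Real.exp (AA / 2 * n - AA / 8 * ((n : ℝ) ^ 2 / ℓ ^ 3))) * ENNReal.ofReal (Real.exp (ℓ ^ 3)) := by
        gcongr
    _ = _ := by
        rw [← ENNReal.ofReal_mul (Real.exp_pos _).le, ← Real.exp_add]

lemma TT_mono {s : ℕ → ℝ} (j : ℕ) {γ γ' : ℝ} (h : γ ≤ γ') (n : ℕ) : TT s j γ n ≤ TT s j γ' n := by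
  unfold TT
  gcongr
  refine It_mono_measure le_rfl (fun m => ?_) n
  refine ENNReal.ofReal_le_ofReal (Real.exp_le_exp.2 ?_)
  unfold Gam
  have := SS_nonneg m
  nlinarith

/-- The quadratic upper bound for the pressure, used for the Hölder interpolation. -/
noncomputable def Cc (ν : ℝ) : ℝ := 1 + 2 * (ν + AA / 2) ^ 2 / AA

lemma Cc_nonneg (ν : ℝ) : 0 ≤ Cc ν := by
  unfold Cc
  have := AA_pos
  positivity

lemma TT_top_le' {s : ℕ → ℝ} (hs : Adm s) (j : ℕ) (ν : ℝ) (n : ℕ) :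
    TT s j (AA / 8) n ≤ ENNReal.ofReal (Real.exp (-ν * n + (Rn (j + 1) : ℝ) ^ 3 * Cc ν)) := by
  refine (TT_top_le hs j n).trans (ENNReal.ofReal_le_ofReal (Real.exp_le_exp.2 ?_))
  set ℓ3 : ℝ := (Rn (j + 1) : ℝ) ^ 3 with hℓ
  have hℓpos : 0 < ℓ3 := pow_pos (Rn_real_pos _) 3
  have hA := AA_pos
  unfold Cc
  set x : ℝ := (n : ℝ)
  set b := ν + AA / 2 with hb
  have h1 : ℓ3 * (1 + 2 * b ^ 2 / AA) - (b * x - AA / 8 * (x ^ 2 / ℓ3)) - ℓ3
      = ((4 * b * ℓ3 - AA * x) ^ 2) / (8 * AA * ℓ3) := by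
    field_simp
    ring
  have h2 : 0 ≤ ((4 * b * ℓ3 - AA * x) ^ 2) / (8 * AA * ℓ3) := by positivity
  have h3 : b * x = ν * x + AA / 2 * x := by rw [hb]; ring
  nlinarith

/-- Hölder interpolation. -/
lemma TT_interp {s : ℕ → ℝ} (hs : Adm s) (j : ℕ) {ε : ℝ} (hε0 : 0 ≤ ε) (hε : ε ≤ AA / 8) (n : ℕ) :
    TT s j ε n ≤ TT s j 0 n ^ (1 - ε / (AA / 8)) * TT s j (AA / 8) n ^ (ε / (AA / 8)) := by
  have hA := AA_pos
  set δ := ε / (AA / 8) with hδ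
  have hδ0 : 0 ≤ δ := by positivity
  have hδ1 : δ ≤ 1 := by
    rw [hδ, div_le_one (by positivity)]
    exact hε
  have hq : 0 ≤ 1 - δ := by linarith
  have h1 : ∀ m, Wexp (Gam s ε) m = Wexp (Gam s 0) m ^ (1 - δ) * Wexp (Gam s (AA / 8)) m ^ δ := by
    intro m
    unfold Wexp
    rw [ENNReal.ofReal_rpow_of_pos (Real.exp_pos _), ENNReal.ofReal_rpow_of_pos (Real.exp_pos _),
      ← Real.exp_mul, ← Real.exp_mul, ← ENNReal.ofReal_mul (Real.exp_pos _).le, ← Real.exp_add]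
    congr 2
    unfold Gam
    have h2 : δ * (AA / 8) = ε := by
      rw [hδ]
      field_simp
    have h3 : (-Us s m + AA / 8 * SS m) * δ = -Us s m * δ + (δ * (AA / 8)) * SS m := by ring
    rw [h3, h2]
    ring
  have h2 : It (volume.restrict (Q0 j)) n (Wexp (Gam s ε)) ≤
      It (volume.restrict (Q0 j)) n (Wexp (Gam s 0)) ^ (1 - δ) *
        It (volume.restrict (Q0 j)) n (Wexp (Gam s (AA / 8))) ^ δ := by
    have h3 := It_holder (volume.restrict (Q0 j)) (CM_Wexp (RM_Gam hs 0)) (CM_Wexp (RM_Gam hs (AA / 8)))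
      hq hδ0 (by ring) n
    simp only [← h1] at h3
    exact h3
  unfold TT
  rw [ENNReal.mul_rpow_of_nonneg _ _ hq, ENNReal.mul_rpow_of_nonneg _ _ hδ0]
  have h4 : (n.factorial : ℝ≥0∞)⁻¹ = ((n.factorial : ℝ≥0∞)⁻¹) ^ (1 - δ) * ((n.factorial : ℝ≥0∞)⁻¹) ^ δ := by
    rw [← ENNReal.rpow_add_of_nonneg _ _ hq hδ0]
    simp
  calc (n.factorial : ℝ≥0∞)⁻¹ * It (volume.restrict (Q0 j)) n (Wexp (Gam s ε))
      ≤ (n.factorial : ℝ≥0∞)⁻¹ * (It (volume.restrict (Q0 j)) n (Wexp (Gam s 0)) ^ (1 - δ) *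
          It (volume.restrict (Q0 j)) n (Wexp (Gam s (AA / 8))) ^ δ) := by gcongr
    _ = (((n.factorial : ℝ≥0∞)⁻¹) ^ (1 - δ) * ((n.factorial : ℝ≥0∞)⁻¹) ^ δ) * (It (volume.restrict (Q0 j)) n (Wexp (Gam s 0)) ^ (1 - δ) *
          It (volume.restrict (Q0 j)) n (Wexp (Gam s (AA / 8))) ^ δ) := by
        rw [← h4]
    _ = _ := by ring

/-- The bound for a canonical term using the pressure at a chemical potential `ν`. -/
lemma TT_le_nu {s : ℕ → ℝ} (hs : Adm s) (j : ℕ) {ε : ℝ} (hε0 : 0 ≤ ε) (hε : ε ≤ AA / 8) (ν : ℝ) (n : ℕ) :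
    TT s j ε n ≤ ENNReal.ofReal (Real.exp (-ν * n + (1 - ε / (AA / 8)) * (((Rn (j + 1) : ℝ) + 2) ^ 3 * Pr s ν)
      + ε / (AA / 8) * ((Rn (j + 1) : ℝ) ^ 3 * Cc ν))) := by
  have hA := AA_pos
  set δ := ε / (AA / 8) with hδ
  have hδ0 : 0 ≤ δ := by positivity
  have hδ1 : δ ≤ 1 := by
    rw [hδ, div_le_one (by positivity)]
    exact hε
  have hq : 0 ≤ 1 - δ := by linarith
  refine (TT_interp hs j hε0 hε n).trans ?_
  have h1 := TT_zero_le hs j ν n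
  have h2 := TT_top_le' hs j ν n
  have h3 : TT s j 0 n ^ (1 - δ) ≤ (ENNReal.ofReal (Real.exp (-ν * n + ((Rn (j + 1) : ℝ) + 2) ^ 3 * Pr s ν))) ^ (1 - δ) :=
    ENNReal.rpow_le_rpow h1 hq
  have h4 : TT s j (AA / 8) n ^ δ ≤ (ENNReal.ofReal (Real.exp (-ν * n + (Rn (j + 1) : ℝ) ^ 3 * Cc ν))) ^ δ :=
    ENNReal.rpow_le_rpow h2 hδ0
  refine (mul_le_mul' h3 h4).trans (le_of_eq ?_)
  rw [ENNReal.ofReal_rpow_of_pos (Real.exp_pos _), ENNReal.ofReal_rpow_of_pos (Real.exp_pos _),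
    ← Real.exp_mul, ← Real.exp_mul, ← ENNReal.ofReal_mul (Real.exp_pos _).le, ← Real.exp_add]
  congr 2
  ring

end P171
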