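import Vale.Agent.Lib.P171.Kac2

/-!
# The upper bound for a long-range perturbation: conclusion
-/

open MeasureTheory Finset Filter Topology
open scoped ENNReal

set_option linter.unusedSectionVars false

namespace P171

lemma termK_le_nu {s : ℕ → ℝ} (hs : Adm s) (j : ℕ) (μ aq : ℝ) {ε : ℝ} (hε0 : 0 ≤ ε) (hε : ε ≤ AA / 8)
    (ν : ℝ) (n : ℕ) :
    termK s j μ aq ε n ≤ ENNReal.ofReal (Real.exp ((μ - ν) * n + aq * (n : ℝ) ^ 2
      + (1 - ε / (AA / 8)) * (((Rn (j + 1) : ℝ) + 2) ^ 3 * Pr s ν)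
      + ε / (AA / 8) * ((Rn (j + 1) : ℝ) ^ 3 * Cc ν))) := by
  refine (termK_le_TT hs j μ aq ε n).trans ?_
  refine (mul_le_mul_right (TT_le_nu hs j hε0 hε ν n) _).trans (le_of_eq ?_)
  rw [← ENNReal.ofReal_mul (Real.exp_pos _).le, ← Real.exp_add]
  congr 2
  ring

lemma termK_tail {s : ℕ → ℝ} (hs : Adm s) (j : ℕ) (μ aq : ℝ) {ε : ℝ} (hε : ε ≤ AA / 8)
    (haq : aq * (Rn (j + 1) : ℝ) ^ 3 ≤ AA / 16) (n : ℕ) :
    termK s j μ aq ε n ≤ ENNReal.ofReal (Real.exp ((μ + AA / 2) * n - AA / 16 * ((n : ℝ) ^ 2 / (Rn (j + 1) : ℝ) ^ 3)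
      + (Rn (j + 1) : ℝ) ^ 3)) := by
  set ℓ3 : ℝ := (Rn (j + 1) : ℝ) ^ 3 with hℓ
  have hℓpos : 0 < ℓ3 := pow_pos (Rn_real_pos _) 3
  refine (termK_le_TT hs j μ aq ε n).trans ?_
  refine (mul_le_mul_right ((TT_mono j hε n).trans (TT_top_le hs j n)) _).trans ?_
  rw [← ENNReal.ofReal_mul (Real.exp_pos _).le, ← Real.exp_add]
  refine ENNReal.ofReal_le_ofReal (Real.exp_le_exp.2 ?_)
  have h1 : aq * (n : ℝ) ^ 2 = (aq * ℓ3) * ((n : ℝ) ^ 2 / ℓ3) := by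
    field_simp
  have h2 : (aq * ℓ3) * ((n : ℝ) ^ 2 / ℓ3) ≤ AA / 16 * ((n : ℝ) ^ 2 / ℓ3) :=
    mul_le_mul_of_nonneg_right haq (by positivity)
  rw [← hℓ]
  nlinarith

lemma termK_tail' {s : ℕ → ℝ} (hs : Adm s) (j : ℕ) (μ aq : ℝ) {ε : ℝ} (hε : ε ≤ AA / 8)
    (haq : aq * (Rn (j + 1) : ℝ) ^ 3 ≤ AA / 16) {M : ℝ} (hM1 : 1 ≤ M)
    (hM2 : μ + AA / 2 + 2 ≤ AA / 16 * M) {n : ℕ} (hn : M * (Rn (j + 1) : ℝ) ^ 3 < n) :
    termK s j μ aq ε n ≤ ENNReal.ofReal (Real.exp (-(n : ℝ))) := by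
  refine (termK_tail hs j μ aq hε haq n).trans (ENNReal.ofReal_le_ofReal (Real.exp_le_exp.2 ?_))
  set ℓ3 : ℝ := (Rn (j + 1) : ℝ) ^ 3 with hℓ
  have hℓpos : 0 < ℓ3 := pow_pos (Rn_real_pos _) 3
  have hA := AA_pos
  have hn0 : (0 : ℝ) ≤ n := by positivity
  have h1 : M * n ≤ (n : ℝ) ^ 2 / ℓ3 := by
    rw [le_div_iff₀ hℓpos]
    nlinarith
  have h2 : AA / 16 * (M * n) ≤ AA / 16 * ((n : ℝ) ^ 2 / ℓ3) :=
    mul_le_mul_of_nonneg_left h1 (by positivity)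
  have h3 : (μ + AA / 2 + 2) * n ≤ AA / 16 * M * n := mul_le_mul_of_nonneg_right hM2 hn0
  have h4 : ℓ3 ≤ n := by nlinarith
  nlinarith

/-- The sum of the exponential tail. -/
lemma tsum_exp_neg_le : ∑' n : ℕ, ENNReal.ofReal (Real.exp (-(n : ℝ))) ≤ 2 := by
  have h1 : ∀ n : ℕ, ENNReal.ofReal (Real.exp (-(n : ℝ))) ≤ ENNReal.ofReal ((1 / 2 : ℝ) ^ n) := by
    intro n
    refine ENNReal.ofReal_le_ofReal ?_
    have h2 : Real.exp (-(n : ℝ)) = (Real.exp (-1)) ^ n := by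
      rw [← Real.exp_nat_mul]
      congr 1
      ring
    rw [h2]
    refine pow_le_pow_left₀ (Real.exp_pos _).le ?_ n
    rw [Real.exp_neg, one_div]
    refine inv_anti₀ (by norm_num) ?_
    have := Real.add_one_le_exp (1 : ℝ)
    linarith
  refine (ENNReal.tsum_le_tsum h1).trans ?_
  rw [← ENNReal.ofReal_tsum_of_nonneg (fun n => by positivity) summable_geometric_two, tsum_geometric_two]
  simp

/-- Summing the terms of the cube partition function. -/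
lemma Y_le {s : ℕ → ℝ} (j : ℕ) (μ aq ε : ℝ) {E M : ℝ} (hE : 0 ≤ E) (hM : 0 ≤ M)
    (h1 : ∀ n : ℕ, (n : ℝ) ≤ M * (Rn (j + 1) : ℝ) ^ 3 →
      termK s j μ aq ε n ≤ ENNReal.ofReal (Real.exp ((Rn (j + 1) : ℝ) ^ 3 * E)))
    (h2 : ∀ n : ℕ, M * (Rn (j + 1) : ℝ) ^ 3 < n →
      termK s j μ aq ε n ≤ ENNReal.ofReal (Real.exp (-(n : ℝ)))) :
    II (volume.restrict (Q0 j)) (Wexp (HK s j μ aq ε)) ≤
      ENNReal.ofReal (Real.exp ((Rn (j + 1) : ℝ) ^ 3 * E + Real.log (M * (Rn (j + 1) : ℝ) ^ 3 + 3))) := by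
  set ℓ3 : ℝ := (Rn (j + 1) : ℝ) ^ 3 with hℓ
  have hℓpos : 0 < ℓ3 := pow_pos (Rn_real_pos _) 3
  set X := ENNReal.ofReal (Real.exp (ℓ3 * E)) with hX
  have hX1 : 1 ≤ X := by
    rw [hX, ← ENNReal.ofReal_one]
    exact ENNReal.ofReal_le_ofReal (Real.one_le_exp (by positivity))
  have hy : 0 ≤ M * ℓ3 := by positivity
  set N₁ := ⌊M * ℓ3⌋₊ with hN₁
  have h3 : ∀ n : ℕ, termK s j μ aq ε n ≤
      (if n ∈ Finset.range (N₁ + 1) then X else 0) + ENNReal.ofReal (Real.exp (-(n : ℝ))) := by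
    intro n
    by_cases hn : (n : ℝ) ≤ M * ℓ3
    · have hn2 : n ∈ Finset.range (N₁ + 1) := by
        rw [Finset.mem_range]
        exact Nat.lt_succ_of_le (Nat.le_floor hn)
      rw [if_pos hn2]
      exact (h1 n hn).trans le_self_add
    · exact (h2 n (not_le.1 hn)).trans le_add_self
  have h4 : II (volume.restrict (Q0 j)) (Wexp (HK s j μ aq ε))
      ≤ ∑' n : ℕ, ((if n ∈ Finset.range (N₁ + 1) then X else 0) + ENNReal.ofReal (Real.exp (-(n : ℝ)))) :=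
    ENNReal.tsum_le_tsum h3
  rw [ENNReal.tsum_add] at h4
  have h5 : ∑' n : ℕ, (if n ∈ Finset.range (N₁ + 1) then X else 0) = ((N₁ + 1 : ℕ) : ℝ≥0∞) * X := by
    rw [tsum_eq_sum (s := Finset.range (N₁ + 1)) (fun n hn => by simp only [hn, if_false])]
    rw [Finset.sum_congr rfl (fun n hn => by rw [if_pos hn])]
    rw [Finset.sum_const, Finset.card_range, nsmul_eq_mul]
  rw [h5] at h4
  have h6 : ((N₁ + 1 : ℕ) : ℝ≥0∞) * X + 2 ≤ ((N₁ + 3 : ℕ) : ℝ≥0∞) * X := by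
    have h7 : ((N₁ + 3 : ℕ) : ℝ≥0∞) = ((N₁ + 1 : ℕ) : ℝ≥0∞) + 2 := by
      push_cast
      ring
    rw [h7, add_mul]
    gcongr
    calc (2 : ℝ≥0∞) = 2 * 1 := by ring
      _ ≤ 2 * X := by gcongr
  have h8 : ((N₁ + 3 : ℕ) : ℝ≥0∞) ≤ ENNReal.ofReal (M * ℓ3 + 3) := by
    rw [← ENNReal.ofReal_natCast]
    refine ENNReal.ofReal_le_ofReal ?_
    push_cast
    have := Nat.floor_le hy
    linarith
  calc II (volume.restrict (Q0 j)) (Wexp (HK s j μ aq ε))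
      ≤ ((N₁ + 1 : ℕ) : ℝ≥0∞) * X + 2 := h4.trans (by gcongr; exact tsum_exp_neg_le)
    _ ≤ ((N₁ + 3 : ℕ) : ℝ≥0∞) * X := h6
    _ ≤ ENNReal.ofReal (M * ℓ3 + 3) * X := by gcongr
    _ = _ := by
      rw [hX, ← ENNReal.ofReal_mul (by positivity), add_comm (ℓ3 * E), Real.exp_add,
        Real.exp_log (by positivity)]

/-- An exponential bound for the cube partition function gives a bound for the pressure. -/
lemma Pr_le_of_Y {s : ℕ → ℝ} (hs : Adm s) {t : ℝ} (ht : 0 ≤ t) (hσ : (∑' i, s i) + t ≤ rr) (j : ℕ)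
    (μ : ℝ) {E' : ℝ}
    (hY : II (volume.restrict (Q0 j)) (Wexp (HK s j μ
      (27 / (2 * (Rn (j + 1) : ℝ) ^ 3) * ((∑' i, s i) + t - ∑ i ∈ Finset.range (j + 1), s i))
      (81 * rr / (2 * ((j : ℝ) + 2))))) ≤ ENNReal.ofReal (Real.exp ((Rn (j + 1) : ℝ) ^ 3 * E'))) :
    Pr (sAdd s t (j + 1)) μ ≤ E' := by
  have hs' : Adm (sAdd s t (j + 1)) := Adm_sAdd hs ht hσ (j + 1)
  set ℓ : ℝ := (Rn (j + 1) : ℝ) with hℓ
  have hℓpos : 0 < ℓ := Rn_real_pos _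
  have h1 : Tendsto (fun n : ℕ => (n : ℝ) * ℓ) atTop atTop :=
    tendsto_natCast_atTop_atTop.atTop_mul_const hℓpos
  have h2 := (Pr_tendsto hs' μ).comp h1
  have h3 : Tendsto (fun n : ℕ => (1 / (ℓ ^ 3 * (n : ℝ) ^ 3)) * Real.log ((j + 2 : ℕ) : ℝ) + (1 + 2 / (n : ℝ)) ^ 3 * E')
      atTop (𝓝 (0 * Real.log ((j + 2 : ℕ) : ℝ) + (1 + 0) ^ 3 * E')) := by
    refine Tendsto.add (Tendsto.mul_const _ ?_) (Tendsto.mul_const _ ((tendsto_const_nhds.add ?_).pow 3))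
    · refine tendsto_const_nhds.div_atTop ?_
      exact Tendsto.const_mul_atTop (by positivity) (tendsto_pow_atTop (by norm_num) |>.comp tendsto_natCast_atTop_atTop)
    · exact tendsto_const_nhds.div_atTop tendsto_natCast_atTop_atTop
  have h4 : (0 * Real.log ((j + 2 : ℕ) : ℝ) + (1 + 0) ^ 3 * E') = E' := by ring
  rw [h4] at h3
  refine le_of_tendsto_of_tendsto h2 h3 ?_
  filter_upwards [eventually_ge_atTop 1] with n hn
  have hn' : (0 : ℝ) < n := by exact_mod_cast hn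
  simp only [Function.comp_apply]
  have h5 := Xi_le_block hs ht hσ j μ n
  have h6 : ((j + 2 : ℕ) : ℝ≥0∞) = ENNReal.ofReal (Real.exp (Real.log ((j + 2 : ℕ) : ℝ))) := by
    rw [Real.exp_log (by positivity), ENNReal.ofReal_natCast]
  have h7 := h5.trans (mul_le_mul_right (pow_le_pow_left' hY _) _)
  rw [h6, ← ENNReal.ofReal_pow (Real.exp_pos _).le, ← Real.exp_nat_mul,
    ← ENNReal.ofReal_mul (Real.exp_pos _).le, ← Real.exp_add] at h7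
  have h8 := lg_le_of_le (one_le_Xi _ _ μ) h7
  have h9 : (0 : ℝ) < ((n : ℝ) * ℓ) ^ 3 := by positivity
  rw [inv_mul_le_iff₀ h9]
  refine h8.trans (le_of_eq ?_)
  push_cast
  field_simp

lemma real_case_plus {ρ ρ' η θ Q G Pp P0 ζ τ' μ : ℝ} (hθ : 0 < θ) (hc : ρ' + 2 * η < ρ)
    (hsq : τ' * ρ ^ 2 ≤ η * θ) (hG : G < Pp + ζ) (hP : Pp ≤ P0 + θ * ρ' + η * θ) (hQ : 0 ≤ Q) :
    (μ - (μ + θ)) * ρ + τ' * ρ ^ 2 + G ≤ P0 + Q + ζ := by
  have h2 : θ * (ρ' + 2 * η) ≤ θ * ρ := mul_le_mul_of_nonneg_left hc.le hθ.le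
  have h3 : (μ - (μ + θ)) * ρ = -(θ * ρ) := by ring
  have h4 : θ * (ρ' + 2 * η) = θ * ρ' + 2 * (η * θ) := by ring
  rw [h3]
  linarith

lemma real_case_minus {ρ ρ' η θ Q G Pp P0 ζ τ' μ : ℝ} (hθ : 0 < θ) (hc : ρ < ρ' - 2 * η)
    (hsq : τ' * ρ ^ 2 ≤ η * θ) (hG : G < Pp + ζ) (hP : Pp ≤ P0 - θ * ρ' + η * θ) (hQ : 0 ≤ Q) :
    (μ - (μ - θ)) * ρ + τ' * ρ ^ 2 + G ≤ P0 + Q + ζ := by
  have h2 : θ * ρ ≤ θ * (ρ' - 2 * η) := mul_le_mul_of_nonneg_left hc.le hθ.le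
  have h3 : (μ - (μ - θ)) * ρ = θ * ρ := by ring
  have h4 : θ * (ρ' - 2 * η) = θ * ρ' - 2 * (η * θ) := by ring
  rw [h3]
  linarith

lemma real_case_mid {ρ ρ' η G P0 ζ τ' μ : ℝ} (hρ0 : 0 ≤ ρ) (hτ : 0 ≤ τ') (hc : ρ ≤ ρ' + 2 * η)
    (hG : G < P0 + ζ) :
    (μ - μ) * ρ + τ' * ρ ^ 2 + G ≤ P0 + τ' * (ρ' + 2 * η) ^ 2 + ζ := by
  have h2 : ρ ^ 2 ≤ (ρ' + 2 * η) ^ 2 := pow_le_pow_left₀ hρ0 hc 2
  have h3 : τ' * ρ ^ 2 ≤ τ' * (ρ' + 2 * η) ^ 2 := mul_le_mul_of_nonneg_left h2 hτ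
  simp only [sub_self, zero_mul, zero_add]
  linarith

lemma exp_identity (μ ν ℓ τ δ P C : ℝ) (n : ℕ) (hℓ : 0 < ℓ) :
    (μ - ν) * n + (27 / (2 * ℓ ^ 3) * τ) * (n : ℝ) ^ 2
      + (1 - δ) * ((ℓ + 2) ^ 3 * P) + δ * (ℓ ^ 3 * C)
      = ℓ ^ 3 * ((μ - ν) * ((n : ℝ) / ℓ ^ 3) + 27 / 2 * τ * ((n : ℝ) / ℓ ^ 3) ^ 2
        + ((1 - δ) * ((1 + 2 / ℓ) ^ 3 * P) + δ * C)) := by
  field_simp
  ring

lemma eps_bounds (j : ℕ) : 0 ≤ 81 * rr / (2 * ((j : ℝ) + 2)) ∧ 81 * rr / (2 * ((j : ℝ) + 2)) ≤ AA / 8 := by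
  have := rr_pos
  constructor
  · positivity
  · rw [div_le_iff₀ (by positivity)]
    have h0 : (0 : ℝ) ≤ j := by positivity
    unfold rr AA
    norm_num
    nlinarith

/-- The estimate at a given level `j`. -/
lemma kac_level {s : ℕ → ℝ} (hs : Adm s) {μ t : ℝ} (ht : 0 < t) (hσt : (∑' i, s i) + t ≤ rr) (j : ℕ)
    {M θ η ρ' ζ : ℝ} (hM1 : 1 ≤ M) (hM2 : μ + AA / 2 + 2 ≤ AA / 16 * M) (hθ : 0 < θ)
    (hθ1 : Pr s (μ + θ) ≤ Pr s μ + θ * ρ' + η * θ) (hθ2 : Pr s (μ - θ) ≤ Pr s μ - θ * ρ' + η * θ)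
    (hζ : 0 ≤ ζ)
    (hτ : 27 / 2 * ((∑' i, s i) + t - ∑ i ∈ Finset.range (j + 1), s i) * M ^ 2 ≤ η * θ)
    (hG0 : (1 - (81 * rr / (2 * ((j : ℝ) + 2))) / (AA / 8)) * ((1 + 2 / (Rn (j + 1) : ℝ)) ^ 3 * Pr s μ)
        + (81 * rr / (2 * ((j : ℝ) + 2))) / (AA / 8) * Cc μ < Pr s μ + ζ)
    (hG1 : (1 - (81 * rr / (2 * ((j : ℝ) + 2))) / (AA / 8)) * ((1 + 2 / (Rn (j + 1) : ℝ)) ^ 3 * Pr s (μ + θ))
        + (81 * rr / (2 * ((j : ℝ) + 2))) / (AA / 8) * Cc (μ + θ) < Pr s (μ + θ) + ζ)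
    (hG2 : (1 - (81 * rr / (2 * ((j : ℝ) + 2))) / (AA / 8)) * ((1 + 2 / (Rn (j + 1) : ℝ)) ^ 3 * Pr s (μ - θ))
        + (81 * rr / (2 * ((j : ℝ) + 2))) / (AA / 8) * Cc (μ - θ) < Pr s (μ - θ) + ζ) :
    Pr (sAdd s t (j + 1)) μ ≤ Pr s μ
      + 27 / 2 * ((∑' i, s i) + t - ∑ i ∈ Finset.range (j + 1), s i) * (ρ' + 2 * η) ^ 2 + ζ
      + Real.log (M * (Rn (j + 1) : ℝ) ^ 3 + 3) / (Rn (j + 1) : ℝ) ^ 3 := by
  have hM0 : 0 < M := by linarith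
  have hA := AA_pos
  set σ := ∑' i, s i with hσdef
  have hσ0 : 0 ≤ σ := tsum_nonneg hs.nonneg
  set ℓ : ℝ := (Rn (j + 1) : ℝ) with hℓdef
  have hℓj : 0 < ℓ := Rn_real_pos _
  set τ := σ + t - ∑ i ∈ Finset.range (j + 1), s i with hτdef
  have hτt : t ≤ τ := by
    have := hs.summable.sum_le_tsum (Finset.range (j + 1)) (fun i _ => hs.nonneg i)
    rw [hτdef, hσdef]
    linarith
  have hτle : τ ≤ rr := by
    have : 0 ≤ ∑ i ∈ Finset.range (j + 1), s i := Finset.sum_nonneg (fun i _ => hs.nonneg i)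
    rw [hτdef]
    linarith
  have hτ0 : 0 < τ := by linarith
  set ε := 81 * rr / (2 * ((j : ℝ) + 2)) with hεdef
  obtain ⟨hε0, hεle⟩ : 0 ≤ ε ∧ ε ≤ AA / 8 := eps_bounds j
  set δ := ε / (AA / 8) with hδdef
  set aq := 27 / (2 * ℓ ^ 3) * τ with haq
  have haqℓ : aq * ℓ ^ 3 = 27 / 2 * τ := by
    rw [haq]
    field_simp
  have haqle : aq * ℓ ^ 3 ≤ AA / 16 := by
    rw [haqℓ]
    have h1 : 27 / 2 * τ ≤ 27 / 2 * rr := by linarith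
    refine h1.trans ?_
    unfold rr AA
    norm_num
  set E := Pr s μ + 27 / 2 * τ * (ρ' + 2 * η) ^ 2 + ζ with hE
  have hP0 := Pr_nonneg hs μ
  have hE0 : 0 ≤ E := by
    rw [hE]
    positivity
  have hterm1 : ∀ n : ℕ, (n : ℝ) ≤ M * ℓ ^ 3 →
      termK s j μ aq ε n ≤ ENNReal.ofReal (Real.exp (ℓ ^ 3 * E)) := by
    intro n hn
    set ρ : ℝ := (n : ℝ) / ℓ ^ 3 with hρ
    have hρ0 : 0 ≤ ρ := by positivity
    have hρM : ρ ≤ M := by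
      rw [hρ, div_le_iff₀ (by positivity)]
      exact hn
    have hsq : 27 / 2 * τ * ρ ^ 2 ≤ η * θ := by
      have h1 : ρ ^ 2 ≤ M ^ 2 := pow_le_pow_left₀ hρ0 hρM 2
      exact (mul_le_mul_of_nonneg_left h1 (by positivity)).trans hτ
    have key : ∀ ν, (μ - ν) * ρ + 27 / 2 * τ * ρ ^ 2
        + ((1 - δ) * ((1 + 2 / ℓ) ^ 3 * Pr s ν) + δ * Cc ν) ≤ E →
        termK s j μ aq ε n ≤ ENNReal.ofReal (Real.exp (ℓ ^ 3 * E)) := by
      intro ν hν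
      refine (termK_le_nu hs j μ aq hε0 hεle ν n).trans ?_
      refine ENNReal.ofReal_le_ofReal (Real.exp_le_exp.2 ?_)
      rw [haq, ← hδdef, ← hℓdef, exp_identity μ ν ℓ τ δ (Pr s ν) (Cc ν) n hℓj]
      exact mul_le_mul_of_nonneg_left hν (by positivity)
    have hτsq : 0 ≤ 27 / 2 * τ * (ρ' + 2 * η) ^ 2 := by positivity
    by_cases hc1 : ρ' + 2 * η < ρ
    · exact key (μ + θ) (real_case_plus hθ hc1 hsq hG1 hθ1 hτsq)
    · by_cases hc2 : ρ < ρ' - 2 * η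
      · exact key (μ - θ) (real_case_minus hθ hc2 hsq hG2 hθ2 hτsq)
      · exact key μ (real_case_mid hρ0 (by positivity) (not_lt.1 hc1) hG0)
  have hterm2 : ∀ n : ℕ, M * ℓ ^ 3 < n →
      termK s j μ aq ε n ≤ ENNReal.ofReal (Real.exp (-(n : ℝ))) :=
    fun n hn => termK_tail' hs j μ aq hεle haqle hM1 hM2 hn
  have hY := Y_le (s := s) j μ aq ε hE0 hM0.le hterm1 hterm2
  have hE' : ℓ ^ 3 * E + Real.log (M * ℓ ^ 3 + 3) = ℓ ^ 3 * (E + Real.log (M * ℓ ^ 3 + 3) / ℓ ^ 3) := by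
    field_simp
  rw [hE'] at hY
  exact Pr_le_of_Y hs ht.le hσt j μ hY

/-- Secant bounds from differentiability. -/
lemma secant_bounds {f : ℝ → ℝ} {μ ρ' η : ℝ} (hd : HasDerivAt f ρ' μ) (hη : 0 < η) :
    ∃ θ : ℝ, 0 < θ ∧ f (μ + θ) ≤ f μ + θ * ρ' + η * θ ∧ f (μ - θ) ≤ f μ - θ * ρ' + η * θ := by
  have h1 := (hasDerivAt_iff_isLittleO_nhds_zero.1 hd).def hη
  obtain ⟨δ, hδ, h2⟩ := Metric.eventually_nhds_iff.1 h1
  refine ⟨δ / 2, by positivity, ?_, ?_⟩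
  · have h3 := h2 (y := δ / 2) (by rw [Real.dist_eq, sub_zero, abs_of_pos (by positivity)]; linarith)
    simp only [smul_eq_mul, Real.norm_eq_abs] at h3
    rw [abs_of_pos (show (0:ℝ) < δ / 2 by positivity)] at h3
    have := (abs_le.1 h3).2
    linarith
  · have h3 := h2 (y := -(δ / 2)) (by rw [Real.dist_eq, sub_zero, abs_neg, abs_of_pos (by positivity)]; linarith)
    simp only [smul_eq_mul, Real.norm_eq_abs, abs_neg] at h3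
    rw [abs_of_pos (show (0:ℝ) < δ / 2 by positivity)] at h3
    have := (abs_le.1 h3).2
    rw [← sub_eq_add_neg] at this
    linarith

lemma tendsto_ell : Tendsto (fun j : ℕ => (Rn (j + 1) : ℝ)) atTop atTop := by
  refine tendsto_atTop_mono (fun j => ?_) tendsto_natCast_atTop_atTop
  have h1 : j + 1 ≤ (j + 1).factorial := Nat.self_le_factorial _
  have h2 : (j + 1).factorial ≤ Rn j := by unfold Rn; omega
  have h3 := Rn_mono (show j ≤ j + 1 by omega)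
  have h4 : j ≤ Rn (j + 1) := by omega
  exact_mod_cast h4

lemma tendsto_G (P C : ℝ) : Tendsto (fun j : ℕ =>
    (1 - (81 * rr / (2 * ((j : ℝ) + 2))) / (AA / 8)) * ((1 + 2 / (Rn (j + 1) : ℝ)) ^ 3 * P)
      + (81 * rr / (2 * ((j : ℝ) + 2))) / (AA / 8) * C) atTop (𝓝 P) := by
  have hε : Tendsto (fun j : ℕ => 81 * rr / (2 * ((j : ℝ) + 2))) atTop (𝓝 0) := by
    refine tendsto_const_nhds.div_atTop ?_
    refine Tendsto.const_mul_atTop (by norm_num) ?_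
    exact tendsto_atTop_add_const_right _ _ tendsto_natCast_atTop_atTop
  have hδ : Tendsto (fun j : ℕ => (81 * rr / (2 * ((j : ℝ) + 2))) / (AA / 8)) atTop (𝓝 0) := by
    have := hε.div_const (AA / 8)
    simpa using this
  have h1 : Tendsto (fun j : ℕ => 2 / (Rn (j + 1) : ℝ)) atTop (𝓝 0) :=
    tendsto_const_nhds.div_atTop tendsto_ell
  have h2 := ((tendsto_const_nhds (x := (1 : ℝ))).sub hδ).mul
    ((((tendsto_const_nhds (x := (1 : ℝ))).add h1).pow 3).mul_const P) |>.add (hδ.mul_const C)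
  have h3 : (1 - 0) * ((1 + 0 : ℝ) ^ 3 * P) + 0 * C = P := by ring
  rwa [h3] at h2

lemma tendsto_log_term {M : ℝ} (hM0 : 0 < M) : Tendsto (fun j : ℕ =>
    Real.log (M * (Rn (j + 1) : ℝ) ^ 3 + 3) / (Rn (j + 1) : ℝ) ^ 3) atTop (𝓝 0) := by
  have h1 : Tendsto (fun y : ℝ => Real.log y / y) atTop (𝓝 0) := by
    have := Real.tendsto_pow_log_div_mul_add_atTop 1 0 1 one_ne_zero
    simpa using this
  have h2 : Tendsto (fun j : ℕ => (Rn (j + 1) : ℝ) ^ 3) atTop atTop :=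
    (tendsto_pow_atTop (by norm_num)).comp tendsto_ell
  have h3 : Tendsto (fun j : ℕ => M * (Rn (j + 1) : ℝ) ^ 3 + 3) atTop atTop :=
    tendsto_atTop_add_const_right _ _ (h2.const_mul_atTop hM0)
  have h4 := h1.comp h3
  have h5 : Tendsto (fun j : ℕ => M + 3 / (Rn (j + 1) : ℝ) ^ 3) atTop (𝓝 (M + 0)) :=
    tendsto_const_nhds.add (tendsto_const_nhds.div_atTop h2)
  have h6 := h4.mul h5
  rw [zero_mul] at h6
  refine h6.congr (fun j => ?_)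
  have hp : (0 : ℝ) < (Rn (j + 1) : ℝ) := Rn_real_pos _
  have h7 : M * (Rn (j + 1) : ℝ) ^ 3 + 3 ≠ 0 := by positivity
  simp only [Function.comp_apply]
  field_simp

lemma final_arith {P0 τ t A B ζ κ₀ : ℝ} (hτ : 27 / 2 * (τ - t) * A < ζ) (hB : B < ζ)
    (hζ : ζ = t * κ₀ / 3) :
    P0 + 27 / 2 * τ * A + ζ + B ≤ P0 + t * (27 / 2 * A + κ₀) := by
  have h1 : t * (27 / 2 * A + κ₀) = 27 / 2 * t * A + 3 * ζ := by
    rw [hζ]
    ring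
  have h2 : 27 / 2 * τ * A = 27 / 2 * (τ - t) * A + 27 / 2 * t * A := by ring
  rw [h1, h2]
  linarith

/-- The upper bound for the increment of the pressure under a long-range perturbation. -/
theorem kac_upper {s : ℕ → ℝ} (hs : Adm s) (hσ : (∑' i, s i) + 1 ≤ rr) {μ ρ' : ℝ}
    (hd : HasDerivAt (fun ν => Pr s ν) ρ' μ) {κ₀ : ℝ} (hκ₀ : 0 < κ₀) :
    ∃ t : ℝ, 0 < t ∧ t ≤ 1 ∧ ∃ j : ℕ,
      Pr (sAdd s t (j + 1)) μ ≤ Pr s μ + t * (27 / 2 * (ρ' + κ₀) ^ 2 + κ₀) := by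
  have hA := AA_pos
  have hηpos : 0 < κ₀ / 2 := by positivity
  obtain ⟨θ, hθ, hθ1, hθ2⟩ := secant_bounds hd hηpos
  -- the large density threshold
  obtain ⟨M, hM1, hM2⟩ : ∃ M : ℝ, 1 ≤ M ∧ μ + AA / 2 + 2 ≤ AA / 16 * M := by
    refine ⟨max 1 ((μ + AA / 2 + 2) / (AA / 16)), le_max_left _ _, ?_⟩
    have h1 : (μ + AA / 2 + 2) / (AA / 16) ≤ max 1 ((μ + AA / 2 + 2) / (AA / 16)) := le_max_right _ _
    rw [div_le_iff₀ (by positivity)] at h1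
    linarith
  have hM0 : 0 < M := by linarith
  -- the strength of the perturbation
  obtain ⟨t, htpos, ht1, ht2⟩ : ∃ t : ℝ, 0 < t ∧ t ≤ 1 ∧ 27 * t * M ^ 2 ≤ κ₀ / 2 * θ := by
    refine ⟨min 1 (κ₀ / 2 * θ / (27 * M ^ 2)), lt_min one_pos (by positivity), min_le_left _ _, ?_⟩
    have h1 : min 1 (κ₀ / 2 * θ / (27 * M ^ 2)) ≤ κ₀ / 2 * θ / (27 * M ^ 2) := min_le_right _ _
    rw [le_div_iff₀ (by positivity)] at h1
    linarith
  refine ⟨t, htpos, ht1, ?_⟩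
  have hσt : (∑' i, s i) + t ≤ rr := by linarith
  set σ := ∑' i, s i with hσdef
  have hτtend : Tendsto (fun j : ℕ => σ + t - ∑ i ∈ Finset.range (j + 1), s i) atTop (𝓝 t) := by
    have h1 : Tendsto (fun j : ℕ => ∑ i ∈ Finset.range (j + 1), s i) atTop (𝓝 σ) :=
      (hs.summable.hasSum.tendsto_sum_nat).comp (tendsto_add_atTop_nat 1)
    have h2 := (tendsto_const_nhds (x := σ + t)).sub h1
    have h3 : σ + t - σ = t := by ring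
    rwa [h3] at h2
  set ζ := t * κ₀ / 3 with hζ
  have hζpos : 0 < ζ := by positivity
  have ev1 : ∀ᶠ j : ℕ in atTop, σ + t - ∑ i ∈ Finset.range (j + 1), s i < 2 * t :=
    hτtend.eventually (gt_mem_nhds (by linarith))
  have ev2 : ∀ᶠ j : ℕ in atTop, 27 / 2 * ((σ + t - ∑ i ∈ Finset.range (j + 1), s i) - t) * (ρ' + κ₀) ^ 2 < ζ := by
    have h1 : Tendsto (fun j : ℕ => 27 / 2 * ((σ + t - ∑ i ∈ Finset.range (j + 1), s i) - t) * (ρ' + κ₀) ^ 2) atTop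
        (𝓝 (27 / 2 * (t - t) * (ρ' + κ₀) ^ 2)) :=
      ((tendsto_const_nhds.mul (hτtend.sub tendsto_const_nhds))).mul_const _
    have h2 : 27 / 2 * (t - t) * (ρ' + κ₀) ^ 2 = 0 := by ring
    rw [h2] at h1
    exact h1.eventually (gt_mem_nhds hζpos)
  have ev3 := fun ν : ℝ => (tendsto_G (Pr s ν) (Cc ν)).eventually (gt_mem_nhds (show Pr s ν < Pr s ν + ζ by linarith))
  have ev4 := (tendsto_log_term hM0).eventually (gt_mem_nhds hζpos)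
  obtain ⟨j, hj1, hj2, hj3, hj4, hj5, hj6⟩ :=
    (ev1.and (ev2.and ((ev3 μ).and ((ev3 (μ + θ)).and ((ev3 (μ - θ)).and ev4))))).exists
  refine ⟨j, ?_⟩
  have hτsq : 27 / 2 * (σ + t - ∑ i ∈ Finset.range (j + 1), s i) * M ^ 2 ≤ κ₀ / 2 * θ := by
    have h1 : 27 / 2 * (σ + t - ∑ i ∈ Finset.range (j + 1), s i) * M ^ 2 ≤ 27 / 2 * (2 * t) * M ^ 2 := by
      refine mul_le_mul_of_nonneg_right ?_ (by positivity)
      exact mul_le_mul_of_nonneg_left hj1.le (by norm_num)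
    linarith
  have h := kac_level hs htpos hσt j hM1 hM2 hθ hθ1 hθ2 hζpos.le hτsq hj3 hj4 hj5
  have h2η : 2 * (κ₀ / 2) = κ₀ := by ring
  rw [h2η] at h
  exact h.trans (final_arith hj2 hj6 hζ)

end P171
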