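import Vale.Agent.Lib.P171.Pressure

/-!
# Superadditivity and existence of the thermodynamic limit
-/

open MeasureTheory Finset Filter Topology
open scoped ENNReal

set_option linter.unusedSectionVars false

namespace P171

/-! ### Translations -/

lemma Bil_map {E : Type} (f : E → E → ℝ) (τ : E → E) (m n : Multiset E) :
    Bil f (m.map τ) (n.map τ) = Bil (fun a b => f (τ a) (τ b)) m n := by
  simp [Bil, Multiset.map_map]

lemma Dk_map {E : Type} {f : E → E → ℝ} {τ : E → E} (hf : ∀ a b, f (τ a) (τ b) = f a b)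
    (m : Multiset E) : Dk f (m.map τ) = Dk f m := by
  unfold Dk
  rw [Bil_map]
  simp only [hf]

lemma Tr_map {E : Type} {f : E → E → ℝ} {τ : E → E} (hf : ∀ a b, f (τ a) (τ b) = f a b)
    (m : Multiset E) : Tr f (m.map τ) = Tr f m := by
  simp [Tr, Multiset.map_map, hf]

lemma En_map {E : Type} {f : E → E → ℝ} {τ : E → E} (hf : ∀ a b, f (τ a) (τ b) = f a b)
    (m : Multiset E) : En f (m.map τ) = En f m := by
  unfold En
  rw [Dk_map hf, Tr_map hf]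

/-- Translation by `v`. -/
noncomputable def tr (v : E3) : E3 ≃ᵐ E3 := MeasurableEquiv.addRight v

lemma tr_apply (v a : E3) : tr v a = a + v := rfl

lemma tr_preserving (v : E3) : MeasurePreserving (tr v) (volume : Measure E3) volume :=
  measurePreserving_add_right volume v

lemma dist_tr (v a b : E3) : dist (tr v a) (tr v b) = dist a b := by
  simp [tr_apply]

lemma fS_tr (s : ℕ → ℝ) (v a b : E3) : fS s (tr v a) (tr v b) = fS s a b := by
  rw [fS_eq_phiS, fS_eq_phiS, dist_tr]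

lemma Us_map_tr (s : ℕ → ℝ) (v : E3) (m : Multiset E3) : Us s (m.map (tr v)) = Us s m :=
  En_map (fS_tr s v) m

lemma Ham_map_tr (s : ℕ → ℝ) (μ : ℝ) (v : E3) (m : Multiset E3) :
    Ham s μ (m.map (tr v)) = Ham s μ m := by
  unfold Ham
  rw [Us_map_tr, Multiset.card_map]

lemma WW_map_tr (s : ℕ → ℝ) (μ : ℝ) (v : E3) (m : Multiset E3) :
    WW s μ (m.map (tr v)) = WW s μ m := by
  unfold WW Wexp
  rw [Ham_map_tr]

/-- The grid in terms of coordinates. -/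
lemma gridC_eq_iff {ℓ : ℝ} (hℓ : 0 < ℓ) (o : ℝ) (a : E3) (k : Fin 3 → ℤ) :
    gridC ℓ o a = k ↔ ∀ i, (k i : ℝ) * ℓ + o ≤ a i ∧ a i < ((k i : ℝ) + 1) * ℓ + o := by
  constructor
  · intro h i
    have h1 : ⌊(a i - o) / ℓ⌋ = k i := congrFun h i
    have h2 := Int.floor_eq_iff.1 h1
    rw [le_div_iff₀ hℓ, div_lt_iff₀ hℓ] at h2
    constructor <;> linarith [h2.1, h2.2]
  · intro h
    funext i
    refine Int.floor_eq_iff.2 ?_
    rw [le_div_iff₀ hℓ, div_lt_iff₀ hℓ]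
    constructor <;> linarith [(h i).1, (h i).2]

/-- The vector with given coordinates. -/
noncomputable def vecOf (f : Fin 3 → ℝ) : E3 := WithLp.toLp 2 f

lemma vecOf_apply (f : Fin 3 → ℝ) (i : Fin 3) : vecOf f i = f i := rfl

lemma add_neg_vecOf_apply (a : E3) (f : Fin 3 → ℝ) (i : Fin 3) :
    (a + -vecOf f) i = a i - f i := by
  simp [vecOf_apply, sub_eq_add_neg]

/-! ### Superadditivity -/

/-- The index set of an `n × n × n` array. -/
noncomputable def arrayK (n : ℕ) : Finset (Fin 3 → ℤ) :=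
  Fintype.piFinset (fun _ => Finset.Icc (0 : ℤ) ((n : ℤ) - 1))

lemma card_arrayK (n : ℕ) : (arrayK n).card = n ^ 3 := by
  unfold arrayK
  rw [Fintype.card_piFinset]
  simp only [Finset.prod_const, Finset.card_univ, Fintype.card_fin, Int.card_Icc]
  have : ((n : ℤ) - 1 + 1 - 0).toNat = n := by omega
  rw [this]

/-- Cubes of side `ℓ` separated by corridors of width `2`. -/
noncomputable def spaced (ℓ : ℕ) : Set E3 :=
  {a | ∀ i, a i - (gridC ((ℓ : ℝ) + 2) 0 a i : ℝ) * ((ℓ : ℝ) + 2) ≤ ℓ}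

lemma measurableSet_spaced (ℓ : ℕ) : MeasurableSet (spaced ℓ) := by
  have : spaced ℓ = ⋂ i, {a : E3 | a i - (gridC ((ℓ : ℝ) + 2) 0 a i : ℝ) * ((ℓ : ℝ) + 2) ≤ ℓ} := by
    ext a; simp [spaced]
  rw [this]
  refine MeasurableSet.iInter (fun i => measurableSet_le ?_ measurable_const)
  refine (measurable_coord i).sub (Measurable.mul_const ?_ _)
  have h : Measurable (fun a : E3 => gridC ((ℓ : ℝ) + 2) 0 a i) :=
    (measurable_pi_apply i).comp (measurable_gridC _ _)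
  exact (measurable_from_top (f := fun z : ℤ => (z : ℝ))).comp h

lemma spaced_cell (ℓ : ℕ) (k : Fin 3 → ℤ) :
    spaced ℓ ∩ gridC ((ℓ : ℝ) + 2) 0 ⁻¹' {k}
      = tr (-vecOf (fun i => (k i : ℝ) * ((ℓ : ℝ) + 2))) ⁻¹' cubeL ℓ := by
  have hL : (0 : ℝ) < (ℓ : ℝ) + 2 := by positivity
  ext a
  simp only [Set.mem_inter_iff, Set.mem_preimage, Set.mem_singleton_iff, tr_apply, spaced,
    Set.mem_ofPred_eq, cubeL, Set.mem_Icc, add_neg_vecOf_apply]
  rw [gridC_eq_iff hL]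
  constructor
  · rintro ⟨h1, h2⟩ i
    have h3 := h2 i
    have h4 := h1 i
    have h5 : gridC ((ℓ : ℝ) + 2) 0 a = k := (gridC_eq_iff hL 0 a k).2 h2
    rw [h5] at h4
    constructor <;> linarith [h3.1]
  · intro h
    have h2 : ∀ i, (k i : ℝ) * ((ℓ : ℝ) + 2) + 0 ≤ a i ∧ a i < ((k i : ℝ) + 1) * ((ℓ : ℝ) + 2) + 0 := by
      intro i
      have h3 := h i
      constructor <;> nlinarith [h3.1, h3.2]
    refine ⟨fun i => ?_, h2⟩
    have h5 : gridC ((ℓ : ℝ) + 2) 0 a = k := (gridC_eq_iff hL 0 a k).2 h2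
    rw [h5]
    linarith [(h i).2]

lemma two_le_dist_of_spaced {ℓ : ℕ} {a b : E3} (ha : a ∈ spaced ℓ) (hb : b ∈ spaced ℓ)
    (hab : gridC ((ℓ : ℝ) + 2) 0 a ≠ gridC ((ℓ : ℝ) + 2) 0 b) : 2 ≤ dist a b := by
  have hL : (0 : ℝ) < (ℓ : ℝ) + 2 := by positivity
  obtain ⟨i, hi⟩ : ∃ i, gridC ((ℓ : ℝ) + 2) 0 a i ≠ gridC ((ℓ : ℝ) + 2) 0 b i := by
    by_contra h
    push Not at h
    exact hab (funext h)
  have key : ∀ {a b : E3}, a ∈ spaced ℓ → gridC ((ℓ : ℝ) + 2) 0 a i < gridC ((ℓ : ℝ) + 2) 0 b i →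
      2 ≤ |a i - b i| := by
    intro a b ha hlt
    have h1 := ha i
    have h2 : ((gridC ((ℓ : ℝ) + 2) 0 a i : ℤ) : ℝ) + 1 ≤ (gridC ((ℓ : ℝ) + 2) 0 b i : ℤ) := by
      exact_mod_cast hlt
    have h3 : ((gridC ((ℓ : ℝ) + 2) 0 b i : ℤ) : ℝ) * ((ℓ : ℝ) + 2) ≤ b i := by
      have h4 := Int.floor_le ((b i - 0) / ((ℓ : ℝ) + 2))
      have h5 : ((gridC ((ℓ : ℝ) + 2) 0 b i : ℤ) : ℝ) ≤ (b i - 0) / ((ℓ : ℝ) + 2) := h4
      rw [le_div_iff₀ hL] at h5
      linarith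
    have h6 : b i - a i ≥ 2 := by nlinarith
    rw [abs_sub_comm, abs_of_nonneg (by linarith)]
    linarith
  have h7 : 2 ≤ |a i - b i| := by
    rcases lt_or_gt_of_ne hi with h | h
    · exact key ha h
    · rw [abs_sub_comm]
      exact key hb h
  exact h7.trans (coord_abs_le_dist a b i)

lemma fS_le_zero {s : ℕ → ℝ} (hs : Adm s) {a b : E3} (h : 2 ≤ dist a b) : fS s a b ≤ 0 := by
  unfold fS indK
  rw [if_neg (not_lt.2 h)]
  have := KS_nonneg hs a b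
  linarith

/-- On separated cubes the weight dominates the product of the weights of the cubes. -/
lemma WW_ge_prod {s : ℕ → ℝ} (hs : Adm s) (μ : ℝ) (ℓ : ℕ) (K : Finset (Fin 3 → ℤ))
    {m : Multiset E3} (hm : ∀ a ∈ m, a ∈ spaced ℓ ∩ gridC ((ℓ : ℝ) + 2) 0 ⁻¹' (K : Set (Fin 3 → ℤ))) :
    ∏ k ∈ K, WW s μ (piece (gridC ((ℓ : ℝ) + 2) 0) k m) ≤ WW s μ m := by
  set c := gridC ((ℓ : ℝ) + 2) 0 with hc
  have hK : ∀ a ∈ m, c a ∈ K := fun a ha => (hm a ha).2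
  have h1 : Us s m ≤ ∑ k ∈ K, Us s (piece c k m) := by
    unfold Us
    rw [En_pieces c K (fS s) hK]
    have h2 : Dk (crossK c (fS s)) m ≤ 0 := by
      refine Bil_nonpos (fun a ha b hb => ?_)
      unfold crossK
      by_cases hab : c a = c b
      · simp [hab]
      · simp only [hab, if_false]
        exact fS_le_zero hs (two_le_dist_of_spaced (hm a ha).1 (hm b hb).1 hab)
    linarith
  have h3 : ∑ k ∈ K, Ham s μ (piece c k m) ≤ Ham s μ m := by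
    unfold Ham
    rw [Finset.sum_sub_distrib, ← Finset.mul_sum, card_pieces c K hK]
    linarith
  unfold WW Wexp
  rw [← Wexp_sum]
  exact ENNReal.ofReal_le_ofReal (Real.exp_le_exp.2 h3)

/-- Superadditivity. -/
lemma Xi_superadd {s : ℕ → ℝ} (hs : Adm s) (μ : ℝ) (ℓ n : ℕ) {L : ℝ}
    (hL : (n : ℝ) * ((ℓ : ℝ) + 2) ≤ L) :
    Xi (cubeL ℓ) s μ ^ (n ^ 3) ≤ Xi (cubeL L) s μ := by
  set c := gridC ((ℓ : ℝ) + 2) 0 with hc
  have hLp : (0 : ℝ) < (ℓ : ℝ) + 2 := by positivity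
  set K := arrayK n with hK
  have hΛ : MeasurableSet (spaced ℓ) := measurableSet_spaced ℓ
  have hsub : spaced ℓ ∩ c ⁻¹' (K : Set (Fin 3 → ℤ)) ⊆ cubeL L := by
    rintro a ⟨ha1, ha2⟩ i
    have h1 : c a ∈ K := ha2
    have h2 : c a i ∈ Finset.Icc (0 : ℤ) ((n : ℤ) - 1) := (Fintype.mem_piFinset.1 h1) i
    rw [Finset.mem_Icc] at h2
    have h3 : ((c a i : ℤ) : ℝ) * ((ℓ : ℝ) + 2) + 0 ≤ a i :=
      ((gridC_eq_iff hLp 0 a (c a)).1 rfl i).1
    have h4 : (0 : ℝ) ≤ ((c a i : ℤ) : ℝ) := by exact_mod_cast h2.1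
    have h5 : ((c a i : ℤ) : ℝ) + 1 ≤ n := by
      have : c a i + 1 ≤ (n : ℤ) := by omega
      exact_mod_cast this
    have h6 := ha1 i
    constructor
    · nlinarith
    · have h7 : a i - ((c a i : ℤ) : ℝ) * ((ℓ : ℝ) + 2) ≤ ℓ := h6
      nlinarith
  calc Xi (cubeL ℓ) s μ ^ (n ^ 3)
      = ∏ _k ∈ K, Xi (cubeL ℓ) s μ := by
        rw [Finset.prod_const, hK, card_arrayK]
    _ = ∏ k ∈ K, II (volume.restrict (spaced ℓ ∩ c ⁻¹' {k})) (WW s μ) := by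
        refine Finset.prod_congr rfl (fun k _ => ?_)
        rw [hc, spaced_cell]
        exact (II_map volume (tr _) (tr_preserving _) (cubeL ℓ) (WW s μ) (WW_map_tr s μ _)).symm
    _ = II (volume.restrict (spaced ℓ ∩ c ⁻¹' (K : Set (Fin 3 → ℤ))))
          (fun m => ∏ k ∈ K, WW s μ (m.filter (fun a => c a = k))) :=
        (II_block volume c (measurableSet_gridC _ _) (spaced ℓ) hΛ (fun _ => WW s μ)
          (fun _ => CM_Wexp (RM_Ham hs μ)) K).symm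
    _ ≤ II (volume.restrict (spaced ℓ ∩ c ⁻¹' (K : Set (Fin 3 → ℤ)))) (WW s μ) := by
        refine II_restrict_mono (hΛ.inter ?_) (fun m hm => WW_ge_prod hs μ ℓ K hm)
        exact (measurable_gridC _ _) (Set.to_countable _).measurableSet
    _ ≤ Xi (cubeL L) s μ := II_mono_measure (Measure.restrict_mono hsub le_rfl) (fun _ => le_rfl)

/-- The thermodynamic limit. -/
theorem Pr_tendsto {s : ℕ → ℝ} (hs : Adm s) (μ : ℝ) :
    Tendsto (fun L : ℝ => (L ^ 3)⁻¹ * lg (Xi (cubeL L) s μ)) atTop (𝓝 (Pr s μ)) := by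
  refine tendsto_order.2 ⟨fun c hc => ?_, fun d hd => ?_⟩
  · obtain ⟨ℓ, hℓ⟩ := exists_lt_of_lt_ciSup hc
    set x := lg (Xi (cubeL ((ℓ + 1 : ℕ) : ℝ)) s μ) with hx
    have hx0 : 0 ≤ x := lg_nonneg (one_le_Xi _ s μ) (Xi_cube_ne_top hs μ _)
    set L' : ℝ := ((ℓ + 1 : ℕ) : ℝ) + 2 with hL'
    have hL'pos : 0 < L' := by positivity
    have hL'eq : ((ℓ : ℝ) + 3) = L' := by rw [hL']; push_cast; ring
    rw [hL'eq] at hℓ
    have h1 : Tendsto (fun L : ℝ => (⌊(1 / L') * L⌋₊ : ℝ) / L) atTop (𝓝 (1 / L')) :=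
      tendsto_nat_floor_mul_div_atTop (by positivity)
    have h2 : Tendsto (fun L : ℝ => ((⌊(1 / L') * L⌋₊ : ℝ) / L) ^ 3 * x) atTop (𝓝 ((1 / L') ^ 3 * x)) :=
      (h1.pow 3).mul_const x
    have h3 : c < (1 / L') ^ 3 * x := by
      have : (1 / L') ^ 3 * x = (L' ^ 3)⁻¹ * x := by
        rw [one_div, inv_pow]
      rwa [this]
    filter_upwards [h2.eventually (lt_mem_nhds h3), eventually_gt_atTop (0 : ℝ)] with L hL hLpos
    refine lt_of_lt_of_le hL ?_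
    set n := ⌊(1 / L') * L⌋₊ with hn
    have hnL : (n : ℝ) * L' ≤ L := by
      have h4 : (n : ℝ) ≤ (1 / L') * L := Nat.floor_le (by positivity)
      calc (n : ℝ) * L' ≤ (1 / L') * L * L' := mul_le_mul_of_nonneg_right h4 hL'pos.le
        _ = L := by field_simp
    have h5 := Xi_superadd hs μ (ℓ + 1) n hnL
    have h6 : lg (Xi (cubeL ((ℓ + 1 : ℕ) : ℝ)) s μ ^ (n ^ 3)) ≤ lg (Xi (cubeL L) s μ) :=
      lg_mono (one_le_pow₀ (one_le_Xi _ s μ)) (Xi_cubeL_ne_top hs μ L) h5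
    rw [lg_pow, Nat.cast_pow] at h6
    calc ((n : ℝ) / L) ^ 3 * x = (L ^ 3)⁻¹ * ((n : ℝ) ^ 3 * x) := by
          field_simp
      _ ≤ _ := mul_le_mul_of_nonneg_left h6 (by positivity)
  · have hP0 := Pr_nonneg hs μ
    have h1 : Tendsto (fun L : ℝ => (⌈L⌉₊ : ℝ) / L) atTop (𝓝 1) := tendsto_nat_ceil_div_atTop
    have h2 : Tendsto (fun L : ℝ => 2 / L) atTop (𝓝 0) := tendsto_const_nhds.div_atTop tendsto_id
    have h3 : Tendsto (fun L : ℝ => (((⌈L⌉₊ : ℝ) / L) + 2 / L) ^ 3 * Pr s μ) atTop (𝓝 ((1 + 0) ^ 3 * Pr s μ)) :=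
      ((h1.add h2).pow 3).mul_const _
    have h4 : (1 + 0 : ℝ) ^ 3 * Pr s μ = Pr s μ := by ring
    rw [h4] at h3
    filter_upwards [h3.eventually (gt_mem_nhds hd), eventually_gt_atTop (0 : ℝ)] with L hL hLpos
    refine lt_of_le_of_lt ?_ hL
    have hc : 1 ≤ ⌈L⌉₊ := Nat.one_le_ceil_iff.2 hLpos
    have h5 := lg_Xi_le_Pr hs μ hc
    have h6 : lg (Xi (cubeL L) s μ) ≤ lg (Xi (cubeL (⌈L⌉₊ : ℝ)) s μ) :=
      lg_mono (one_le_Xi _ s μ) (Xi_cube_ne_top hs μ _)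
        (Xi_mono (cubeL_mono (Nat.le_ceil L)) s μ)
    calc (L ^ 3)⁻¹ * lg (Xi (cubeL L) s μ) ≤ (L ^ 3)⁻¹ * (((⌈L⌉₊ : ℝ) + 2) ^ 3 * Pr s μ) :=
          mul_le_mul_of_nonneg_left (h6.trans h5) (by positivity)
      _ = _ := by
          field_simp

end P171
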