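import Vale.Agent.Lib.P171.Kac3
import Vale.Agent.Lib.P171.Ekeland

/-!
# Existence of a phase transition

The variational argument in the space of summable coefficient sequences, and the translation to
the statement in terms of canonical partition functions.
-/

open MeasureTheory Finset Filter Topology
open scoped ENNReal

set_option linter.unusedSectionVars false

namespace P171

/-! ### Summable sequences -/

/-- Summable sequences. -/
abbrev Lone := lp (fun _ : ℕ => ℝ) (1 : ℝ≥0∞)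

lemma Lone_summable (f : Lone) : Summable (fun j => |f j|) := by
  have h := (lp.memℓp f).summable (by simp)
  simpa using h

lemma Lone_norm (f : Lone) : ‖f‖ = ∑' j, |f j| := by
  have h := lp.norm_eq_tsum_rpow (by simp : 0 < (1 : ℝ≥0∞).toReal) f
  simpa using h

/-- The parameter space. -/
def XX : Type := {p : Lone × ℝ // (∀ j, 0 ≤ p.1 j) ∧ ‖p.1‖ ≤ rr}

noncomputable instance : MetricSpace XX := by
  unfold XX
  infer_instance

lemma isClosed_XX : IsClosed {p : Lone × ℝ | (∀ j, 0 ≤ p.1 j) ∧ ‖p.1‖ ≤ rr} := by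
  have h1 : {p : Lone × ℝ | (∀ j, 0 ≤ p.1 j) ∧ ‖p.1‖ ≤ rr}
      = (⋂ j, {p : Lone × ℝ | 0 ≤ p.1 j}) ∩ {p : Lone × ℝ | ‖p.1‖ ≤ rr} := by
    ext p
    simp
  rw [h1]
  refine IsClosed.inter (isClosed_iInter (fun j => ?_)) ?_
  · refine isClosed_le continuous_const ?_
    exact (lp.evalCLM (𝕜 := ℝ) (E := fun _ : ℕ => ℝ) (p := 1) j).continuous.comp continuous_fst
  · exact isClosed_le (continuous_norm.comp continuous_fst) continuous_const

instance : CompleteSpace XX := by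
  unfold XX
  exact isClosed_XX.completeSpace_coe

lemma XX_adm (x : XX) : Adm (⇑x.1.1) := by
  refine ⟨x.2.1, ?_, ?_⟩
  · have h := Lone_summable x.1.1
    simpa [abs_of_nonneg (x.2.1 _)] using h
  · have h := Lone_norm x.1.1
    have h2 : ∑' j, x.1.1 j = ∑' j, |x.1.1 j| := tsum_congr (fun j => (abs_of_nonneg (x.2.1 j)).symm)
    rw [h2, ← h]
    exact x.2.2

lemma XX_tsum (x : XX) : ∑' j, x.1.1 j = ‖x.1.1‖ := by
  rw [Lone_norm]
  exact tsum_congr (fun j => (abs_of_nonneg (x.2.1 j)).symm)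

/-- The tilted pressure. -/
noncomputable def FF (x : XX) : ℝ :=
  Pr (⇑x.1.1) x.1.2 - 1 / 27000 * x.1.2 - 1 / 20000000 * ‖x.1.1‖

lemma FF_nonneg (x : XX) : 0 ≤ FF x := by
  unfold FF
  have h1 := Pr_ge (XX_adm x) x.1.2
  have h2 := Pr_nonneg (XX_adm x) x.1.2
  rw [XX_tsum] at h1
  linarith

lemma dist_XX_fst {x y : XX} : ‖x.1.1 - y.1.1‖ ≤ dist x y := by
  have h1 : dist x y = dist x.1 y.1 := rfl
  rw [h1, Prod.dist_eq, ← dist_eq_norm]
  exact le_max_left _ _

lemma dist_XX_snd {x y : XX} : |x.1.2 - y.1.2| ≤ dist x y := by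
  have h1 : dist x y = dist x.1 y.1 := rfl
  rw [h1, Prod.dist_eq, ← Real.dist_eq]
  exact le_max_right _ _

lemma lsc_Pr : LowerSemicontinuous (fun x : XX => Pr (⇑x.1.1) x.1.2) := by
  intro x c hc
  obtain ⟨η, hη, h⟩ := Pr_lsc (XX_adm x) x.1.2 c hc
  filter_upwards [Metric.ball_mem_nhds x hη] with y hy
  have hy' : dist x y < η := by
    rw [dist_comm]
    exact hy
  refine h (⇑y.1.1) y.1.2 (XX_adm y) ?_ ?_
  · have h1 : ∑' j, |x.1.1 j - y.1.1 j| = ‖x.1.1 - y.1.1‖ := by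
      rw [Lone_norm]
      refine tsum_congr (fun j => ?_)
      rw [lp.coeFn_sub]
      rfl
    rw [h1]
    exact dist_XX_fst.trans hy'.le
  · exact dist_XX_snd.trans hy'.le

lemma continuous_fst_XX : Continuous (fun x : XX => x.1) := continuous_subtype_val

lemma lsc_FF : LowerSemicontinuous FF := by
  have h1 : Continuous (fun x : XX => - (1 / 27000 * x.1.2) - 1 / 20000000 * ‖x.1.1‖) := by
    have h2 : Continuous (fun x : XX => x.1.2) := continuous_snd.comp continuous_fst_XX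
    have h3 : Continuous (fun x : XX => ‖x.1.1‖) := continuous_norm.comp (continuous_fst.comp continuous_fst_XX)
    fun_prop
  have h2 := lsc_Pr.add h1.lowerSemicontinuous
  have h3 : FF = fun x : XX => Pr (⇑x.1.1) x.1.2 + (- (1 / 27000 * x.1.2) - 1 / 20000000 * ‖x.1.1‖) := by
    funext x
    unfold FF
    ring
  rw [h3]
  exact h2

/-- The origin of the parameter space. -/
noncomputable def xZero : XX := ⟨(0, 0), fun j => by simp, by simp [rr_pos.le]⟩

lemma FF_xZero : FF xZero ≤ 1 := by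
  unfold FF
  have h1 : (⇑(xZero.1.1) : ℕ → ℝ) = fun _ => 0 := by
    funext j
    simp [xZero]
  rw [h1]
  have h2 := Pr_origin_le
  simp [xZero]
  exact h2

/-- Moving the chemical potential. -/
noncomputable def moveMu (x : XX) (θ : ℝ) : XX := ⟨(x.1.1, x.1.2 + θ), x.2⟩

lemma dist_moveMu (x : XX) (θ : ℝ) : dist (moveMu x θ) x = |θ| := by
  have h1 : dist (moveMu x θ) x = dist (moveMu x θ).1 x.1 := rfl
  rw [h1, Prod.dist_eq]
  simp [moveMu]

/-- Adding mass at one scale. -/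
noncomputable def moveS (x : XX) (t : ℝ) (ht : 0 ≤ t) (ht2 : ‖x.1.1‖ + t ≤ rr) (j : ℕ) : XX :=
  ⟨(x.1.1 + lp.single (1 : ℝ≥0∞) j t, x.1.2), by
    constructor
    · intro i
      simp only [lp.coeFn_add, Pi.add_apply, lp.single_apply, Pi.single_apply]
      have := x.2.1 i
      split_ifs with h
      · subst h
        simpa using add_nonneg this ht
      · simpa using this
    · refine (norm_add_le _ _).trans ?_
      rw [lp.norm_single (by norm_num), Real.norm_eq_abs, abs_of_nonneg ht]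
      exact ht2⟩

lemma moveS_coe (x : XX) (t : ℝ) (ht : 0 ≤ t) (ht2 : ‖x.1.1‖ + t ≤ rr) (j : ℕ) :
    (⇑(moveS x t ht ht2 j).1.1 : ℕ → ℝ) = sAdd (⇑x.1.1) t j := by
  funext i
  simp only [moveS, lp.coeFn_add, Pi.add_apply, lp.single_apply, Pi.single_apply, sAdd]

lemma moveS_norm (x : XX) (t : ℝ) (ht : 0 ≤ t) (ht2 : ‖x.1.1‖ + t ≤ rr) (j : ℕ) :
    ‖(moveS x t ht ht2 j).1.1‖ = ‖x.1.1‖ + t := by
  rw [← XX_tsum, moveS_coe, ← XX_tsum]
  have hs := (XX_adm x).summable
  exact (hasSum_sAdd hs t j).tsum_eq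

lemma dist_moveS (x : XX) (t : ℝ) (ht : 0 ≤ t) (ht2 : ‖x.1.1‖ + t ≤ rr) (j : ℕ) :
    dist (moveS x t ht ht2 j) x = t := by
  have h1 : dist (moveS x t ht ht2 j) x = dist (moveS x t ht ht2 j).1 x.1 := rfl
  rw [h1, Prod.dist_eq]
  simp only [moveS, dist_self]
  rw [dist_eq_norm]
  simp only [add_sub_cancel_left]
  rw [lp.norm_single (by norm_num), Real.norm_eq_abs, abs_of_nonneg ht]
  exact max_eq_left ht

/-- The key theorem: some pressure function is not differentiable. -/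
theorem exists_not_differentiable :
    ∃ s : ℕ → ℝ, Adm s ∧ ∃ μ : ℝ, ¬ DifferentiableAt ℝ (fun ν => Pr s ν) μ := by
  obtain ⟨x, hx1, hx2⟩ := ekeland lsc_FF FF_nonneg (ε := 1 / 100000000) (by norm_num) xZero
  set s : ℕ → ℝ := ⇑x.1.1 with hs
  set μ := x.1.2 with hμ
  have hadm : Adm s := XX_adm x
  refine ⟨s, hadm, μ, fun hdiff => ?_⟩
  have hd : HasDerivAt (fun ν => Pr s ν) (deriv (fun ν => Pr s ν) μ) μ := hdiff.hasDerivAt
  set ρ' := deriv (fun ν => Pr s ν) μ with hρ'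
  -- the size of the minimizer
  have hnorm : ‖x.1.1‖ ≤ 100000000 := by
    have h1 := FF_nonneg x
    have h2 := FF_xZero
    have h3 : ‖x.1.1 - xZero.1.1‖ ≤ dist x xZero := dist_XX_fst
    have h4 : xZero.1.1 = 0 := rfl
    rw [h4, sub_zero] at h3
    linarith
  -- test in the chemical potential
  have hmu : ∀ θ : ℝ, Pr s μ - 1 / 27000 * μ ≤ Pr s (μ + θ) - 1 / 27000 * (μ + θ)
      + 1 / 100000000 * |θ| := by
    intro θ
    have h1 := hx2 (moveMu x θ)
    rw [dist_moveMu] at h1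
    unfold FF at h1
    simp only [moveMu] at h1
    linarith
  obtain ⟨θ, hθ, hθ1, hθ2⟩ := secant_bounds hd (η := 1 / 10000000000) (by norm_num)
  have hρ1 : ρ' ≤ 1 / 27000 + 1 / 100000000 + 1 / 10000000000 := by
    have h1 := hmu (-θ)
    rw [abs_neg, abs_of_pos hθ, ← sub_eq_add_neg] at h1
    have h2 : θ * ρ' ≤ θ * (1 / 27000 + 1 / 100000000 + 1 / 10000000000) := by
      linarith
    exact le_of_mul_le_mul_left h2 hθ
  have hρ2 : 1 / 27000 - 1 / 100000000 - 1 / 10000000000 ≤ ρ' := by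
    have h1 := hmu θ
    rw [abs_of_pos hθ] at h1
    have h2 : θ * (1 / 27000 - 1 / 100000000 - 1 / 10000000000) ≤ θ * ρ' := by
      linarith
    exact le_of_mul_le_mul_left h2 hθ
  -- test in the long-range directions
  have htsum : ∑' i, s i = ‖x.1.1‖ := XX_tsum x
  have hσ : (∑' i, s i) + 1 ≤ rr := by
    rw [htsum]
    unfold rr
    norm_num
    linarith
  obtain ⟨t, htpos, ht1, j, hj⟩ := kac_upper hadm hσ hd (κ₀ := 1 / 1000000000) (by norm_num)
  have ht2 : ‖x.1.1‖ + t ≤ rr := by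
    unfold rr
    norm_num
    linarith
  have h1 := hx2 (moveS x t htpos.le ht2 (j + 1))
  rw [dist_moveS] at h1
  unfold FF at h1
  rw [moveS_norm, moveS_coe] at h1
  have h2 : (moveS x t htpos.le ht2 (j + 1)).1.2 = μ := rfl
  rw [h2] at h1
  have h3 : t * (1 / 20000000 - 1 / 100000000) ≤ t * (27 / 2 * (ρ' + 1 / 1000000000) ^ 2 + 1 / 1000000000) := by
    have h4 : sAdd (⇑x.1.1) t (j + 1) = sAdd s t (j + 1) := rfl
    rw [h4] at h1
    have h5 : Pr s μ = Pr (⇑x.1.1) x.1.2 := rfl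
    rw [← h5] at h1
    linarith
  have h4 := le_of_mul_le_mul_left h3 htpos
  have h5 : (ρ' + 1 / 1000000000) ^ 2 ≤ (1 / 27000 + 1 / 100000000 + 1 / 10000000000 + 1 / 1000000000) ^ 2 :=
    pow_le_pow_left₀ (by linarith [hρ2]) (by linarith) 2
  norm_num at h4 h5
  linarith

/-! ### The statement in terms of canonical partition functions -/

lemma pairEnergy_eq (s : ℕ → ℝ) {N : ℕ} (x : Fin N → E3) :
    pairEnergy (phiS s) x = Us s (conf x) := by
  unfold pairEnergy Us conf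
  rw [En_tuple (fS_symm s) x]
  rfl

lemma It_cube_eq (Λ : Set E3) {f : Multiset E3 → ℝ≥0∞} (hf : CM f) (N : ℕ) :
    It (volume.restrict Λ) N f
      = ∫⁻ x : Fin N → E3 in Set.pi Set.univ (fun _ => Λ), f (conf x) := by
  rw [It_eq_pi _ hf, volume_pi, Measure.restrict_pi_pi]

lemma canonical_term {s : ℕ → ℝ} (hs : Adm s) {z : ℝ} (hz : 0 < z) (L : ℝ) (N : ℕ) :
    z ^ N * canonicalZ (phiS s) 1 L N
      = (((N.factorial : ℝ≥0∞))⁻¹ * It (volume.restrict (cubeL L)) N (WW s (Real.log z))).toReal := by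
  set μ := Real.log z with hμ
  have hzμ : Real.exp μ = z := Real.exp_log hz
  set Q := Set.pi Set.univ (fun _ : Fin N => cubeL L) with hQ
  have hmeas : Measurable (fun x : Fin N → E3 => Real.exp (-1 * pairEnergy (phiS s) x)) := by
    simp only [pairEnergy_eq]
    exact Real.measurable_exp.comp ((RM_Us hs N).const_mul (-1))
  have h1 : ∫ x : Fin N → E3 in Q, Real.exp (-1 * pairEnergy (phiS s) x)
      = (∫⁻ x : Fin N → E3 in Q, ENNReal.ofReal (Real.exp (-1 * pairEnergy (phiS s) x))).toReal :=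
    integral_eq_lintegral_of_nonneg_ae (Eventually.of_forall (fun x => (Real.exp_pos _).le))
      hmeas.aestronglyMeasurable
  have h2 : It (volume.restrict (cubeL L)) N (WW s μ)
      = ENNReal.ofReal (z ^ N) *
        ∫⁻ x : Fin N → E3 in Q, ENNReal.ofReal (Real.exp (-1 * pairEnergy (phiS s) x)) := by
    rw [It_cube_eq _ (CM_Wexp (RM_Ham hs μ))]
    rw [← lintegral_const_mul _ hmeas.ennreal_ofReal]
    refine lintegral_congr (fun x => ?_)
    unfold Wexp Ham
    rw [← ENNReal.ofReal_mul (by positivity), card_conf, pairEnergy_eq]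
    congr 1
    have h3 : Real.exp (μ * (N : ℝ)) = z ^ N := by
      rw [mul_comm, Real.exp_nat_mul, hzμ]
    rw [sub_eq_add_neg, Real.exp_add, h3]
    congr 2
    ring
  unfold canonicalZ
  rw [h1, h2, ENNReal.toReal_mul, ENNReal.toReal_mul, ENNReal.toReal_ofReal (by positivity),
    ENNReal.toReal_inv, ENNReal.toReal_natCast]
  ring

lemma isPressure_phiS {s : ℕ → ℝ} (hs : Adm s) :
    IsPressure (phiS s) 1 (fun z => Pr s (Real.log z)) := by
  intro z hz
  set μ := Real.log z with hμ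
  have hXi : ∀ L, Xi (cubeL L) s μ ≠ ∞ := fun L => Xi_cubeL_ne_top hs μ L
  have hterm : ∀ L N, z ^ N * canonicalZ (phiS s) 1 L N
      = (((N.factorial : ℝ≥0∞))⁻¹ * It (volume.restrict (cubeL L)) N (WW s μ)).toReal :=
    fun L N => canonical_term hs hz L N
  have hne : ∀ L N, ((N.factorial : ℝ≥0∞))⁻¹ * It (volume.restrict (cubeL L)) N (WW s μ) ≠ ∞ :=
    fun L N => ENNReal.ne_top_of_tsum_ne_top (hXi L) N
  have htsum : ∀ L, ∑' N : ℕ, z ^ N * canonicalZ (phiS s) 1 L N = (Xi (cubeL L) s μ).toReal := by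
    intro L
    simp only [hterm]
    exact (ENNReal.tsum_toReal_eq (hne L)).symm
  refine ⟨fun L _ => ?_, ?_⟩
  · simp only [hterm]
    exact ENNReal.summable_toReal (hXi L)
  · simp only [htsum]
    exact Pr_tendsto hs μ

lemma phiS_summable {s : ℕ → ℝ} (hs : Adm s) (r : ℝ) :
    Summable (fun j => s j * (((Rn j : ℝ) ^ 3)⁻¹ * (if r < (Rn j : ℝ) then (1:ℝ) else 0))) := by
  refine Summable.of_nonneg_of_le (fun j => ?_) (fun j => ?_) hs.summable
  · refine mul_nonneg (hs.nonneg j) (mul_nonneg (inv_nonneg.2 (pow_nonneg (Rn_real_pos j).le 3)) ?_)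
    split_ifs <;> norm_num
  · have h1 := Rn_inv_le j
    have h2 := hs.nonneg j
    have h3 : 0 ≤ ((Rn j : ℝ) ^ 3)⁻¹ := inv_nonneg.2 (pow_nonneg (Rn_real_pos j).le 3)
    have h4 : ((Rn j : ℝ) ^ 3)⁻¹ * (if r < (Rn j : ℝ) then (1:ℝ) else 0) ≤ 1 := by
      split_ifs <;> linarith
    nlinarith

lemma phiS_tail_nonneg {s : ℕ → ℝ} (hs : Adm s) (r : ℝ) :
    0 ≤ ∑' j, s j * (((Rn j : ℝ) ^ 3)⁻¹ * (if r < (Rn j : ℝ) then (1:ℝ) else 0)) := by
  refine tsum_nonneg (fun j => ?_)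
  refine mul_nonneg (hs.nonneg j) (mul_nonneg (inv_nonneg.2 (pow_nonneg (Rn_real_pos j).le 3)) ?_)
  split_ifs <;> norm_num

lemma phiS_tail_le {s : ℕ → ℝ} (hs : Adm s) (r : ℝ) :
    ∑' j, s j * (((Rn j : ℝ) ^ 3)⁻¹ * (if r < (Rn j : ℝ) then (1:ℝ) else 0)) ≤ rr := by
  refine le_trans (Summable.tsum_le_tsum (fun j => ?_) (phiS_summable hs r) hs.summable) hs.le
  have h1 := Rn_inv_le j
  have h2 := hs.nonneg j
  have h3 : 0 ≤ ((Rn j : ℝ) ^ 3)⁻¹ := inv_nonneg.2 (pow_nonneg (Rn_real_pos j).le 3)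
  have h4 : ((Rn j : ℝ) ^ 3)⁻¹ * (if r < (Rn j : ℝ) then (1:ℝ) else 0) ≤ 1 := by
    split_ifs <;> linarith
  nlinarith

lemma phiS_abs_le {s : ℕ → ℝ} (hs : Adm s) (r : ℝ) : |phiS s r| ≤ AA + rr := by
  unfold phiS
  have h1 := phiS_tail_nonneg hs r
  have h2 := phiS_tail_le hs r
  have hA := AA_pos
  have h3 : (0 : ℝ) ≤ AA * (if r < 2 then 1 else 0) := by
    split_ifs <;> simp [hA.le]
  have h4 : AA * (if r < 2 then (1 : ℝ) else 0) ≤ AA := by
    split_ifs <;> simp [hA.le]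
  rw [abs_le]
  constructor <;> linarith

lemma phiS_nonpos {s : ℕ → ℝ} (hs : Adm s) {r : ℝ} (hr : 2 ≤ r) : phiS s r ≤ 0 := by
  unfold phiS
  rw [if_neg (not_lt.2 hr)]
  have h1 := phiS_tail_nonneg hs r
  linarith

/-- The main theorem. -/
theorem phaseTransitionExists : PhaseTransitionExists := by
  obtain ⟨s, hs, μ, hμ⟩ := exists_not_differentiable
  refine ⟨phiS s, measurable_phiS hs, fun a b _ => ⟨AA + rr, fun r _ => phiS_abs_le hs r⟩, ?_, ?_,
    1, one_pos, fun z => Pr s (Real.log z), isPressure_phiS hs, Real.exp μ, Real.exp_pos μ, ?_⟩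
  · refine ⟨AA / 2, fun N x _ => ?_⟩
    rw [pairEnergy_eq]
    have h1 := Us_ge hs (conf x)
    have h2 := SS_nonneg (conf x)
    have hA := AA_pos
    rw [card_conf] at h1
    nlinarith
  · refine ⟨1, 1, 2, one_pos, one_pos, two_pos, fun r hr => ?_⟩
    refine (phiS_nonpos hs hr).trans ?_
    have : 0 ≤ r ^ (-3 - (1 : ℝ)) := Real.rpow_nonneg (by linarith) _
    linarith
  · intro h
    apply hμ
    have h1 : DifferentiableAt ℝ ((fun z => Pr s (Real.log z)) ∘ Real.exp) μ :=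
      DifferentiableAt.comp μ h Real.differentiableAt_exp
    have h2 : ((fun z => Pr s (Real.log z)) ∘ Real.exp) = fun ν => Pr s ν := by
      funext ν
      simp
    rwa [h2] at h1

end P171
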