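import Vale.Agent.Lib.P171.Defs
import Vale.Agent.Lib.P171.Config
import Vale.Agent.Lib.P171.Energy

/-!
# The family of potentials

`φ_s(r) = A 1[r < 2] - ∑_j s_j R_j⁻³ 1[r < R_j]`, with `R_j = 10 (j+1)!`.
-/

open MeasureTheory Finset
open scoped ENNReal

set_option linter.unusedSectionVars false

namespace P171

/-- The radii. -/
def Rn (j : ℕ) : ℕ := 10 * (j + 1).factorial

lemma Rn_succ (j : ℕ) : Rn (j + 1) = (j + 2) * Rn j := by
  unfold Rn
  rw [Nat.factorial_succ (j + 1)]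
  ring

lemma Rn_pos (j : ℕ) : 0 < Rn j := by
  unfold Rn
  have := Nat.factorial_pos (j + 1)
  omega

lemma Rn_ge (j : ℕ) : 10 ≤ Rn j := by
  unfold Rn
  have := Nat.factorial_pos (j + 1)
  omega

lemma Rn_dvd {i j : ℕ} (h : j ≤ i) : Rn j ∣ Rn i := by
  unfold Rn
  exact Nat.mul_dvd_mul_left 10 (Nat.factorial_dvd_factorial (by omega))

lemma Rn_mono {i j : ℕ} (h : j ≤ i) : Rn j ≤ Rn i := Nat.le_of_dvd (Rn_pos i) (Rn_dvd h)

lemma Rn_real_pos (j : ℕ) : (0 : ℝ) < (Rn j : ℝ) := by exact_mod_cast Rn_pos j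

/-- The indicator kernel of being closer than `R`. -/
noncomputable def indK (R : ℝ) (a b : E3) : ℝ := if dist a b < R then 1 else 0

lemma indK_nonneg (R : ℝ) (a b : E3) : 0 ≤ indK R a b := by
  unfold indK; split_ifs <;> norm_num

lemma indK_le_one (R : ℝ) (a b : E3) : indK R a b ≤ 1 := by
  unfold indK; split_ifs <;> norm_num

lemma indK_symm (R : ℝ) (a b : E3) : indK R a b = indK R b a := by
  unfold indK; rw [dist_comm]

/-- The kernel at scale `R_j`. -/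
noncomputable def Jk (j : ℕ) (a b : E3) : ℝ := ((Rn j : ℝ) ^ 3)⁻¹ * indK (Rn j) a b

lemma Jk_nonneg (j : ℕ) (a b : E3) : 0 ≤ Jk j a b :=
  mul_nonneg (inv_nonneg.2 (pow_nonneg (Rn_real_pos j).le 3)) (indK_nonneg _ _ _)

lemma Jk_symm (j : ℕ) (a b : E3) : Jk j a b = Jk j b a := by
  unfold Jk; rw [indK_symm]

lemma Rn_inv_le (j : ℕ) : ((Rn j : ℝ) ^ 3)⁻¹ ≤ 1 / 1000 := by
  have h : (10 : ℝ) ≤ (Rn j : ℝ) := by exact_mod_cast Rn_ge j
  have h2 : (1000 : ℝ) ≤ (Rn j : ℝ) ^ 3 := by nlinarith [pow_le_pow_left₀ (by norm_num : (0:ℝ) ≤ 10) h 3]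
  rw [one_div]
  exact inv_anti₀ (by norm_num) h2

lemma Jk_le (j : ℕ) (a b : E3) : Jk j a b ≤ 1 / 1000 := by
  unfold Jk
  have h1 := indK_le_one (Rn j) a b
  have h2 := Rn_inv_le j
  have h3 : 0 ≤ ((Rn j : ℝ) ^ 3)⁻¹ := inv_nonneg.2 (pow_nonneg (Rn_real_pos j).le 3)
  nlinarith [indK_nonneg (Rn j) a b]

/-! ### Geometry of the grid -/

lemma coord_abs_le_dist (a b : E3) (i : Fin 3) : |a i - b i| ≤ dist a b := by
  have := PiLp.norm_apply_le (a - b) i
  rw [dist_eq_norm]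
  simpa [Real.norm_eq_abs] using this

lemma dist_lt_of_coord {a b : E3} {δ : ℝ} (h : ∀ i, |a i - b i| < δ) : dist a b < 2 * δ := by
  have hδ : 0 < δ := lt_of_le_of_lt (abs_nonneg _) (h 0)
  rw [EuclideanSpace.dist_eq, Real.sqrt_lt' (by positivity)]
  rw [Fin.sum_univ_three]
  have key : ∀ i, dist (a i) (b i) ^ 2 < δ ^ 2 := by
    intro i
    rw [Real.dist_eq]
    exact pow_lt_pow_left₀ (h i) (abs_nonneg _) (by norm_num)
  nlinarith [key 0, key 1, key 2]

lemma measurable_coord (i : Fin 3) : Measurable (fun a : E3 => a i) :=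
  (EuclideanSpace.proj i : E3 →L[ℝ] ℝ).continuous.measurable

/-- The cell of a point in the grid of side `ℓ` and offset `o`. -/
noncomputable def gridC (ℓ o : ℝ) (a : E3) : Fin 3 → ℤ := fun i => ⌊(a i - o) / ℓ⌋

lemma measurable_gridC (ℓ o : ℝ) : Measurable (gridC ℓ o) := by
  refine measurable_pi_lambda _ (fun i => ?_)
  exact Int.measurable_floor.comp (((measurable_coord i).sub_const o).div_const ℓ)

lemma measurableSet_gridC (ℓ o : ℝ) (k : Fin 3 → ℤ) : MeasurableSet (gridC ℓ o ⁻¹' {k}) :=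
  measurable_gridC ℓ o (measurableSet_singleton k)

/-- The unit cell. -/
noncomputable abbrev unitC : E3 → Fin 3 → ℤ := gridC 1 0

lemma unitC_apply (a : E3) (i : Fin 3) : unitC a i = ⌊a i⌋ := by
  simp [gridC]

/-- Number of ordered pairs in a common unit cell. -/
noncomputable def SS (m : Multiset E3) : ℝ := Sc unitC m

lemma SS_nonneg (m : Multiset E3) : 0 ≤ SS m := Sc_nonneg _ _

/-- Floors of numbers closer than `n` differ by at most `n`. -/
lemma floor_sub_mem_Icc {x y : ℝ} {n : ℕ} (h : |x - y| < n) :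
    ⌊x⌋ - ⌊y⌋ ∈ Finset.Icc (-(n : ℤ)) (n : ℤ) := by
  rw [Finset.mem_Icc]
  have h1 := abs_lt.1 h
  have hx1 := Int.floor_le x
  have hx2 := Int.lt_floor_add_one x
  have hy1 := Int.floor_le y
  have hy2 := Int.lt_floor_add_one y
  constructor
  · have : ((-(n : ℤ) - 1 : ℤ) : ℝ) < ((⌊x⌋ - ⌊y⌋ : ℤ) : ℝ) := by
      push_cast
      linarith [h1.1]
    have := Int.cast_lt.1 this
    omega
  · have : ((⌊x⌋ - ⌊y⌋ : ℤ) : ℝ) < (((n : ℤ) + 1 : ℤ) : ℝ) := by
      push_cast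
      linarith [h1.2]
    have := Int.cast_lt.1 this
    omega

/-- The set of displacement vectors of size at most `n`. -/
noncomputable def boxV (n : ℕ) : Finset (Fin 3 → ℤ) := Fintype.piFinset (fun _ => Finset.Icc (-(n : ℤ)) (n : ℤ))

lemma card_boxV (n : ℕ) : ((boxV n).card : ℝ) = (2 * n + 1) ^ 3 := by
  unfold boxV
  rw [Fintype.card_piFinset]
  simp only [Finset.prod_const, Finset.card_univ, Fintype.card_fin, Int.card_Icc]
  have : ((n : ℤ) + 1 - -(n : ℤ)).toNat = 2 * n + 1 := by omega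
  rw [this]
  push_cast
  ring

/-- The number of close pairs is controlled by the number of pairs in a common cell, when the
interaction radius is an integer multiple of the cell side. -/
lemma Dk_indK_le (ℓ o : ℝ) (hℓ : 0 < ℓ) (n : ℕ) (m : Multiset E3) :
    Dk (indK (n * ℓ)) m ≤ (2 * n + 1) ^ 3 * Sc (gridC ℓ o) m := by
  rw [← card_boxV]
  refine Bil_le_of_shifts (gridC ℓ o) (boxV n) (indK (n * ℓ)) (indK_le_one _) (fun a b hpos => ?_) m
  have hd : dist a b < n * ℓ := by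
    unfold indK at hpos
    by_contra h
    simp [h] at hpos
  unfold boxV
  rw [Fintype.mem_piFinset]
  intro i
  have h1 : |a i - b i| < n * ℓ := lt_of_le_of_lt (coord_abs_le_dist a b i) hd
  have h2 : |(a i - o) / ℓ - (b i - o) / ℓ| < n := by
    have : (a i - o) / ℓ - (b i - o) / ℓ = (a i - b i) / ℓ := by field_simp; ring
    rw [this, abs_div, abs_of_pos hℓ, div_lt_iff₀ hℓ]
    exact h1
  have := floor_sub_mem_Icc h2
  simpa [gridC] using this

/-- The kernel at scale `R_i` is controlled on any grid whose side divides `R_i`. -/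
lemma Dk_Jk_le (i : ℕ) (ℓ o : ℝ) (hℓ : 0 < ℓ) (n : ℕ) (hn : 0 < n) (hR : (Rn i : ℝ) = n * ℓ)
    (m : Multiset E3) : Dk (Jk i) m ≤ 27 / ℓ ^ 3 * Sc (gridC ℓ o) m := by
  have h1 := Dk_indK_le ℓ o hℓ n m
  rw [← hR] at h1
  have h2 : Dk (Jk i) m = ((Rn i : ℝ) ^ 3)⁻¹ * Dk (indK (Rn i)) m := by
    unfold Dk Jk
    rw [Bil_const_mul]
  rw [h2]
  have hn' : (1 : ℝ) ≤ n := by exact_mod_cast hn
  have hR3 : (0 : ℝ) < (Rn i : ℝ) ^ 3 := pow_pos (Rn_real_pos i) 3
  have hS := Sc_nonneg (gridC ℓ o) m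
  have h3 : ((Rn i : ℝ) ^ 3)⁻¹ * (2 * n + 1) ^ 3 ≤ 27 / ℓ ^ 3 := by
    rw [hR, mul_pow, inv_mul_le_iff₀ (by positivity)]
    have h4 : (2 * (n : ℝ) + 1) ^ 3 ≤ (3 * n) ^ 3 :=
      pow_le_pow_left₀ (by positivity) (by linarith) 3
    have h5 : (n : ℝ) ^ 3 * ℓ ^ 3 * (27 / ℓ ^ 3) = (3 * n) ^ 3 := by
      field_simp
      ring
    rw [h5]
    exact h4
  calc ((Rn i : ℝ) ^ 3)⁻¹ * Dk (indK (Rn i)) m
      ≤ ((Rn i : ℝ) ^ 3)⁻¹ * ((2 * n + 1) ^ 3 * Sc (gridC ℓ o) m) :=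
        mul_le_mul_of_nonneg_left h1 (inv_nonneg.2 hR3.le)
    _ = (((Rn i : ℝ) ^ 3)⁻¹ * (2 * n + 1) ^ 3) * Sc (gridC ℓ o) m := by ring
    _ ≤ 27 / ℓ ^ 3 * Sc (gridC ℓ o) m := mul_le_mul_of_nonneg_right h3 hS

/-- The bound for the unit grid. -/
lemma Dk_Jk_le_SS (i : ℕ) (m : Multiset E3) : Dk (Jk i) m ≤ 27 * SS m := by
  have := Dk_Jk_le i 1 0 one_pos (Rn i) (Rn_pos i) (by simp) m
  simpa [SS] using this

lemma En_Jk_nonneg (j : ℕ) (m : Multiset E3) : 0 ≤ En (Jk j) m :=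
  En_nonneg (Jk_symm j) (Jk_nonneg j) m

lemma En_Jk_le (j : ℕ) (m : Multiset E3) : En (Jk j) m ≤ 27 / 2 * SS m := by
  have h1 := En_le_half_Dk (f := Jk j) (fun a => Jk_nonneg j a a) m
  have h2 := Dk_Jk_le_SS j m
  linarith

/-- A crude bound of the energy at scale `R_j` by the number of pairs. -/
lemma En_Jk_le_card (j : ℕ) (m : Multiset E3) :
    En (Jk j) m ≤ (Multiset.card m : ℝ) ^ 2 := by
  have h1 := En_le_half_Dk (f := Jk j) (fun a => Jk_nonneg j a a) m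
  have h2 : Dk (Jk j) m ≤ Bil (fun _ _ => (1 : ℝ)) m m := by
    refine Bil_mono (fun a _ b _ => ?_)
    linarith [Jk_le j a b]
  rw [Bil_one] at h2
  nlinarith [sq_nonneg (Multiset.card m : ℝ)]

/-- Same unit cell implies distance less than `2`. -/
lemma dist_lt_two_of_unitC {a b : E3} (h : unitC a = unitC b) : dist a b < 2 := by
  have h1 : ∀ i, |a i - b i| < 1 := by
    intro i
    have h2 : ⌊a i⌋ = ⌊b i⌋ := by
      have := congrFun h i
      simpa [unitC_apply] using this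
    exact Int.abs_sub_lt_one_of_floor_eq_floor h2
  simpa using dist_lt_of_coord h1

lemma sameK_unit_le_indK (a b : E3) : sameK unitC a b ≤ indK 2 a b := by
  unfold sameK indK
  by_cases h : unitC a = unitC b
  · simp [h, dist_lt_two_of_unitC h]
  · simp only [h, if_false]
    split_ifs <;> norm_num

lemma Tr_indK_two (m : Multiset E3) : Tr (indK 2) m = Multiset.card m := by
  unfold Tr indK
  simp

lemma En_indK_two_ge (m : Multiset E3) :
    (SS m - Multiset.card m) / 2 ≤ En (indK 2) m := by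
  unfold En
  rw [Tr_indK_two]
  have : SS m ≤ Dk (indK 2) m := Bil_mono (fun a _ b _ => sameK_unit_le_indK a b)
  linarith

end P171
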