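import Vale.Agent.Lib.P171.Potential

/-!
# Finite-volume grand partition functions and the pressure
-/

open MeasureTheory Finset Filter Topology
open scoped ENNReal

set_option linter.unusedSectionVars false

namespace P171

/-- The bound on the total mass of the long-range part. -/
noncomputable def rr : ℝ := 2 * 10 ^ 8

/-- The strength of the short-range repulsion. -/
noncomputable def AA : ℝ := 10 ^ 11

lemma rr_pos : 0 < rr := by unfold rr; norm_num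
lemma AA_pos : 0 < AA := by unfold AA; norm_num

/-- The potential. -/
noncomputable def phiS (s : ℕ → ℝ) (r : ℝ) : ℝ :=
  AA * (if r < 2 then 1 else 0) -
    ∑' j, s j * (((Rn j : ℝ) ^ 3)⁻¹ * (if r < (Rn j : ℝ) then 1 else 0))

/-- The long-range kernel. -/
noncomputable def KS (s : ℕ → ℝ) (a b : E3) : ℝ := ∑' j, s j * Jk j a b

/-- The full kernel. -/
noncomputable def fS (s : ℕ → ℝ) (a b : E3) : ℝ := AA * indK 2 a b - KS s a b

lemma fS_eq_phiS (s : ℕ → ℝ) (a b : E3) : fS s a b = phiS s (dist a b) := rfl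

lemma fS_symm (s : ℕ → ℝ) (a b : E3) : fS s a b = fS s b a := by
  rw [fS_eq_phiS, fS_eq_phiS, dist_comm]

/-- The total energy of a configuration. -/
noncomputable def Us (s : ℕ → ℝ) (m : Multiset E3) : ℝ := En (fS s) m

/-- The admissible coefficient sequences. -/
structure Adm (s : ℕ → ℝ) : Prop where
  nonneg : ∀ j, 0 ≤ s j
  summable : Summable s
  le : ∑' j, s j ≤ rr

lemma Adm.zero : Adm (fun _ => 0) := ⟨fun _ => le_rfl, summable_zero, by simp [rr_pos.le]⟩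

lemma Adm.hasSum_KS {s : ℕ → ℝ} (hs : Adm s) (a b : E3) :
    HasSum (fun j => s j * Jk j a b) (KS s a b) := by
  refine Summable.hasSum ?_
  refine Summable.of_nonneg_of_le (fun j => mul_nonneg (hs.nonneg j) (Jk_nonneg j a b))
    (fun j => ?_) hs.summable
  have h1 := Jk_le j a b
  have h2 := hs.nonneg j
  nlinarith

lemma KS_nonneg {s : ℕ → ℝ} (hs : Adm s) (a b : E3) : 0 ≤ KS s a b :=
  tsum_nonneg (fun j => mul_nonneg (hs.nonneg j) (Jk_nonneg j a b))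

lemma KS_symm (s : ℕ → ℝ) (a b : E3) : KS s a b = KS s b a := by
  unfold KS
  exact tsum_congr (fun j => by rw [Jk_symm])

lemma Adm.hasSum_En {s : ℕ → ℝ} (hs : Adm s) (m : Multiset E3) :
    HasSum (fun j => s j * En (Jk j) m) (En (KS s) m) := by
  have h := En_hasSum (f := fun j a b => s j * Jk j a b) m (fun a b => hs.hasSum_KS a b)
  simpa only [En_const_mul] using h

lemma Us_eq (s : ℕ → ℝ) (m : Multiset E3) : Us s m = AA * En (indK 2) m - En (KS s) m := by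
  unfold Us fS
  rw [En_sub_fun, En_const_mul]

lemma En_KS_nonneg {s : ℕ → ℝ} (hs : Adm s) (m : Multiset E3) : 0 ≤ En (KS s) m :=
  (hs.hasSum_En m).nonneg (fun j => mul_nonneg (hs.nonneg j) (En_Jk_nonneg j m))

lemma En_KS_le {s : ℕ → ℝ} (hs : Adm s) (m : Multiset E3) :
    En (KS s) m ≤ (27 / 2 * rr) * SS m := by
  have h1 : HasSum (fun j => s j * (27 / 2 * SS m)) ((∑' j, s j) * (27 / 2 * SS m)) :=
    hs.summable.hasSum.mul_right _
  have h2 := hasSum_le (fun j => mul_le_mul_of_nonneg_left (En_Jk_le j m) (hs.nonneg j))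
    (hs.hasSum_En m) h1
  have h3 : (∑' j, s j) * (27 / 2 * SS m) ≤ rr * (27 / 2 * SS m) :=
    mul_le_mul_of_nonneg_right hs.le (by have := SS_nonneg m; positivity)
  linarith

/-- Stability. -/
lemma Us_ge {s : ℕ → ℝ} (hs : Adm s) (m : Multiset E3) :
    AA / 4 * SS m - AA / 2 * (Multiset.card m : ℝ) ≤ Us s m := by
  rw [Us_eq]
  have h1 := En_indK_two_ge m
  have h2 := En_KS_le hs m
  have h3 := SS_nonneg m
  have hA : 27 / 2 * rr ≤ AA / 4 := by unfold rr AA; norm_num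
  have h4 : (27 / 2 * rr) * SS m ≤ AA / 4 * SS m := mul_le_mul_of_nonneg_right hA h3
  have h5 : AA * ((SS m - Multiset.card m) / 2) ≤ AA * En (indK 2) m :=
    mul_le_mul_of_nonneg_left h1 AA_pos.le
  nlinarith

/-! ### Measurability -/

/-- Measurability of a real function of configurations. -/
def RM (h : Multiset E3 → ℝ) : Prop := ∀ N, Measurable (fun x : Fin N → E3 => h (conf x))

lemma RM.add {f g : Multiset E3 → ℝ} (hf : RM f) (hg : RM g) : RM (fun m => f m + g m) :=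
  fun N => (hf N).add (hg N)

lemma RM.sub {f g : Multiset E3 → ℝ} (hf : RM f) (hg : RM g) : RM (fun m => f m - g m) :=
  fun N => (hf N).sub (hg N)

lemma RM.const_mul {f : Multiset E3 → ℝ} (hf : RM f) (c : ℝ) : RM (fun m => c * f m) :=
  fun N => (hf N).const_mul c

lemma RM.pow {f : Multiset E3 → ℝ} (hf : RM f) (n : ℕ) : RM (fun m => f m ^ n) :=
  fun N => (hf N).pow_const n

lemma RM_const (c : ℝ) : RM (fun _ => c) := fun _ => measurable_const

lemma RM_card : RM (fun m => (Multiset.card m : ℝ)) := by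
  intro N
  simp only [card_conf]
  exact measurable_const

lemma RM_Dk {f : E3 → E3 → ℝ} (hf : Measurable (fun p : E3 × E3 => f p.1 p.2)) : RM (Dk f) := by
  intro N
  have : (fun x : Fin N → E3 => Dk f (conf x)) = fun x => ∑ i, ∑ j, f (x i) (x j) := by
    funext x
    exact Bil_tuple f x x
  rw [this]
  refine Finset.measurable_sum _ (fun i _ => Finset.measurable_sum _ (fun j _ => ?_))
  have hij : Measurable (fun x : Fin N → E3 => ((x i, x j) : E3 × E3)) :=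
    (measurable_pi_apply i).prodMk (measurable_pi_apply j)
  exact hf.comp hij

lemma RM_Tr {f : E3 → E3 → ℝ} (hf : Measurable (fun p : E3 × E3 => f p.1 p.2)) : RM (Tr f) := by
  intro N
  have : (fun x : Fin N → E3 => Tr f (conf x)) = fun x => ∑ i, f (x i) (x i) := by
    funext x
    exact Tr_tuple f x
  rw [this]
  refine Finset.measurable_sum _ (fun i _ => ?_)
  have hij : Measurable (fun x : Fin N → E3 => ((x i, x i) : E3 × E3)) :=
    (measurable_pi_apply i).prodMk (measurable_pi_apply i)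
  exact hf.comp hij

lemma RM_En {f : E3 → E3 → ℝ} (hf : Measurable (fun p : E3 × E3 => f p.1 p.2)) : RM (En f) := by
  intro N
  exact ((RM_Dk hf N).sub (RM_Tr hf N)).div_const 2

lemma measurable_indK (R : ℝ) : Measurable (fun p : E3 × E3 => indK R p.1 p.2) := by
  unfold indK
  refine Measurable.ite ?_ measurable_const measurable_const
  exact measurableSet_lt measurable_dist measurable_const

lemma measurable_Jk (j : ℕ) : Measurable (fun p : E3 × E3 => Jk j p.1 p.2) :=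
  (measurable_indK _).const_mul _

lemma measurable_phiS {s : ℕ → ℝ} (hs : Adm s) : Measurable (phiS s) := by
  unfold phiS
  refine (Measurable.const_mul ?_ _).sub ?_
  · exact Measurable.ite measurableSet_Iio measurable_const measurable_const
  · have hterm : ∀ j, Measurable (fun r : ℝ => s j * (((Rn j : ℝ) ^ 3)⁻¹ * (if r < (Rn j : ℝ) then (1:ℝ) else 0))) := by
      intro j
      exact ((Measurable.ite measurableSet_Iio measurable_const measurable_const).const_mul _).const_mul _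
    have hsum : ∀ r : ℝ, Summable (fun j => s j * (((Rn j : ℝ) ^ 3)⁻¹ * (if r < (Rn j : ℝ) then (1:ℝ) else 0))) := by
      intro r
      refine Summable.of_nonneg_of_le (fun j => ?_) (fun j => ?_) hs.summable
      · refine mul_nonneg (hs.nonneg j) (mul_nonneg (inv_nonneg.2 (pow_nonneg (Rn_real_pos j).le 3)) ?_)
        split_ifs <;> norm_num
      · have h1 := Rn_inv_le j
        have h2 := hs.nonneg j
        have h3 : 0 ≤ ((Rn j : ℝ) ^ 3)⁻¹ := inv_nonneg.2 (pow_nonneg (Rn_real_pos j).le 3)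
        have h4 : ((Rn j : ℝ) ^ 3)⁻¹ * (if r < (Rn j : ℝ) then (1:ℝ) else 0) ≤ 1 := by
          split_ifs <;> linarith
        nlinarith
    refine measurable_of_tendsto_metrizable (f := fun (n : ℕ) (r : ℝ) => ∑ j ∈ Finset.range n, s j * (((Rn j : ℝ) ^ 3)⁻¹ * (if r < (Rn j : ℝ) then (1:ℝ) else 0))) ?_ ?_
    · intro n
      exact Finset.measurable_sum _ (fun j _ => hterm j)
    · rw [tendsto_pi_nhds]
      intro r
      exact (hsum r).hasSum.tendsto_sum_nat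

lemma measurable_fS {s : ℕ → ℝ} (hs : Adm s) : Measurable (fun p : E3 × E3 => fS s p.1 p.2) := by
  simp only [fS_eq_phiS]
  exact (measurable_phiS hs).comp measurable_dist

lemma RM_Us {s : ℕ → ℝ} (hs : Adm s) : RM (Us s) := RM_En (measurable_fS hs)

/-- The Hamiltonian (with chemical potential). -/
noncomputable def Ham (s : ℕ → ℝ) (μ : ℝ) (m : Multiset E3) : ℝ :=
  μ * (Multiset.card m : ℝ) - Us s m

lemma RM_Ham {s : ℕ → ℝ} (hs : Adm s) (μ : ℝ) : RM (Ham s μ) :=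
  (RM_card.const_mul μ).sub (RM_Us hs)

/-- Exponential weight. -/
noncomputable def Wexp (h : Multiset E3 → ℝ) (m : Multiset E3) : ℝ≥0∞ :=
  ENNReal.ofReal (Real.exp (h m))

lemma CM_Wexp {h : Multiset E3 → ℝ} (hh : RM h) : CM (Wexp h) := fun N =>
  ENNReal.measurable_ofReal.comp (Real.measurable_exp.comp (hh N))

lemma Wexp_zero_eq {h : Multiset E3 → ℝ} (h0 : h 0 = 0) : Wexp h 0 = 1 := by
  simp [Wexp, h0]

lemma Wexp_sum {ι : Type} (K : Finset ι) (h : ι → ℝ) :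
    ENNReal.ofReal (Real.exp (∑ k ∈ K, h k)) = ∏ k ∈ K, ENNReal.ofReal (Real.exp (h k)) := by
  rw [Real.exp_sum, ENNReal.ofReal_prod_of_nonneg (fun k _ => (Real.exp_pos _).le)]

/-- The weight of a configuration. -/
noncomputable abbrev WW (s : ℕ → ℝ) (μ : ℝ) : Multiset E3 → ℝ≥0∞ := Wexp (Ham s μ)

/-- The grand partition function of a region. -/
noncomputable def Xi (Λ : Set E3) (s : ℕ → ℝ) (μ : ℝ) : ℝ≥0∞ :=
  II (volume.restrict Λ) (WW s μ)

/-- Logarithm of an extended nonnegative real. -/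
noncomputable def lg (x : ℝ≥0∞) : ℝ := Real.log x.toReal

lemma lg_le_of_le {x : ℝ≥0∞} {c : ℝ} (h1 : 1 ≤ x) (h2 : x ≤ ENNReal.ofReal (Real.exp c)) :
    lg x ≤ c := by
  unfold lg
  have hx : x ≠ ∞ := ne_top_of_le_ne_top ENNReal.ofReal_ne_top h2
  have h3 : x.toReal ≤ Real.exp c := by
    have := ENNReal.toReal_mono ENNReal.ofReal_ne_top h2
    rwa [ENNReal.toReal_ofReal (Real.exp_pos c).le] at this
  have h4 : 0 < x.toReal := by
    have : (1 : ℝ≥0∞).toReal ≤ x.toReal := ENNReal.toReal_mono hx h1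
    simp at this
    linarith
  calc Real.log x.toReal ≤ Real.log (Real.exp c) := Real.log_le_log h4 h3
    _ = c := Real.log_exp c

lemma le_exp_of_lg_le {x : ℝ≥0∞} {c : ℝ} (h1 : 1 ≤ x) (hx : x ≠ ∞) (h2 : lg x ≤ c) :
    x ≤ ENNReal.ofReal (Real.exp c) := by
  unfold lg at h2
  have h4 : 0 < x.toReal := by
    have : (1 : ℝ≥0∞).toReal ≤ x.toReal := ENNReal.toReal_mono hx h1
    simp at this
    linarith
  rw [← ENNReal.ofReal_toReal hx]
  refine ENNReal.ofReal_le_ofReal ?_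
  rw [← Real.exp_log h4]
  exact Real.exp_le_exp.2 h2

lemma lg_nonneg {x : ℝ≥0∞} (h1 : 1 ≤ x) (hx : x ≠ ∞) : 0 ≤ lg x := by
  unfold lg
  refine Real.log_nonneg ?_
  have : (1 : ℝ≥0∞).toReal ≤ x.toReal := ENNReal.toReal_mono hx h1
  simpa using this

lemma lg_mono {x y : ℝ≥0∞} (h1 : 1 ≤ x) (hy : y ≠ ∞) (h : x ≤ y) : lg x ≤ lg y := by
  unfold lg
  have hx : x ≠ ∞ := ne_top_of_le_ne_top hy h
  have h4 : 0 < x.toReal := by
    have : (1 : ℝ≥0∞).toReal ≤ x.toReal := ENNReal.toReal_mono hx h1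
    simp at this
    linarith
  exact Real.log_le_log h4 (ENNReal.toReal_mono hy h)

lemma lt_lg_of_lt {x : ℝ≥0∞} {c : ℝ} (hx : x ≠ ∞) (h : ENNReal.ofReal (Real.exp c) < x) : c < lg x := by
  unfold lg
  have h1 : Real.exp c < x.toReal := by
    have := (ENNReal.ofReal_lt_iff_lt_toReal (Real.exp_pos c).le hx).1 h
    exact this
  rw [Real.lt_log_iff_exp_lt (lt_trans (Real.exp_pos c) h1)]
  exact h1

lemma lg_pow {x : ℝ≥0∞} (n : ℕ) : lg (x ^ n) = n * lg x := by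
  unfold lg
  rw [ENNReal.toReal_pow, Real.log_pow]

lemma lg_mul {x y : ℝ≥0∞} (hx : 1 ≤ x) (hx' : x ≠ ∞) (hy : 1 ≤ y) (hy' : y ≠ ∞) :
    lg (x * y) = lg x + lg y := by
  unfold lg
  have h4 : ∀ x : ℝ≥0∞, 1 ≤ x → x ≠ ∞ → x.toReal ≠ 0 := by
    intro x h1 hx
    have : (1 : ℝ≥0∞).toReal ≤ x.toReal := ENNReal.toReal_mono hx h1
    simp at this
    linarith
  rw [ENNReal.toReal_mul, Real.log_mul (h4 x hx hx') (h4 y hy hy')]

/-- `exp x` as a series in extended reals. -/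
lemma tsum_pow_div_factorial (x : ℝ) (hx : 0 ≤ x) :
    ∑' n : ℕ, ((n.factorial : ℝ≥0∞))⁻¹ * ENNReal.ofReal x ^ n = ENNReal.ofReal (Real.exp x) := by
  have h := NormedSpace.expSeries_div_hasSum_exp x
  rw [← Real.exp_eq_exp_ℝ] at h
  rw [← h.tsum_eq, ENNReal.ofReal_tsum_of_nonneg (fun n => by positivity) h.summable]
  refine tsum_congr (fun n => ?_)
  rw [div_eq_inv_mul, ENNReal.ofReal_mul (by positivity), ENNReal.ofReal_inv_of_pos (by positivity),
    ENNReal.ofReal_pow hx, ENNReal.ofReal_natCast]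

/-- Volume of a cube. -/
lemma volume_cubeL {L : ℝ} (hL : 0 ≤ L) : volume (cubeL L) = ENNReal.ofReal (L ^ 3) := by
  have h : cubeL L = (MeasurableEquiv.toLp 2 (Fin 3 → ℝ)).symm ⁻¹' (Set.pi Set.univ (fun _ => Set.Icc (0:ℝ) L)) := by
    ext x
    constructor
    · intro h i _
      exact h i
    · intro h i
      exact h i trivial
  rw [h, (EuclideanSpace.volume_preserving_symm_measurableEquiv_toLp (Fin 3)).measure_preimage
    (MeasurableSet.univ_pi (fun _ => measurableSet_Icc)).nullMeasurableSet]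
  rw [volume_pi_pi]
  simp only [Real.volume_Icc, sub_zero, Finset.prod_const, Finset.card_univ, Fintype.card_fin]
  rw [ENNReal.ofReal_pow hL]

lemma measurableSet_cubeL (L : ℝ) : MeasurableSet (cubeL L) := by
  have : cubeL L = ⋂ i, {x : E3 | x i ∈ Set.Icc (0 : ℝ) L} := by
    ext x; simp [cubeL]
  rw [this]
  exact MeasurableSet.iInter (fun i => (measurable_coord i) measurableSet_Icc)

lemma cubeL_mono {L L' : ℝ} (h : L ≤ L') : cubeL L ⊆ cubeL L' := by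
  intro x hx i
  exact ⟨(hx i).1, (hx i).2.trans h⟩

lemma Xi_mono {Λ Λ' : Set E3} (h : Λ ⊆ Λ') (s : ℕ → ℝ) (μ : ℝ) : Xi Λ s μ ≤ Xi Λ' s μ :=
  II_mono_measure (Measure.restrict_mono h le_rfl) (fun _ => le_rfl)

lemma Us_zero (s : ℕ → ℝ) : Us s 0 = 0 := by simp [Us]

lemma Ham_zero (s : ℕ → ℝ) (μ : ℝ) : Ham s μ 0 = 0 := by simp [Ham, Us_zero]

lemma one_le_II {μ' : Measure E3} {f : Multiset E3 → ℝ≥0∞} (h0 : f 0 = 1) : 1 ≤ II μ' f := by
  unfold II
  have := ENNReal.le_tsum (f := fun N : ℕ => (N.factorial : ℝ≥0∞)⁻¹ * It μ' N f) 0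
  simpa [h0] using this

lemma one_le_Xi (Λ : Set E3) (s : ℕ → ℝ) (μ : ℝ) : 1 ≤ Xi Λ s μ :=
  one_le_II (Wexp_zero_eq (Ham_zero s μ))

/-- The energy bound by cell counting. -/
lemma Ham_le_of_cells {s : ℕ → ℝ} (hs : Adm s) (μ : ℝ) {m : Multiset E3} {V : ℝ} (hV : 0 < V)
    (hc : (Multiset.card m : ℝ) ^ 2 ≤ V * SS m) :
    Ham s μ m ≤ (μ + AA / 2) ^ 2 * V / AA := by
  unfold Ham
  have h1 := Us_ge hs m
  have hA := AA_pos
  set x : ℝ := (Multiset.card m : ℝ)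
  have h2 : x ^ 2 / V ≤ SS m := by
    rw [div_le_iff₀ hV]; linarith
  have h3 : AA / 4 * (x ^ 2 / V) ≤ AA / 4 * SS m := mul_le_mul_of_nonneg_left h2 (by positivity)
  have h4 : (μ + AA / 2) * x - AA / 4 * (x ^ 2 / V) ≤ (μ + AA / 2) ^ 2 * V / AA := by
    have h5 : (μ + AA / 2) ^ 2 * V / AA - ((μ + AA / 2) * x - AA / 4 * (x ^ 2 / V))
        = (((μ + AA / 2) * V - AA / 2 * x) ^ 2) / (AA * V) := by
      field_simp
      ring
    have h6 : 0 ≤ (((μ + AA / 2) * V - AA / 2 * x) ^ 2) / (AA * V) := by positivity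
    linarith
  linarith

/-- A generic bound for an iterated integral by the volume. -/
lemma It_le_vol {Q : Set E3} (hQ : MeasurableSet Q) {f : Multiset E3 → ℝ≥0∞} {n : ℕ} {c : ℝ≥0∞}
    (h : ∀ m : Multiset E3, Multiset.card m = n → (∀ a ∈ m, a ∈ Q) → f m ≤ c) :
    It (volume.restrict Q) n f ≤ c * volume Q ^ n := by
  have h1 := It_restrict_mono (μ := volume) hQ (f := f) (g := fun _ => c) h
  rw [It_const] at h1
  simpa using h1

/-- A generic bound for a grand-canonical integral. -/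
lemma II_le_of_bound {Q : Set E3} (hQ : MeasurableSet Q) {f : Multiset E3 → ℝ≥0∞} {c v : ℝ}
    (hv : 0 ≤ v) (hvol : volume Q ≤ ENNReal.ofReal v)
    (h : ∀ m : Multiset E3, (∀ a ∈ m, a ∈ Q) → f m ≤ ENNReal.ofReal (Real.exp c)) :
    II (volume.restrict Q) f ≤ ENNReal.ofReal (Real.exp (c + v)) := by
  unfold II
  calc ∑' N : ℕ, (N.factorial : ℝ≥0∞)⁻¹ * It (volume.restrict Q) N f
      ≤ ∑' N : ℕ, ENNReal.ofReal (Real.exp c) * ((N.factorial : ℝ≥0∞)⁻¹ * ENNReal.ofReal v ^ N) := by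
        refine ENNReal.tsum_le_tsum (fun N => ?_)
        have h1 := It_le_vol hQ (f := f) (n := N) (c := ENNReal.ofReal (Real.exp c))
          (fun m _ hm => h m hm)
        calc (N.factorial : ℝ≥0∞)⁻¹ * It (volume.restrict Q) N f
            ≤ (N.factorial : ℝ≥0∞)⁻¹ * (ENNReal.ofReal (Real.exp c) * volume Q ^ N) := by gcongr
          _ ≤ (N.factorial : ℝ≥0∞)⁻¹ * (ENNReal.ofReal (Real.exp c) * ENNReal.ofReal v ^ N) := by gcongr
          _ = _ := by ring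
    _ = ENNReal.ofReal (Real.exp c) * ENNReal.ofReal (Real.exp v) := by
        rw [ENNReal.tsum_mul_left, tsum_pow_div_factorial v hv]
    _ = _ := by
        rw [← ENNReal.ofReal_mul (Real.exp_pos c).le, Real.exp_add]

/-- Unit cells of the closed cube. -/
noncomputable def cellsU (ℓ : ℕ) : Finset (Fin 3 → ℤ) :=
  Fintype.piFinset (fun _ => Finset.Icc (0 : ℤ) ℓ)

lemma card_cellsU (ℓ : ℕ) : ((cellsU ℓ).card : ℝ) = ((ℓ : ℝ) + 1) ^ 3 := by
  unfold cellsU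
  rw [Fintype.card_piFinset]
  simp only [Finset.prod_const, Finset.card_univ, Fintype.card_fin, Int.card_Icc]
  have : ((ℓ : ℤ) + 1 - 0).toNat = ℓ + 1 := by omega
  rw [this]
  push_cast
  ring

lemma unitC_mem_cellsU {ℓ : ℕ} {a : E3} (ha : a ∈ cubeL ℓ) : unitC a ∈ cellsU ℓ := by
  unfold cellsU
  rw [Fintype.mem_piFinset]
  intro i
  rw [Finset.mem_Icc, unitC_apply]
  have h := ha i
  constructor
  · exact Int.floor_nonneg.2 h.1
  · exact Int.floor_le_iff.2 (by have := h.2; push_cast; linarith)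

/-- The basic upper bound for a cube. -/
lemma Xi_cube_le {s : ℕ → ℝ} (hs : Adm s) (μ : ℝ) (ℓ : ℕ) :
    Xi (cubeL ℓ) s μ ≤
      ENNReal.ofReal (Real.exp ((μ + AA / 2) ^ 2 * ((ℓ : ℝ) + 1) ^ 3 / AA + (ℓ : ℝ) ^ 3)) := by
  refine II_le_of_bound (measurableSet_cubeL _) (by positivity)
    (volume_cubeL (by positivity)).le (fun m hm => ?_)
  refine ENNReal.ofReal_le_ofReal (Real.exp_le_exp.2 ?_)
  refine Ham_le_of_cells hs μ (by positivity) ?_
  have := card_sq_le unitC (cellsU ℓ) (m := m) (fun a ha => unitC_mem_cellsU (hm a ha))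
  rwa [card_cellsU] at this

lemma Xi_cube_ne_top {s : ℕ → ℝ} (hs : Adm s) (μ : ℝ) (ℓ : ℕ) : Xi (cubeL ℓ) s μ ≠ ∞ :=
  ne_top_of_le_ne_top ENNReal.ofReal_ne_top (Xi_cube_le hs μ ℓ)

lemma Xi_cubeL_ne_top {s : ℕ → ℝ} (hs : Adm s) (μ L : ℝ) : Xi (cubeL L) s μ ≠ ∞ := by
  refine ne_top_of_le_ne_top (Xi_cube_ne_top hs μ ⌈L⌉₊) (Xi_mono (cubeL_mono (Nat.le_ceil L)) s μ)

/-- The pressure, defined as a supremum. -/
noncomputable def Pr (s : ℕ → ℝ) (μ : ℝ) : ℝ :=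
  ⨆ ℓ : ℕ, (((ℓ : ℝ) + 3) ^ 3)⁻¹ * lg (Xi (cubeL ((ℓ + 1 : ℕ) : ℝ)) s μ)

/-- An upper bound for the pressure. -/
noncomputable def Cb (μ : ℝ) : ℝ := 1 + (μ + AA / 2) ^ 2 / AA

lemma Cb_nonneg (μ : ℝ) : 0 ≤ Cb μ := by
  unfold Cb
  have := AA_pos
  positivity

lemma term_le_Cb {s : ℕ → ℝ} (hs : Adm s) (μ : ℝ) (ℓ : ℕ) :
    (((ℓ : ℝ) + 3) ^ 3)⁻¹ * lg (Xi (cubeL ((ℓ + 1 : ℕ) : ℝ)) s μ) ≤ Cb μ := by
  have h1 := lg_le_of_le (one_le_Xi _ s μ) (Xi_cube_le hs μ (ℓ + 1))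
  have hp : (0 : ℝ) < ((ℓ : ℝ) + 3) ^ 3 := by positivity
  rw [inv_mul_le_iff₀ hp]
  refine h1.trans ?_
  unfold Cb
  push_cast
  have hA := AA_pos
  have h2 : ((ℓ : ℝ) + 1 + 1) ^ 3 ≤ ((ℓ : ℝ) + 3) ^ 3 :=
    pow_le_pow_left₀ (by positivity) (by linarith) 3
  have h3 : ((ℓ : ℝ) + 1) ^ 3 ≤ ((ℓ : ℝ) + 3) ^ 3 :=
    pow_le_pow_left₀ (by positivity) (by linarith) 3
  have h4 : 0 ≤ (μ + AA / 2) ^ 2 / AA := by positivity
  have h5 : (μ + AA / 2) ^ 2 * ((ℓ : ℝ) + 1 + 1) ^ 3 / AA ≤ (μ + AA / 2) ^ 2 / AA * ((ℓ : ℝ) + 3) ^ 3 := by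
    rw [div_mul_eq_mul_div]
    exact div_le_div_of_nonneg_right (mul_le_mul_of_nonneg_left h2 (sq_nonneg _)) hA.le
  nlinarith

lemma Pr_bdd {s : ℕ → ℝ} (hs : Adm s) (μ : ℝ) :
    BddAbove (Set.range fun ℓ : ℕ => (((ℓ : ℝ) + 3) ^ 3)⁻¹ * lg (Xi (cubeL ((ℓ + 1 : ℕ) : ℝ)) s μ)) :=
  ⟨Cb μ, by rintro _ ⟨ℓ, rfl⟩; exact term_le_Cb hs μ ℓ⟩

lemma Pr_le_Cb {s : ℕ → ℝ} (hs : Adm s) (μ : ℝ) : Pr s μ ≤ Cb μ :=
  ciSup_le (term_le_Cb hs μ)

lemma term_le_Pr {s : ℕ → ℝ} (hs : Adm s) (μ : ℝ) (ℓ : ℕ) :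
    (((ℓ : ℝ) + 3) ^ 3)⁻¹ * lg (Xi (cubeL ((ℓ + 1 : ℕ) : ℝ)) s μ) ≤ Pr s μ :=
  le_ciSup (Pr_bdd hs μ) ℓ

lemma Pr_nonneg {s : ℕ → ℝ} (hs : Adm s) (μ : ℝ) : 0 ≤ Pr s μ := by
  refine le_trans ?_ (term_le_Pr hs μ 0)
  refine mul_nonneg (by positivity) (lg_nonneg (one_le_Xi _ s μ) (Xi_cube_ne_top hs μ 1))

/-- The partition function of a cube is controlled by the pressure. -/
lemma lg_Xi_le_Pr {s : ℕ → ℝ} (hs : Adm s) (μ : ℝ) {ℓ : ℕ} (hℓ : 1 ≤ ℓ) :
    lg (Xi (cubeL ℓ) s μ) ≤ ((ℓ : ℝ) + 2) ^ 3 * Pr s μ := by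
  obtain ⟨k, rfl⟩ : ∃ k, ℓ = k + 1 := ⟨ℓ - 1, by omega⟩
  have h := term_le_Pr hs μ k
  have hp : (0 : ℝ) < ((k : ℝ) + 3) ^ 3 := by positivity
  rw [inv_mul_le_iff₀ hp] at h
  have h2 : ((k : ℝ) + 3) = ((k + 1 : ℕ) : ℝ) + 2 := by push_cast; ring
  rwa [h2] at h

lemma Xi_le_exp_Pr {s : ℕ → ℝ} (hs : Adm s) (μ : ℝ) {ℓ : ℕ} (hℓ : 1 ≤ ℓ) :
    Xi (cubeL ℓ) s μ ≤ ENNReal.ofReal (Real.exp (((ℓ : ℝ) + 2) ^ 3 * Pr s μ)) :=
  le_exp_of_lg_le (one_le_Xi _ s μ) (Xi_cube_ne_top hs μ ℓ) (lg_Xi_le_Pr hs μ hℓ)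

end P171
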